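import Vale.Agent.P078.Extr
import Vale.Agent.P078.QN

/-! Elements orthogonal to the normaliser have small atoms. -/

namespace Vale.Agent.P078.Ctx

open Vale.Agent.P085 Filter Finset
open scoped Topology ComplexConjugate

variable {M X : Type*} [CStarAlgebra M] [TopologicalSpace X] [CompactSpace X] (C : Ctx M X)

omit [CompactSpace X] in
lemma clopen_pre {κ : Type*} {c : X → κ} (hc : IsLocallyConstant c) (s : Set κ) :
    IsClopen (c ⁻¹' s) := ⟨⟨hc sᶜ⟩, hc s⟩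

lemma sum_n2_pj {κ : Type*} [Fintype κ] {c : X → κ} (hc : IsLocallyConstant c) (z : M) :
    ∑ k, C.T.n2 (C.pj (c ⁻¹' {k}) * z) ^ 2 = C.T.n2 z ^ 2 := by
  have h : ∀ k, star (C.pj (c ⁻¹' {k}) * z) * (C.pj (c ⁻¹' {k}) * z) =
      star z * C.pj (c ⁻¹' {k}) * z := fun k => by
    rw [star_mul, (C.pj_proj _).isSelfAdjoint.star_eq, mul_assoc, ← mul_assoc (C.pj _),
      (C.pj_proj _).isIdempotentElem.eq, mul_assoc]
  simp only [C.T.n2_sq, h]
  rw [← Complex.re_sum, ← map_sum, ← sum_mul, ← mul_sum, C.sum_pj hc]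
  simp [C.pj_univ]

/-- Sum of the fourth powers of the 4-norms of the blocks of `w`. -/
noncomputable def A4 {ι ι' : Type*} [Fintype ι] [Fintype ι'] (a : X → ι) (b : X → ι') (w : M) : ℝ :=
  ∑ i, ∑ j, n4 C.T (C.pj (a ⁻¹' {i}) * w * C.pj (b ⁻¹' {j}))

lemma sum_pj_fiber {P Q : DiscreteQuotient X} (h : Q ≤ P) [DecidableEq P] (i : P) :
    ∑ j with DiscreteQuotient.ofLE h j = i, C.pj (Q.proj ⁻¹' {j}) = C.pj (P.proj ⁻¹' {i}) := by
  rw [C.sum_pj Q.proj_isLocallyConstant]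
  congr 1
  ext y
  simp

lemma A4_mono (w : M) {P P' Q Q' : DiscreteQuotient X} (h : Q ≤ P) (h' : Q' ≤ P') :
    C.A4 Q.proj Q'.proj w ≤ C.A4 P.proj P'.proj w := by
  classical
  have h1 : C.A4 Q.proj Q'.proj w ≤ C.A4 Q.proj P'.proj w := sum_le_sum fun i _ => by
    rw [← sum_fiberwise univ (DiscreteQuotient.ofLE h')]
    refine sum_le_sum fun j _ => (sum_n4_right_le _ (fun _ _ => C.pj_proj _)
      (fun _ _ _ _ => C.pj_fib_mul Q') _).trans_eq ?_
    rw [C.sum_pj_fiber]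
  refine h1.trans ?_
  rw [A4, A4, sum_comm, sum_comm (s := (univ : Finset P))]
  refine sum_le_sum fun j _ => ?_
  simp only [mul_assoc]
  rw [← sum_fiberwise univ (DiscreteQuotient.ofLE h)]
  refine sum_le_sum fun i _ => (sum_n4_left_le _ (fun _ _ => C.pj_proj _)
    (fun _ _ _ _ => C.pj_fib_mul Q) _).trans_eq ?_
  rw [C.sum_pj_fiber]

lemma n2_pinch_sq (P : DiscreteQuotient X) (y : M) : C.T.n2 (C.pinch P.proj y) ^ 2 =
    ∑ i, C.T.n2 (C.pj (P.proj ⁻¹' {i}) * y * C.pj (P.proj ⁻¹' {i})) ^ 2 := by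
  rw [← C.sum_n2_pj P.proj_isLocallyConstant]
  refine sum_congr rfl fun i _ => ?_
  rw [pinch, mul_sum, sum_eq_single i (fun j _ hj => ?_) (by simp), ← mul_assoc, ← mul_assoc,
    (C.pj_proj _).isIdempotentElem.eq]
  rw [← mul_assoc, ← mul_assoc, C.pj_fib_mul P hj.symm, zero_mul, zero_mul]

lemma τ_pinch (P : DiscreteQuotient X) (y : M) : C.T.τ (C.pinch P.proj y) = C.T.τ y := by
  rw [pinch, map_sum, sum_congr rfl fun i _ => by
    rw [C.T.comm, ← mul_assoc, (C.pj_proj _).isIdempotentElem.eq], ← map_sum, ← sum_mul,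
    C.sum_pj P.proj_isLocallyConstant]
  simp [C.pj_univ]

variable [T2Space X]

lemma exists_intertwiner' {w : M} {c : ℝ} (hc : 0 < c) (h : ∀ P, c ≤ C.SS w P)
    (hw : ∀ n ∈ C.N0, C.T.τ (n * w) = 0) :
    ∃ u, u ≠ 0 ∧ (∀ V, IsClopen V → ∃ V', IsClopen V' ∧ C.pj V * u = u * C.pj V') ∧
      (∀ f f', w * C.ι f = C.ι f' * w → u * C.ι f = C.ι f' * u) ∧
      ∀ n ∈ C.N0, C.T.τ (n * u) = 0 := by
  obtain ⟨U, -, h1, h2⟩ := C.exists_piece hc h
  obtain ⟨u, hu, h3, h4, h5⟩ := C.exists_intertwiner h1 h2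
  refine ⟨u, hu, h3, fun f f' hf => h4 f f' ?_, fun n hn => h5 n fun f f' => ?_⟩
  · rw [mul_assoc, hf, ← mul_assoc, pj, C.ι_comm, mul_assoc]
  · rw [← mul_assoc, C.T.comm, ← mul_assoc, ← mul_assoc, ← mul_assoc]
    exact hw _ (mul_mem (mul_mem (mul_mem (C.ι_mem_N0 _) hn) (C.ι_mem_N0 _)) (C.ι_mem_N0 _))

lemma conj_mem {u : M} (h : ∀ V, IsClopen V → ∃ V', C.pj V * u = u * C.pj V') (f : C(X, ℂ)) :
    ∃ g, u * C.ι f * star u = C.ι g := by
  refine (C.mem_of_comm_pj fun V hV => ?_).imp fun _ => Eq.symm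
  obtain ⟨V', h1⟩ := h V hV
  have h2 := congr(star $h1)
  rw [star_mul, star_mul, (C.pj_proj _).isSelfAdjoint.star_eq,
    (C.pj_proj _).isSelfAdjoint.star_eq] at h2
  rw [mul_assoc, h2, ← mul_assoc, ← mul_assoc, ← mul_assoc, h1, mul_assoc u (C.ι f),
    mul_assoc u (C.pj V'), pj, C.ι_comm]

theorem SS_small {w : M} (hw : ∀ n ∈ C.N0, C.T.τ (n * w) = 0) {ε : ℝ} (hε : 0 < ε) :
    ∃ P, C.SS w P < ε := by
  by_contra! h
  obtain ⟨u, hu, h1, -, h2⟩ := C.exists_intertwiner' hε h hw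
  have h3 : 0 < C.T.n2 u := (C.T.n2_nonneg u).lt_of_ne' fun h => hu (C.fw.faithful u h)
  have h4 : ∀ P, (C.T.n2 u ^ 2) ^ 2 ≤ C.SS (star u) P := fun P => by
    have h5 := C.T.norm_τ_le_n2 (C.pinch P.proj (star u * u))
    rw [C.τ_pinch, C.T.n2_sq', Complex.norm_real, Real.norm_of_nonneg (sq_nonneg _)] at h5
    refine (pow_le_pow_left₀ (sq_nonneg _) h5 2).trans_eq ?_
    rw [n2_pinch_sq, SS]
    refine sum_congr rfl fun i _ => ?_
    obtain ⟨g, hg⟩ := C.conj_mem (fun V hV => (h1 V hV).imp fun _ h => h.2)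
      (ind (P.proj ⁻¹' {i}))
    have h6 := n4_star (T := C.T) (u * C.pj (P.proj ⁻¹' {i}))
    rw [n4_eq, n4_eq, star_star, star_mul, (C.pj_proj _).isSelfAdjoint.star_eq, ← mul_assoc,
      mul_assoc u, (C.pj_proj _).isIdempotentElem.eq, ← mul_assoc, mul_assoc _ (star u)] at h6
    rw [star_star, ← h6, pj, hg, C.E_ι]
  obtain ⟨v, hv, h5, h6, h7⟩ := C.exists_intertwiner' (by positivity) h4 fun n hn => by
    rw [← star_star n, ← star_mul, C.T.map_star, C.T.comm, h2 _ (star_mem hn), map_zero]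
  have h8 : C.QN v := fun f => ⟨by
    simpa only [star_star] using C.conj_mem (u := star v) (fun V hV => by
      obtain ⟨V', -, h⟩ := h1 V hV
      have h9 := congr(star $h)
      rw [star_mul, star_mul, (C.pj_proj _).isSelfAdjoint.star_eq,
        (C.pj_proj _).isSelfAdjoint.star_eq] at h9
      have h10 := congr(star $(h6 _ _ h9))
      refine ⟨V', ?_⟩
      rwa [star_mul, star_mul, ← pj, ← pj, (C.pj_proj _).isSelfAdjoint.star_eq,
        (C.pj_proj _).isSelfAdjoint.star_eq] at h10) f,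
    C.conj_mem (fun V hV => (h5 V hV).imp fun _ h => h.2) f⟩
  have h9 := orth_cl h7 _ (star_mem (QN.mem_cl C h8))
  exact hv (C.fw.faithful v (sq_eq_zero_iff.mp (by rw [C.T.n2_sq, h9, Complex.zero_re])))

theorem A4_small {w : M} (hw : ∀ n ∈ C.N0, C.T.τ (n * w) = 0) {ε : ℝ} (hε : 0 < ε) :
    ∃ P : DiscreteQuotient X, ∀ Q ≤ P, C.A4 Q.proj Q.proj w < ε := by
  obtain ⟨P, hP⟩ := C.SS_small hw (ε := ε / 4) (by positivity)
  choose R hR using fun i : P => C.pinch_tendsto (star w * C.pj (P.proj ⁻¹' {i}) * w)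
    (ε := √(ε / 4 / (Fintype.card P + 1))) (by positivity)
  refine ⟨P ⊓ univ.inf R, fun Q hQ => (C.A4_mono w (hQ.trans inf_le_left) le_rfl).trans_lt ?_⟩
  have h1 : ∀ i : P, ∑ j, n4 C.T (C.pj (P.proj ⁻¹' {i}) * w * C.pj (Q.proj ⁻¹' {j})) ≤
      2 * C.T.n2 (C.ι (C.E (star w * C.pj (P.proj ⁻¹' {i}) * w))) ^ 2 +
        2 * (ε / 4 / (Fintype.card P + 1)) := fun i => by
    have h2 := hR i Q (hQ.trans (inf_le_right.trans (inf_le (mem_univ i))))
    rw [Real.lt_sqrt (C.T.n2_nonneg _)] at h2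
    have h3 := C.T.n2_add_le (C.pinch Q.proj (star w * C.pj (P.proj ⁻¹' {i}) * w) -
      C.ι (C.E (star w * C.pj (P.proj ⁻¹' {i}) * w))) (C.ι (C.E (star w * C.pj (P.proj ⁻¹' {i}) * w)))
    rw [sub_add_cancel] at h3
    have h4 := pow_le_pow_left₀ (C.T.n2_nonneg _) h3 2
    rw [n2_pinch_sq] at h4
    refine le_trans (le_of_eq (sum_congr rfl fun j _ => ?_)) (h4.trans (add_sq_le.trans ?_))
    · rw [n4_eq, C.conj_pj_eq, star_mul _ (C.pj _), (C.pj_proj _).isSelfAdjoint.star_eq]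
      simp only [mul_assoc]
    · linarith
  refine (sum_le_sum fun i _ => h1 i).trans_lt ?_
  rw [sum_add_distrib, ← mul_sum, ← SS, sum_const, card_univ, nsmul_eq_mul]
  have : (Fintype.card P : ℝ) * (ε / 4 / (Fintype.card P + 1)) ≤ ε / 4 := by
    rw [← mul_div_assoc, div_le_iff₀ (by positivity)]
    nlinarith
  nlinarith

theorem exists_fine {w : M} (hw : ∀ n ∈ C.N0, C.T.τ (n * w) = 0) (T : Finset C.Nor) {ε : ℝ}
    (hε : 0 < ε) : ∃ (N : ℕ) (a : X → Fin N), IsLocallyConstant a ∧ ∀ g ∈ T, ∀ h ∈ T,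
      C.A4 (fun x => a (g • x)) (fun x => a (h • x)) w ≤ ε := by
  choose P hP using fun p : C.Nor × C.Nor => C.A4_small (w := C.U p.1 * w * star (C.U p.2))
    (fun n hn => by
      rw [← mul_assoc, C.T.comm, ← mul_assoc, ← mul_assoc]
      exact hw _ (mul_mem (mul_mem (star_mem (C.U_mem_N0 _)) hn) (C.U_mem_N0 _))) hε
  let Q := (T ×ˢ T).inf P
  let e := Fintype.equivFin Q
  refine ⟨_, fun x => e (Q.proj x), Q.proj_isLocallyConstant.comp e, fun g hg h hh => ?_⟩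
  refine le_trans (le_of_eq ?_) (hP (g, h) Q (inf_le (mem_product.mpr ⟨hg, hh⟩))).le
  have h1 : ∀ (g : C.Nor) i, C.pj ((fun x => e (Q.proj (g • x))) ⁻¹' {e i}) =
      star (C.U g) * C.pj (Q.proj ⁻¹' {i}) * C.U g := fun g i => by
    rw [C.conj_pj g (Q.isClopen_preimage _)]
    congr 1
    ext x
    simp
  rw [A4, A4, ← e.sum_comp]
  refine sum_congr rfl fun i _ => ?_
  rw [← e.sum_comp]
  refine sum_congr rfl fun j _ => ?_
  rw [h1, h1, ← n4_unitary (Unitary.star_mem (C.U_mem g)) (C.U_mem h)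
    (C.pj (Q.proj ⁻¹' {i}) * (C.U g * w * star (C.U h)) * C.pj (Q.proj ⁻¹' {j}))]
  simp only [mul_assoc]

end Vale.Agent.P078.Ctx
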