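import Vale.Agent.P078.Il
import Mathlib.Algebra.Polynomial.Derivative
import Mathlib.Analysis.Complex.Polynomial.Basic
import Mathlib.Analysis.RCLike.Lemmas
import Mathlib.Analysis.SpecialFunctions.Log.Basic

/-! One step of the barrier argument, for real polynomials. -/

namespace Vale.Agent.P078

open Polynomial
open scoped ComplexConjugate

variable {f N : ℝ[X]} {k : ℕ} {b g t : ℝ}

namespace PK

lemma splits (h1 : ∀ z : ℂ, 0 < z.im → aeval z f ≠ 0) : f.Splits := by
  refine Splits.of_splits_map (algebraMap ℝ ℂ) (IsAlgClosed.splits _) fun a ha => ?_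
  have h0 : aeval a f = 0 := by
    rw [← eval_map_algebraMap]
    exact isRoot_of_mem_roots ha
  have him : a.im = 0 := by
    rcases lt_trichotomy a.im 0 with h | h | h
    · refine absurd ?_ (h1 (conj a) (by simpa using h))
      rw [aeval_conj, h0, map_zero]
    · exact h
    · exact absurd h0 (h1 a h)
  exact ⟨a.re, Complex.ext (by simp) (by simp [him])⟩

lemma aeval_eq (hs : f.Splits) (z : ℂ) :
    aeval z f = f.leadingCoeff * (f.roots.map fun t : ℝ => z - t).prod := by
  conv_lhs => rw [hs.eq_prod_roots]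
  simp [map_multiset_prod]

lemma aeval_deriv (hs : f.Splits) {z : ℂ} (hz : aeval z f ≠ 0) :
    aeval z f.derivative / aeval z f = (f.roots.map fun t : ℝ => 1 / (z - t)).sum := by
  have h := (hs.map (algebraMap ℝ ℂ)).eval_derivative_div_eval_of_ne_zero (x := z)
    (by rwa [eval_map_algebraMap])
  rw [derivative_map, eval_map_algebraMap, eval_map_algebraMap, hs.roots_map,
    Multiset.map_map] at h
  simpa using h

lemma im_sum_neg {μ : Multiset ℝ} (hμ : μ ≠ 0) {z : ℂ} (hz : 0 < z.im) :
    ((μ.map fun t : ℝ => 1 / (z - t)).sum).im < 0 := by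
  have key : ∀ t : ℝ, (1 / (z - t)).im < 0 := by
    intro t
    have hne : z - t ≠ 0 := fun h => by
      have := congrArg Complex.im h
      simp at this
      exact hz.ne' this
    rw [one_div, Complex.inv_im]
    refine div_neg_of_neg_of_pos (by simpa using hz) (Complex.normSq_pos.2 hne)
  have all : ∀ s : Multiset ℝ, ((s.map fun t : ℝ => 1 / (z - t)).sum).im ≤ 0 := by
    intro s
    induction s using Multiset.induction_on with
    | empty => simp
    | cons a s ih =>
      rw [Multiset.map_cons, Multiset.sum_cons, Complex.add_im]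
      linarith [key a]
  obtain ⟨a, ha⟩ := Multiset.exists_mem_of_ne_zero hμ
  obtain ⟨s, rfl⟩ := Multiset.exists_cons_of_mem ha
  rw [Multiset.map_cons, Multiset.sum_cons, Complex.add_im]
  linarith [key a, all s]

lemma root_lt (h2 : ∀ s : ℝ, b ≤ |s| → f.eval s ≠ 0) {s : ℝ} (hs : s ∈ f.roots) : |s| < b :=
  lt_of_not_ge fun h => h2 s h (isRoot_of_mem_roots hs)

lemma sum_roots (hk : 0 < k) (hf : f.natDegree = k) (hs : f.Splits) :
    f.coeff (k - 1) = -f.coeff k * f.roots.sum := by
  have := hs.nextCoeff_eq_neg_sum_roots_mul_leadingCoeff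
  rwa [nextCoeff_of_natDegree_pos (by omega), leadingCoeff, hf] at this

lemma top_ne (hk : 0 < k) (hf : f.natDegree = k) : f.coeff k ≠ 0 := by
  rw [← hf]
  refine leadingCoeff_ne_zero.2 ?_
  rintro rfl
  simp at hf
  omega

/-- The residue at infinity of a Pick quotient has a sign. -/
lemma lead_nonneg {R : ℝ[X]} (hk : 0 < k) (hf : f.natDegree = k) (hR : R.natDegree ≤ k)
    (hR0 : R.coeff k = 0) (h1 : ∀ z : ℂ, 0 < z.im → aeval z f ≠ 0)
    (h3 : ∀ z : ℂ, 0 < z.im → (aeval z R * conj (aeval z f)).im ≤ 0) :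
    0 ≤ R.coeff (k - 1) / f.coeff k := by
  have hF := top_ne hk hf
  set P : ℂ[X] := f.map (algebraMap ℝ ℂ) + C Complex.I * R.map (algebraMap ℝ ℂ) with hP
  have hc : ∀ n, P.coeff n = (f.coeff n : ℂ) + Complex.I * R.coeff n := by
    intro n
    simp [hP]
  have hPk : P.coeff k = (f.coeff k : ℂ) := by rw [hc, hR0]; simp
  have hdeg : P.natDegree = k := by
    refine natDegree_eq_of_le_of_coeff_ne_zero ?_ (by rw [hPk]; exact_mod_cast hF)
    refine natDegree_add_le_of_degree_le (natDegree_map_le.trans hf.le) ?_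
    exact (natDegree_C_mul_le _ _).trans (natDegree_map_le.trans hR)
  have hroot : ∀ z ∈ P.roots, z.im ≤ 0 := by
    intro z hz
    by_contra h
    push Not at h
    have h0 : aeval z f + Complex.I * aeval z R = 0 := by
      have := isRoot_of_mem_roots hz
      simpa [hP, IsRoot, eval_map_algebraMap] using this
    have hfz : aeval z f = -(Complex.I * aeval z R) := by linear_combination h0
    have h4 := h3 z h
    rw [hfz] at h4
    simp at h4
    have hr : (aeval z R).re = 0 := by nlinarith [sq_nonneg (aeval z R).re, sq_nonneg (aeval z R).im]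
    have hi : (aeval z R).im = 0 := by nlinarith [sq_nonneg (aeval z R).re, sq_nonneg (aeval z R).im]
    have : aeval z R = 0 := Complex.ext hr hi
    exact h1 z h (by rw [hfz, this]; simp)
  have hsum : P.roots.sum.im ≤ 0 := by
    have : ∀ s : Multiset ℂ, (∀ z ∈ s, z.im ≤ 0) → s.sum.im ≤ 0 := by
      intro s
      induction s using Multiset.induction_on with
      | empty => simp
      | cons a s ih =>
        intro h
        rw [Multiset.sum_cons, Complex.add_im]
        linarith [h a (by simp), ih fun z hz => h z (by simp [hz])]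
    exact this _ hroot
  have hn := (IsAlgClosed.splits P).nextCoeff_eq_neg_sum_roots_mul_leadingCoeff
  rw [nextCoeff_of_natDegree_pos (by omega), leadingCoeff, hdeg, hPk, hc] at hn
  have him := congrArg Complex.im hn
  simp at him
  rw [him, neg_div, mul_div_cancel_left₀ _ hF]
  linarith

lemma exists_ub (μ : Multiset ℝ) (h : ∀ s ∈ μ, |s| < b) (hb : 0 < b) :
    ∃ u, u < b ∧ ∀ s ∈ μ, s ∈ Set.Icc (-b) u := by
  induction μ using Multiset.induction_on with
  | empty => exact ⟨0, hb, by simp⟩
  | cons a s ih =>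
    obtain ⟨u, hu, hs⟩ := ih fun x hx => h x (by simp [hx])
    have ha := abs_lt.1 (h a (by simp))
    refine ⟨max u a, max_lt hu ha.2, fun x hx => ?_⟩
    rcases Multiset.mem_cons.1 hx with rfl | hx
    · exact ⟨ha.1.le, le_max_right _ _⟩
    · exact ⟨(hs x hx).1, (hs x hx).2.trans (le_max_left _ _)⟩

lemma prod_le {μ ν : Multiset ℝ} (h : Il μ ν) (hμ : ∀ s ∈ μ, |s| < b) (hb : 0 < b) :
    0 < (μ.map (b - ·)).prod ∧ (μ.map (b - ·)).prod ≤ 2 * b * (ν.map (b - ·)).prod := by
  obtain ⟨u, hu, hs⟩ := exists_ub μ hμ hb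
  have hν := h.mem_Icc hs
  have hD : MonotoneOn (fun t => -Real.log (b - t)) (Set.Icc (-b) u) := by
    intro x hx y hy hxy
    exact neg_le_neg (Real.log_le_log (by linarith [hy.2]) (by linarith))
  have hl := h.lower hs hD
  have pos : ∀ s : Multiset ℝ, (∀ x ∈ s, x ∈ Set.Icc (-b) u) → 0 < (s.map (b - ·)).prod ∧
      (s.map fun t => -Real.log (b - t)).sum = -Real.log (s.map (b - ·)).prod := by
    intro s
    induction s using Multiset.induction_on with
    | empty => simp
    | cons a s ih =>
      intro hx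
      obtain ⟨p1, p2⟩ := ih fun x h => hx x (by simp [h])
      have ha : 0 < b - a := by linarith [(hx a (by simp)).2]
      simp only [Multiset.map_cons, Multiset.prod_cons, Multiset.sum_cons]
      refine ⟨mul_pos ha p1, ?_⟩
      rw [p2, Real.log_mul ha.ne' p1.ne']
      ring
  obtain ⟨p1, p2⟩ := pos μ hs
  obtain ⟨q1, q2⟩ := pos ν hν
  refine ⟨p1, ?_⟩
  rw [p2, q2] at hl
  rw [← Real.log_le_log_iff p1 (by positivity), Real.log_mul (by positivity) q1.ne']
  have : b - -b = 2 * b := by ring
  simp only [this] at hl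
  linarith

/-- Lower bound for a strict Pick quotient at `b`. -/
lemma quot_ge {R : ℝ[X]} (hk : 0 < k) (hf : f.natDegree = k) (hR : R.natDegree ≤ k - 1)
    (hb : 0 < b) (h1 : ∀ z : ℂ, 0 < z.im → aeval z f ≠ 0) (h2 : ∀ s : ℝ, b ≤ |s| → f.eval s ≠ 0)
    (h3 : ∀ z : ℂ, 0 < z.im → (aeval z R / aeval z f).im < 0)
    (ha : 0 < R.coeff (k - 1) / f.coeff k) :
    R.coeff (k - 1) / f.coeff k / (2 * b) ≤ R.eval b / f.eval b := by
  have hF := top_ne hk hf
  have hs := splits h1
  have hRz : ∀ z : ℂ, 0 < z.im → aeval z R ≠ 0 := fun z hz h => by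
    have := h3 z hz
    rw [h] at this
    simp at this
  have hsR := splits hRz
  have hR0 : R.coeff (k - 1) ≠ 0 := fun h => by simp [h] at ha
  have hdeg : R.natDegree = k - 1 := natDegree_eq_of_le_of_coeff_ne_zero hR hR0
  have lf : f.leadingCoeff = f.coeff k := by rw [leadingCoeff, hf]
  have lR : R.leadingCoeff = R.coeff (k - 1) := by rw [leadingCoeff, hdeg]
  set a := R.coeff (k - 1) / f.coeff k with hadef
  have hil : Il f.roots R.roots := by
    refine ⟨by rw [← hs.natDegree_eq_card_roots, ← hsR.natDegree_eq_card_roots]; omega,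
      fun z hz => ?_⟩
    have e : (f.roots.map fun t : ℝ => z - t).prod / (R.roots.map fun t : ℝ => z - t).prod =
        (a : ℂ) * (aeval z R / aeval z f)⁻¹ := by
      rw [aeval_eq hs, aeval_eq hsR, lf, lR, hadef]
      have h5 : ((f.coeff k : ℝ) : ℂ) ≠ 0 := by exact_mod_cast hF
      have h6 : ((R.coeff (k - 1) : ℝ) : ℂ) ≠ 0 := by exact_mod_cast hR0
      push_cast
      rw [inv_div, mul_div_mul_comm, ← mul_assoc, div_mul_div_cancel₀ h5, div_self h6, one_mul]
    rw [e, Complex.im_ofReal_mul, Complex.inv_im]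
    have hne : aeval z R / aeval z f ≠ 0 := div_ne_zero (hRz z hz) (h1 z hz)
    exact mul_pos ha (div_pos (by linarith [h3 z hz]) (Complex.normSq_pos.2 hne))
  obtain ⟨p1, p2⟩ := prod_le hil (fun s h => root_lt h2 h) hb
  rw [hs.eval_eq_prod_roots, hsR.eval_eq_prod_roots, lf, lR, mul_div_mul_comm, ← hadef, div_eq_mul_inv]
  refine mul_le_mul_of_nonneg_left ?_ ha.le
  rw [inv_eq_one_div, div_le_div_iff₀ (by positivity) p1]
  linarith

end PK

/-- The mean of the roots is at most `b - 1 / g`. -/
lemma mean_le (hk : 0 < k) (hf : f.natDegree = k) (hb : 0 < b) (hg : 0 < g)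
    (h1 : ∀ z : ℂ, 0 < z.im → aeval z f ≠ 0) (h2 : ∀ s : ℝ, b ≤ |s| → f.eval s ≠ 0)
    (h3 : f.derivative.eval b / f.eval b ≤ k * g) :
    -f.coeff (k - 1) / (k * f.coeff k) ≤ b - 1 / g := by
  have hs := PK.splits h1
  have hF := PK.top_ne hk hf
  rw [hs.eval_derivative_div_eval_of_ne_zero (h2 b (le_abs_self b))] at h3
  have key : ∀ s : Multiset ℝ, (∀ x ∈ s, |x| < b) →
      s.card * (2 * g - g ^ 2 * b) + g ^ 2 * s.sum ≤ (s.map fun z => 1 / (b - z)).sum := by
    intro s
    induction s using Multiset.induction_on with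
    | empty => simp
    | cons a s ih =>
      intro h
      have h4 := ih fun x hx => h x (by simp [hx])
      have ha : 0 < b - a := by linarith [(abs_lt.1 (h a (by simp))).2]
      have h5 : 2 * g - g ^ 2 * (b - a) ≤ 1 / (b - a) := by
        rw [le_div_iff₀ ha]
        nlinarith [sq_nonneg (g * (b - a) - 1)]
      simp only [Multiset.card_cons, Multiset.sum_cons, Multiset.map_cons]
      push_cast
      linarith
  have h4 := key f.roots fun x hx => PK.root_lt h2 hx
  rw [← hs.natDegree_eq_card_roots, hf] at h4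
  have hk' : (0 : ℝ) < k := by exact_mod_cast hk
  rw [PK.sum_roots hk hf hs]
  have e : -(-f.coeff k * f.roots.sum) / (k * f.coeff k) = f.roots.sum / k := by
    field_simp
  rw [e, div_le_iff₀ hk']
  have h5 : g * f.roots.sum ≤ k * (g * b - 1) := by
    have : g * (g * f.roots.sum) ≤ g * (k * (g * b - 1)) := by nlinarith
    exact le_of_mul_le_mul_left this hg
  have e2 : (b - 1 / g) * k = k * (g * b - 1) / g := by field_simp
  rw [e2, le_div_iff₀ hg]
  linarith

lemma pick_step (hk : 0 < k) (hf : f.natDegree = k) (hN : N.natDegree ≤ k) (hb : 0 < b)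
    (h1 : ∀ z : ℂ, 0 < z.im → aeval z f ≠ 0) (h2 : ∀ s : ℝ, b ≤ |s| → f.eval s ≠ 0)
    (h3 : ∀ z : ℂ, 0 < z.im → (aeval z N * conj (aeval z f)).im ≤ 0)
    (ht : -f.coeff (k - 1) / (k * f.coeff k) + 2 * b / k ≤ t) :
    (t * N.coeff k + N.coeff (k - 1) / k) / (t * f.coeff k + f.coeff (k - 1) / k) ≤
      N.eval b / f.eval b := by
  have hs := PK.splits h1
  have hF := PK.top_ne hk hf
  have hk' : (0 : ℝ) < k := by exact_mod_cast hk
  have hfb : f.eval b ≠ 0 := h2 b (le_abs_self b)
  set c := N.coeff k / f.coeff k with hc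
  set R := N - C c * f with hR
  have hRc : ∀ n, R.coeff n = N.coeff n - c * f.coeff n := fun n => by simp [hR]
  have hR0 : R.coeff k = 0 := by rw [hRc, hc]; field_simp; ring
  have hRd : R.natDegree ≤ k := by
    refine (natDegree_sub_le _ _).trans (max_le hN ?_)
    exact (natDegree_C_mul_le _ _).trans hf.le
  have hRd' : R.natDegree ≤ k - 1 := by
    refine natDegree_le_iff_coeff_eq_zero.2 fun n hn => ?_
    rcases (by omega : n = k ∨ k < n) with rfl | h
    · exact hR0
    · exact coeff_eq_zero_of_natDegree_lt (hRd.trans_lt h)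
  have h3' : ∀ z : ℂ, 0 < z.im → (aeval z R * conj (aeval z f)).im ≤ 0 := by
    intro z hz
    have e : aeval z R * conj (aeval z f) =
        aeval z N * conj (aeval z f) - ((c * Complex.normSq (aeval z f) : ℝ) : ℂ) := by
      push_cast
      rw [← Complex.mul_conj]
      simp [hR]
      ring
    rw [e, Complex.sub_im, Complex.ofReal_im, sub_zero]
    exact h3 z hz
  have hL := PK.lead_nonneg hk hf hRd hR0 h1 h3'
  set L := R.coeff (k - 1) / f.coeff k with hLdef
  have hq : ∀ ε : ℝ, 0 < ε →
      L / (2 * b) ≤ R.eval b / f.eval b + ε * (f.derivative.eval b / f.eval b) := by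
    intro ε hε
    have hco : (R + C ε * f.derivative).coeff (k - 1) / f.coeff k = L + ε * k := by
      rw [coeff_add, coeff_C_mul, coeff_derivative, Nat.sub_add_cancel hk, hLdef]
      have : ((k - 1 : ℕ) : ℝ) + 1 = k := by exact_mod_cast Nat.sub_add_cancel hk
      rw [this]
      field_simp
    have := PK.quot_ge (R := R + C ε * f.derivative) hk hf ?_ hb h1 h2 ?_ (by rw [hco]; positivity)
    · rw [hco] at this
      simp only [eval_add, eval_mul, eval_C, add_div, mul_div_assoc] at this
      have h4 : 0 ≤ ε * (k / (2 * b)) := by positivity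
      linarith
    · refine natDegree_add_le_of_degree_le hRd' ((natDegree_C_mul_le _ _).trans ?_)
      rw [← hf]
      exact natDegree_derivative_le f
    · intro z hz
      have hz0 := h1 z hz
      have e : aeval z (R + C ε * f.derivative) / aeval z f =
          (aeval z R * conj (aeval z f)) / (Complex.normSq (aeval z f) : ℝ) +
            ε * (aeval z f.derivative / aeval z f) := by
        have : conj (aeval z f) ≠ 0 := by simpa using hz0
        rw [← Complex.mul_conj]
        simp only [map_add, map_mul, aeval_C, Complex.coe_algebraMap]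
        field_simp
      have hne : f.roots ≠ 0 := hs.roots_ne_zero (by omega)
      rw [e, PK.aeval_deriv hs hz0, Complex.add_im, Complex.div_ofReal_im, Complex.im_ofReal_mul]
      have h4 := div_nonpos_of_nonpos_of_nonneg (h3' z hz) (Complex.normSq_nonneg (aeval z f))
      have h5 := mul_neg_of_pos_of_neg hε (PK.im_sum_neg hne hz)
      linarith
  have hq' : L / (2 * b) ≤ R.eval b / f.eval b := by
    refine le_of_forall_pos_le_add fun δ hδ => ?_
    set D := f.derivative.eval b / f.eval b
    have h4 := hq (δ / (|D| + 1)) (by positivity)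
    have h5 : δ / (|D| + 1) * D ≤ δ := by
      rw [div_mul_eq_mul_div, div_le_iff₀ (by positivity)]
      nlinarith [le_abs_self D]
    linarith
  set s := t + f.coeff (k - 1) / (k * f.coeff k) with hsdef
  have hs1 : 2 * b / k ≤ s := by rw [hsdef]; rw [neg_div] at ht; linarith
  have hs0 : 0 < s := lt_of_lt_of_le (by positivity) hs1
  have e1 : t * f.coeff k + f.coeff (k - 1) / k = f.coeff k * s := by
    rw [hsdef]; field_simp
  have e2 : t * N.coeff k + N.coeff (k - 1) / k = f.coeff k * (c * s + L / k) := by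
    rw [hsdef, hLdef, hRc, hc]; field_simp; ring
  have e3 : N.eval b / f.eval b = c + R.eval b / f.eval b := by
    simp only [hR, eval_sub, eval_mul, eval_C]; field_simp; ring
  rw [e1, e2, e3, mul_div_mul_left _ _ hF, add_div, mul_div_cancel_right₀ _ hs0.ne']
  have h6 : L / k / s ≤ L / (2 * b) := by
    rw [div_div]
    refine div_le_div_of_nonneg_left hL (by positivity) ?_
    rw [div_le_iff₀ hk'] at hs1
    linarith
  linarith

end Vale.Agent.P078
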