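import Vale.Agent.P078.BarA
import Vale.Agent.P078.Pick

/-! The barrier argument. -/

namespace Vale.Agent.P078

open Finset Polynomial
open scoped ComplexConjugate

variable {V J : Type*} [DecidableEq V] [Fintype J] [DecidableEq J]
variable {A : J → V → V → ℂ}

lemma two_le_sqrt {k : ℕ} (hk : 4 ≤ k) : (2 : ℝ) ≤ √k := by
  refine Real.le_sqrt_of_sq_le ?_
  have : (4 : ℝ) ≤ k := by exact_mod_cast hk
  linarith

lemma cfg_erase {S : Finset V} (l : V → ℝ) (v : V) (s : ℝ) :
    (cfg J (S.erase v) fun x => ((Function.update l v s x : ℝ) : ℂ)) =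
      Function.update (cfg J S fun x => (l x : ℂ)) v (full (s : ℂ)) := by
  funext x
  rcases eq_or_ne x v with rfl | h
  · simp [cfg]
  · simp [cfg, h]

theorem bar_inv (hA : ∀ j, Ctr (A j)) (hd : ∀ j v, A j v v = 0) (hk : 4 ≤ Fintype.card J)
    (S Λ : Finset V) (l : V → ℝ) (h1 : ∀ v ∈ Λ, v ∈ S → tb (Fintype.card J) ≤ l v)
    (h2 : ∀ v ∈ Λ, v ∉ S → √(Fintype.card J) ≤ |l v|) :
    PP (mm A) Λ (cfg J S fun v => (l v : ℂ)) ≠ 0 ∧ ∀ u ∈ Λ, u ∉ S → ∀ i,
      (PP (mm A) Λ (Function.update (cfg J S fun v => (l v : ℂ)) u (fullBut i (l u : ℂ))) /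
        PP (mm A) Λ (cfg J S fun v => (l v : ℂ))).re ≤
        1 / (√(Fintype.card J) - 1 / (√(Fintype.card J) - 1)) := by
  have hb := two_le_sqrt hk
  induction hn : (Λ ∩ S).card using Nat.strong_induction_on generalizing S Λ l with
  | _ n ih =>
  rcases (Λ ∩ S).eq_empty_or_nonempty with h0 | ⟨v, hv⟩
  · have hS : ∀ v ∈ Λ, v ∉ S := fun v hv h => by
      have := mem_inter.2 ⟨hv, h⟩
      simp [h0] at this
    have e : ∀ v ∈ Λ, (cfg J S fun v => (l v : ℂ)) v = full (l v : ℂ) := fun v hv => by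
      simp [cfg, hS v hv]
    obtain ⟨p1, p2⟩ := bar_base hA hd hb fun v hv => h2 v hv (hS v hv)
    rw [PP_congr e fun _ _ _ => rfl]
    refine ⟨p1, fun u hu _ i => ?_⟩
    rw [PP_congr (w' := Function.update (fun v => full (l v : ℂ)) u (fullBut i (l u : ℂ)))
      (fun v hv => ?_) fun _ _ _ => rfl]
    · exact p2 u hu i
    · rcases eq_or_ne v u with rfl | h
      · simp
      · simp [h, e v hv]
  obtain ⟨hvΛ, hvS⟩ := mem_inter.1 hv
  have : Nonempty J := Fintype.card_pos_iff.1 (by omega)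
  set k := Fintype.card J with hkdef
  set b := √(k : ℝ) with hbdef
  set w : V → Finset J → ℂ := cfg J S fun x => (l x : ℂ) with hw
  have hre : IsRe w := isRe_cfg S l
  have IH : ∀ s : ℝ, b ≤ |s| → PP (mm A) Λ (Function.update w v (full (s : ℂ))) ≠ 0 ∧
      ∀ u ∈ Λ, u ∉ S.erase v → ∀ i, (PP (mm A) Λ (Function.update (Function.update w v
        (full (s : ℂ))) u (fullBut i ((Function.update l v s u : ℝ) : ℂ))) /
        PP (mm A) Λ (Function.update w v (full (s : ℂ)))).re ≤ 1 / (b - 1 / (b - 1)) := by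
    intro s hs
    have := ih (Λ ∩ S.erase v).card ?_ (S.erase v) Λ (Function.update l v s) ?_ ?_ rfl
    · rwa [cfg_erase] at this
    · rw [← hn, inter_erase]
      exact card_erase_lt_of_mem hv
    · intro x hx hxS
      rw [Function.update_of_ne (ne_of_mem_erase hxS)]
      exact h1 x hx (mem_of_mem_erase hxS)
    · intro x hx hxS
      rcases eq_or_ne x v with rfl | h
      · simpa using hs
      · rw [Function.update_of_ne h]
        exact h2 x hx fun h' => hxS (mem_erase.2 ⟨h, h'⟩)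
  have htop : PP (mm A) (Λ.erase v) w ≠ 0 := by
    refine (ih (Λ.erase v ∩ S).card ?_ S (Λ.erase v) l (fun x hx => h1 x (mem_of_mem_erase hx))
      (fun x hx => h2 x (mem_of_mem_erase hx)) rfl).1
    rw [← hn, erase_inter]
    exact card_erase_lt_of_mem hv
  have ev : ∀ {w' : V → Finset J → ℂ}, IsRe w' → ∀ s : ℝ, (((polyF A Λ w' v).eval s : ℝ) : ℂ) =
      PP (mm A) Λ (Function.update w' v (full (s : ℂ))) := by
    intro w' hw' s
    rw [← polyF_aeval hA hw' hvΛ]
    exact (aeval_algebraMap_apply_eq_algebraMap_eval (A := ℂ) s _).symm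
  set f := polyF A Λ w v with hf
  have hk0 : 0 < k := by omega
  have hkr : (0 : ℝ) < k := by exact_mod_cast hk0
  have hF : f.coeff k ≠ 0 := by
    rw [← Complex.ofReal_ne_zero, polyF_top hA hre hvΛ]
    exact htop
  have hdeg : f.natDegree = k := natDegree_eq_of_le_of_coeff_ne_zero polyF_natDegree_le hF
  have f1 : ∀ z : ℂ, 0 < z.im → aeval z f ≠ 0 := fun z hz => by
    rw [polyF_aeval hA hre hvΛ]
    exact lim_ne_zero hA l hvΛ htop hz
  have f2 : ∀ s : ℝ, b ≤ |s| → f.eval s ≠ 0 := fun s hs => by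
    rw [← Complex.ofReal_ne_zero, ev hre]
    exact (IH s hs).1
  have hb1 : 1 / (b - 1) ≤ 1 := by
    rw [div_le_one (by linarith)]
    linarith
  have hg : 0 < 1 / (b - 1 / (b - 1)) := one_div_pos.2 (by linarith)
  have f3 : f.derivative.eval b / f.eval b ≤ k * (1 / (b - 1 / (b - 1))) := by
    rw [← Complex.ofReal_re (_ / _), Complex.ofReal_div, polyF_deriv hA hre hvΛ, ev hre, sum_div,
      Complex.re_sum, hkdef, ← card_univ, ← nsmul_eq_mul]
    refine sum_le_card_nsmul _ _ _ fun i _ => ?_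
    have := (IH b (le_abs_self b)).2 v hvΛ (notMem_erase v S) i
    rwa [Function.update_idem, Function.update_self] at this
  have hm := mean_le hk0 hdeg (by linarith) hg f1 f2 f3
  have ht : -f.coeff (k - 1) / (k * f.coeff k) + 2 * b / k ≤ l v := by
    have := h1 v hvΛ hvS
    rw [one_div_one_div] at hm
    unfold tb at this
    linarith
  have hwv : w v = mix (fun j => (unif J j : ℂ)) (l v) := by simp [hw, cfg, hvS]
  have e1 := polyF_mix hA hre hvΛ (l v)
  rw [← hwv, Function.update_eq_self] at e1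
  refine ⟨?_, fun u hu huS i => ?_⟩
  · rw [← e1, Complex.ofReal_ne_zero]
    have e : l v * f.coeff k + f.coeff (k - 1) / k =
        f.coeff k * (l v - -f.coeff (k - 1) / (k * f.coeff k)) := by
      field_simp
      ring
    rw [e]
    have : 0 < 2 * b / k := by positivity
    exact mul_ne_zero hF (by linarith)
  · have huv : u ≠ v := fun h => huS (h ▸ hvS)
    have hre' := hre.fullBut u i (l u)
    have e2 := polyF_mix hA hre' hvΛ (l v)
    rw [← hwv, ← Function.update_of_ne huv.symm (fullBut i (l u : ℂ)) w,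
      Function.update_eq_self] at e2
    rw [← e1, ← e2, ← Complex.ofReal_div, Complex.ofReal_re]
    refine (pick_step hk0 hdeg polyF_natDegree_le (by linarith) f1 f2 (fun z hz => ?_) ht).trans ?_
    · rw [polyF_aeval hA hre' hvΛ, polyF_aeval hA hre hvΛ]
      exact lim_im hA l hvΛ hu huS huv hz
    · rw [← Complex.ofReal_re (_ / _), Complex.ofReal_div, ev hre', ev hre,
        Function.update_comm huv]
      have := (IH b (le_abs_self b)).2 u hu (fun h => huS (mem_of_mem_erase h)) i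
      rwa [Function.update_of_ne huv] at this

lemma tb_pos {k : ℕ} (hk : 4 ≤ k) : 0 < tb k := by
  have := two_le_sqrt hk
  have h1 : 0 < 1 / (√(k : ℝ) - 1) := one_div_pos.2 (by linarith)
  unfold tb
  positivity

theorem PZ_barrier (hA : ∀ j, Ctr (A j)) (hd : ∀ j v, A j v v = 0) (hk : 4 ≤ Fintype.card J)
    {Λ : Finset V} {q : V → J → ℝ} (hq : ∀ v ∈ Λ, q v = unif J ∨ q v = 0) {z : ℝ}
    (hz : tb (Fintype.card J) ≤ z) : PZ A q Λ (fun _ => (z : ℂ)) ≠ 0 := by
  induction hn : Λ.card using Nat.strong_induction_on generalizing Λ with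
  | _ n ih =>
  by_cases h : ∀ v ∈ Λ, q v = unif J
  · unfold PZ
    rw [PP_congr (w' := cfg J Λ fun _ => (z : ℂ)) (fun v hv => by simp [cfg, hv, h v hv])
      fun _ _ _ => rfl]
    exact (bar_inv hA hd hk Λ Λ (fun _ => z) (fun _ _ _ => hz) fun _ h1 h2 => absurd h1 h2).1
  · push Not at h
    obtain ⟨v, hv, hqv⟩ := h
    have h0 := (hq v hv).resolve_left hqv
    have e := PZ_update (A := A) (q := q) (Z := fun _ => (z : ℂ)) hv 0 z
    rw [← h0, Function.update_eq_self, Function.update_eq_self, h0] at e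
    rw [e]
    simp only [Pi.zero_apply, Complex.ofReal_zero, zero_mul, sum_const_zero, add_zero]
    refine mul_ne_zero (Complex.ofReal_ne_zero.2 ((tb_pos hk).trans_le hz).ne') ?_
    exact ih _ (hn ▸ card_erase_lt_of_mem hv) (fun x hx => hq x (mem_of_mem_erase hx)) rfl

lemma tb_le {k : ℕ} (hk : 4 ≤ k) : tb k ≤ 4 / √k := by
  have h := two_le_sqrt hk
  have hs : √(k : ℝ) * √(k : ℝ) = k := Real.mul_self_sqrt (Nat.cast_nonneg k)
  unfold tb
  set r := √(k : ℝ)
  have h1 : 1 / (r - 1) ≤ 2 / r := by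
    rw [div_le_div_iff₀ (by linarith) (by linarith)]
    linarith
  have h2 : 2 * r / k = 2 / r := by
    rw [← hs]
    field_simp
  have h3 : 4 / r = 2 / r + 2 / r := by ring
  linarith

end Vale.Agent.P078
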