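import Vale.Agent.P078.NV
import Mathlib.Algebra.Polynomial.Derivative
import Mathlib.Analysis.Complex.Polynomial.Basic
import Mathlib.LinearAlgebra.Matrix.ToLinearEquiv

/-! Ingredients of the barrier argument. -/

namespace Vale.Agent.P078

open Finset Polynomial
open scoped ComplexConjugate

variable {V J : Type*} [DecidableEq V] [Fintype J] [DecidableEq J]
variable {A : J → V → V → ℂ} {Λ S : Finset V} {u v : V} {i : J}

/-- Vertices of `S` are uniformly mixed, the others are present in all slots. -/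
noncomputable def cfg (J : Type*) [Fintype J] [DecidableEq J] (S : Finset V) (l : V → ℂ) :
    V → Finset J → ℂ :=
  fun v => if v ∈ S then mix (fun j => (unif J j : ℂ)) (l v) else full (l v)

/-- `PP` as a polynomial in the level of the full vertex `v`. -/
noncomputable def polyF (A : J → V → V → ℂ) (Λ : Finset V) (w : V → Finset J → ℂ) (v : V) : ℝ[X] :=
  ∑ I : Finset J, monomial (Fintype.card J - I.card) (PP (mm A) Λ (Function.update w v (dl I))).re

/-- All weights are real. -/
def IsRe (w : V → Finset J → ℂ) : Prop := ∀ v I, (w v I).im = 0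

lemma isRe_cfg (S : Finset V) (l : V → ℝ) : IsRe (cfg J S fun v => (l v : ℂ)) := by
  intro v I
  unfold cfg
  split_ifs
  · have := map_mix Complex.ofRealHom (unif J) (l v) I
    simp only [Complex.ofRealHom_eq_coe] at this
    rw [← this, Complex.ofReal_im]
  · rw [full_apply, ← Complex.ofReal_pow, Complex.ofReal_im]

lemma IsRe.fullBut {w : V → Finset J → ℂ} (hw : IsRe w) (u : V) (i : J) (s : ℝ) :
    IsRe (Function.update w u (fullBut i (s : ℂ))) := by
  intro v I
  rcases eq_or_ne v u with rfl | h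
  · rw [Function.update_self]
    have := map_pr Complex.ofRealHom (Function.update (fun _ => 1) i 0)
      (Function.update (fun _ => s) i 1) I
    have e : (P078.fullBut i (s : ℂ)) I = Complex.ofRealHom (P078.fullBut i s I) := by
      unfold P078.fullBut
      rw [this]
      congr 1
      · funext j
        rcases eq_or_ne j i with rfl | hj
        · simp
        · simp [hj]
      · funext j
        rcases eq_or_ne j i with rfl | hj
        · simp
        · simp [hj]
    rw [e, Complex.ofRealHom_eq_coe, Complex.ofReal_im]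
  · rw [Function.update_of_ne h]
    exact hw v I

lemma IsRe.im_PP (hA : ∀ j, Ctr (A j)) {w : V → Finset J → ℂ} (hw : IsRe w) :
    (PP (mm A) Λ w).im = 0 := by
  rw [← Complex.conj_eq_iff_im, PP_map]
  refine PP_congr (fun v _ => funext fun I => Complex.conj_eq_iff_im.2 (hw v I)) fun j S _ => ?_
  exact mnr_conj (hA j).herm S

omit [Fintype J] in
lemma IsRe.dl {w : V → Finset J → ℂ} (hw : IsRe w) (u : V) (K : Finset J) :
    IsRe (Function.update w u (dl K)) := by
  intro v I
  rcases eq_or_ne v u with rfl | h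
  · rw [Function.update_self, dl_apply]
    split_ifs <;> simp
  · rw [Function.update_of_ne h]
    exact hw v I

lemma IsRe.re_PP (hA : ∀ j, Ctr (A j)) {w : V → Finset J → ℂ} (hw : IsRe w) :
    ((PP (mm A) Λ w).re : ℂ) = PP (mm A) Λ w :=
  Complex.ext (by simp) (by simp [hw.im_PP hA])

section polyF

variable {w : V → Finset J → ℂ}

lemma polyF_natDegree_le : (polyF A Λ w v).natDegree ≤ Fintype.card J :=
  natDegree_sum_le_of_forall_le _ _ fun _ _ => (natDegree_monomial_le _).trans (Nat.sub_le _ _)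

lemma polyF_aeval (hA : ∀ j, Ctr (A j)) (hw : IsRe w) (hv : v ∈ Λ) (z : ℂ) :
    aeval z (polyF A Λ w v) = PP (mm A) Λ (Function.update w v (full z)) := by
  rw [PP_update hv, polyF, map_sum]
  refine sum_congr rfl fun I _ => ?_
  rw [aeval_monomial, full_apply, Complex.coe_algebraMap, (hw.dl v I).re_PP hA, mul_comm]

lemma polyF_deriv (hA : ∀ j, Ctr (A j)) (hw : IsRe w) (hv : v ∈ Λ) (s : ℝ) :
    ((polyF A Λ w v).derivative.eval s : ℝ) =
      ∑ i, PP (mm A) Λ (Function.update w v (fullBut i (s : ℂ))) := by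
  rw [sum_congr rfl fun i _ => PP_update hv (fullBut i (s : ℂ)), sum_comm, polyF, derivative_sum,
    eval_finsetSum, Complex.ofReal_sum]
  refine sum_congr rfl fun I _ => ?_
  rw [← sum_mul, sum_fullBut, derivative_monomial, eval_monomial]
  push_cast
  rw [(hw.dl v I).re_PP hA]
  ring

lemma polyF_top (hA : ∀ j, Ctr (A j)) (hw : IsRe w) (hv : v ∈ Λ) :
    ((polyF A Λ w v).coeff (Fintype.card J) : ℝ) = PP (mm A) (Λ.erase v) w := by
  rw [polyF, finsetSum_coeff, sum_eq_single ∅ _ (by simp), ← PP_erase hv,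
    ← (hw.dl v ∅).re_PP hA]
  · simp
  · intro I _ hI
    have h1 := card_pos.2 (nonempty_iff_ne_empty.2 hI)
    have h2 := card_le_univ I
    rw [coeff_monomial, if_neg (by omega)]

lemma polyF_mix [Nonempty J] (hA : ∀ j, Ctr (A j)) (hw : IsRe w) (hv : v ∈ Λ) (t : ℝ) :
    ((t * (polyF A Λ w v).coeff (Fintype.card J) +
      (polyF A Λ w v).coeff (Fintype.card J - 1) / Fintype.card J : ℝ) : ℂ) =
      PP (mm A) Λ (Function.update w v (mix (fun j => (unif J j : ℂ)) t)) := by
  have hk : 0 < Fintype.card J := Fintype.card_pos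
  have h : (polyF A Λ w v).coeff (Fintype.card J - 1) =
      ∑ j, (PP (mm A) Λ (Function.update w v (dl {j}))).re := by
    rw [polyF, finsetSum_coeff, ← sum_subset (subset_univ (univ.image fun j : J => ({j} : Finset J))),
      sum_image fun a _ b _ h => singleton_injective h]
    · refine sum_congr rfl fun j _ => ?_
      simp
    · intro I _ hI
      have h2 := card_le_univ I
      rw [coeff_monomial, if_neg]
      intro h3
      obtain ⟨j, rfl⟩ := card_eq_one.1 (by omega : I.card = 1)
      simp at hI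
  rw [PP_mix hv, ← polyF_top hA hw hv, h]
  push_cast
  rw [sum_div]
  congr 1
  refine sum_congr rfl fun j _ => ?_
  rw [(hw.dl v {j}).re_PP hA]
  simp [unif, div_eq_mul_inv, mul_comm]

end polyF

namespace BA

lemma cont_PP {m : J → Finset V → ℂ} {w : ℝ → V → Finset J → ℂ}
    (h : ∀ v I, Continuous fun ε => w ε v I) : Continuous fun ε => PP m Λ (w ε) := by
  unfold PP
  refine continuous_finsetSum _ fun t _ => ?_
  exact (continuous_finsetProd _ fun v _ => h v _).mul continuous_const

omit [Fintype J] [DecidableEq J] in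
lemma cont_upd {w : ℝ → V → Finset J → ℂ} (h : ∀ v I, Continuous fun ε => w ε v I) (u : V)
    {x : ℝ → Finset J → ℂ} (hx : ∀ I, Continuous fun ε => x ε I) :
    ∀ v I, Continuous fun ε => Function.update (w ε) u (x ε) v I := by
  intro v I
  rcases eq_or_ne v u with rfl | huv
  · simpa using hx I
  · simpa [huv] using h v I

lemma cont_cfg (l : V → ℝ) :
    ∀ v I, Continuous fun ε : ℝ => cfg J S (fun v => (l v : ℂ) + ε * Complex.I) v I := by
  intro v I
  unfold cfg
  split_ifs
  · simp only [mix_apply]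
    fun_prop
  · simp only [full_apply]
    fun_prop

lemma cont_fullBut (s : ℝ) (I : Finset J) :
    Continuous fun ε : ℝ => fullBut i ((s : ℂ) + ε * Complex.I) I := by
  unfold fullBut pr
  refine continuous_finsetProd _ fun j _ => ?_
  split_ifs
  · exact continuous_const
  · rcases eq_or_ne j i with rfl | hj
    · simpa using continuous_const
    · simp only [Function.update_of_ne hj]
      fun_prop

omit [DecidableEq J] in
lemma sub_unif : Sub (unif J) := by
  refine ⟨fun j => by unfold unif; positivity, ?_⟩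
  simp only [unif, sum_const, card_univ, nsmul_eq_mul, mul_one_div]
  exact div_self_le_one _

lemma st_full {R : Set ℂ} {z : ℂ} (hz : z ∈ R) : St R (full z : Finset J → ℂ) :=
  Or.inl ⟨_, _, rfl, fun _ => Or.inl ⟨rfl, hz⟩⟩

lemma st_fullBut {R : Set ℂ} {z : ℂ} (hz : z ∈ R) : St R (fullBut i z : Finset J → ℂ) := by
  refine Or.inl ⟨_, _, rfl, fun j => ?_⟩
  rcases eq_or_ne j i with rfl | hj
  · simp
  · simp [hj, hz]

lemma st_cfg {R : Set ℂ} {l : V → ℂ} (hz : l v ∈ R) : St R (cfg J S l v) := by
  unfold cfg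
  split_ifs
  · exact Or.inr ⟨_, _, sub_unif, hz, rfl⟩
  · exact st_full hz

lemma st_upd {R : Set ℂ} {w : V → Finset J → ℂ} (h : ∀ v, St R (w v)) (u : V)
    {x : Finset J → ℂ} (hx : St R x) : ∀ v, St R (Function.update w u x v) := by
  intro v
  rcases eq_or_ne v u with rfl | huv
  · simpa using hx
  · simpa [huv] using h v

lemma st_eps (l : V → ℝ) {ε : ℝ} (hε : 0 < ε) (v : V) :
    St {z | 0 < z.im} (cfg J S (fun v => (l v : ℂ) + ε * Complex.I) v) :=
  st_cfg (by simpa using hε)

lemma PP_add {m : J → Finset V → ℂ} {w : V → Finset J → ℂ} (hu : u ∈ Λ) (x y : Finset J → ℂ)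
    (t : ℂ) : PP m Λ (Function.update w u (x + t • y)) =
      PP m Λ (Function.update w u x) + t * PP m Λ (Function.update w u y) := by
  rw [PP_update hu, PP_update hu x, PP_update hu y, mul_sum, ← sum_add_distrib]
  refine sum_congr rfl fun I _ => ?_
  simp only [Pi.add_apply, Pi.smul_apply, smul_eq_mul]
  ring

lemma norm_ge {p : ℂ[X]} {k : ℕ} (hp : p.natDegree ≤ k) (h : ∀ z : ℂ, 0 < z.im → p.eval z ≠ 0)
    {z : ℂ} (hz : 0 < z.im) : ‖p.coeff k‖ * z.im ^ k ≤ ‖p.eval z‖ := by
  rcases eq_or_ne (p.coeff k) 0 with h0 | h0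
  · simp [h0]
  have hd := natDegree_eq_of_le_of_coeff_ne_zero hp h0
  have hs := IsAlgClosed.splits p
  rw [hs.eval_eq_prod_roots, norm_mul, leadingCoeff, hd]
  refine mul_le_mul_of_nonneg_left ?_ (norm_nonneg _)
  rw [← hd, hs.natDegree_eq_card_roots]
  have key : ∀ s : Multiset ℂ, (∀ r ∈ s, r.im ≤ 0) → z.im ^ s.card ≤ ‖(s.map (z - ·)).prod‖ := by
    intro s
    induction s using Multiset.induction_on with
    | empty => simp
    | cons a s ih =>
      intro hr
      rw [Multiset.map_cons, Multiset.prod_cons, norm_mul, Multiset.card_cons, pow_succ']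
      refine mul_le_mul ?_ (ih fun r h => hr r (by simp [h])) (by positivity) (norm_nonneg _)
      have h1 := Complex.im_le_norm (z - a)
      rw [Complex.sub_im] at h1
      linarith [hr a (by simp)]
  exact key _ fun r hr => le_of_not_gt fun h1 => h r h1 (isRoot_of_mem_roots hr)

lemma le_of_eps {F G : ℝ → ℝ} (hF : Continuous F) (hG : Continuous G)
    (h : ∀ ε, 0 < ε → F ε ≤ G ε) : F 0 ≤ G 0 := by
  have := (isClosed_le hF hG).closure_subset_iff.2 (show Set.Ioi 0 ⊆ _ from h)
  exact this (by simp)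

lemma det_ne {B : V → V → ℂ} (hB : Ctr B) (hd : B u u = 0) (hu : u ∈ Λ) {b : ℝ} (hb : 2 ≤ b)
    {Z : V → ℂ} (hZ : ∀ v ∈ Λ, v ≠ u → b ≤ ‖Z v‖) (hZu : 1 / (b - 1) < ‖Z u‖) :
    Matrix.det (Matrix.of fun x y : Λ => (if x = y then Z x else 0) - 1 * B x y) ≠ 0 := by
  intro h
  obtain ⟨ξ, hξ, h0⟩ := Matrix.exists_mulVec_eq_zero_iff.2 h
  set x : V → ℂ := fun v => if h : v ∈ Λ then ξ ⟨v, h⟩ else 0 with hx
  have hxe : ∀ a : Λ, x a = ξ a := fun a => by simp [hx]
  have eqn : ∀ a ∈ Λ, Z a * x a = ∑ c ∈ Λ, B a c * x c := by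
    intro a ha
    have := congrFun h0 ⟨a, ha⟩
    simp only [Matrix.mulVec, dotProduct, Matrix.of_apply, sub_mul, sum_sub_distrib, ite_mul,
      zero_mul, sum_ite_eq, mem_univ, if_true, one_mul, Pi.zero_apply, ← hxe] at this
    rw [← sum_coe_sort Λ]
    exact sub_eq_zero.1 this
  set E := ∑ a ∈ Λ.erase u, ‖x a‖ ^ 2 with hE
  have hE0 : 0 ≤ E := sum_nonneg fun _ _ => by positivity
  have h1 : ‖Z u‖ ^ 2 * ‖x u‖ ^ 2 ≤ E := by
    have h2 := hB.sum_sq_le Λ (Function.update x u 0)
    have h3 : ∑ a ∈ Λ, ‖Function.update x u 0 a‖ ^ 2 = E := by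
      rw [← add_sum_erase _ _ hu, hE]
      simp only [Function.update_self, norm_zero, ne_eq, OfNat.ofNat_ne_zero, not_false_eq_true,
        zero_pow, zero_add]
      exact sum_congr rfl fun a ha => by rw [Function.update_of_ne (ne_of_mem_erase ha)]
    have h4 : ∑ c ∈ Λ, B u c * Function.update x u 0 c = Z u * x u := by
      rw [eqn u hu]
      refine sum_congr rfl fun c _ => ?_
      rcases eq_or_ne c u with rfl | hc
      · simp [hd]
      · rw [Function.update_of_ne hc]
    have h5 := single_le_sum (f := fun a => ‖∑ c ∈ Λ, B a c * Function.update x u 0 c‖ ^ 2)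
      (fun _ _ => by positivity) hu
    simp only [h4, norm_mul, mul_pow] at h5
    linarith
  have h2 : b ^ 2 * E ≤ E + ‖x u‖ ^ 2 := by
    have h3 := hB.sum_sq_le Λ x
    have h3' : ∑ a ∈ Λ, ‖Z a * x a‖ ^ 2 = ∑ a ∈ Λ, ‖∑ c ∈ Λ, B a c * x c‖ ^ 2 :=
      sum_congr rfl fun a ha => by rw [eqn a ha]
    rw [← h3', ← add_sum_erase _ (fun a => ‖Z a * x a‖ ^ 2) hu,
      ← add_sum_erase _ (fun a => ‖x a‖ ^ 2) hu, ← hE] at h3
    have h4 : b ^ 2 * E ≤ ∑ a ∈ Λ.erase u, ‖Z a * x a‖ ^ 2 := by
      rw [hE, mul_sum]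
      refine sum_le_sum fun a ha => ?_
      rw [norm_mul, mul_pow]
      refine mul_le_mul_of_nonneg_right ?_ (by positivity)
      exact pow_le_pow_left₀ (by linarith) (hZ a (mem_of_mem_erase ha) (ne_of_mem_erase ha)) 2
    nlinarith [sq_nonneg ‖Z u * x u‖]
  have hb1 : 0 < b - 1 := by linarith
  rw [div_lt_iff₀ hb1] at hZu
  have h5 : 1 ≤ ‖Z u‖ ^ 2 * (b - 1) ^ 2 := by nlinarith
  have h6 : ‖x u‖ ^ 2 ≤ (b - 1) ^ 2 * E := by
    have := mul_le_mul_of_nonneg_right h5 (sq_nonneg ‖x u‖)
    have := mul_le_mul_of_nonneg_left h1 (sq_nonneg (b - 1))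
    nlinarith
  have hE1 : E = 0 := by nlinarith
  refine hξ (funext fun a => ?_)
  rw [← hxe]
  rcases eq_or_ne (a : V) u with hau | hau
  · rw [hau]
    rw [hE1, mul_zero] at h6
    simpa using le_antisymm h6 (by positivity)
  · have := (sum_eq_zero_iff_of_nonneg fun _ _ => by positivity).1 hE1 a (mem_erase.2 ⟨hau, a.2⟩)
    simpa using this

end BA

/-- No zeros in the upper half plane when the other levels are real. -/
lemma lim_ne_zero (hA : ∀ j, Ctr (A j)) (l : V → ℝ) (hv : v ∈ Λ)
    (h0 : PP (mm A) (Λ.erase v) (cfg J S fun v => (l v : ℂ)) ≠ 0) {z : ℂ} (hz : 0 < z.im) :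
    PP (mm A) Λ (Function.update (cfg J S fun v => (l v : ℂ)) v (full z)) ≠ 0 := by
  set w : ℝ → V → Finset J → ℂ := fun ε => cfg J S fun v => (l v : ℂ) + ε * Complex.I with hw
  have key : ∀ ε, 0 < ε → ‖PP (mm A) (Λ.erase v) (w ε)‖ * z.im ^ Fintype.card J ≤
      ‖PP (mm A) Λ (Function.update (w ε) v (full z))‖ := by
    intro ε hε
    set p : ℂ[X] := ∑ I : Finset J,
      monomial (Fintype.card J - I.card) (PP (mm A) Λ (Function.update (w ε) v (dl I))) with hp
    have he : ∀ y, p.eval y = PP (mm A) Λ (Function.update (w ε) v (full y)) := by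
      intro y
      rw [PP_update hv, hp, eval_finsetSum]
      refine sum_congr rfl fun I _ => ?_
      rw [eval_monomial, full_apply, mul_comm]
    have hc : p.coeff (Fintype.card J) = PP (mm A) (Λ.erase v) (w ε) := by
      rw [hp, finsetSum_coeff, sum_eq_single ∅ _ (by simp), ← PP_erase hv]
      · simp
      · intro I _ hI
        have h1 := card_pos.2 (nonempty_iff_ne_empty.2 hI)
        have h2 := card_le_univ I
        rw [coeff_monomial, if_neg (by omega)]
    rw [← he, ← hc]
    refine BA.norm_ge (natDegree_sum_le_of_forall_le _ _ fun _ _ =>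
      (natDegree_monomial_le _).trans (Nat.sub_le _ _)) (fun y hy => ?_) hz
    rw [he]
    exact PP_ne_zero reg_upper hA fun x _ => BA.st_upd (BA.st_eps l hε) v (BA.st_full hy) x
  have hc : ∀ v I, Continuous fun ε => w ε v I := BA.cont_cfg l
  have c1 : Continuous fun ε => PP (mm A) (Λ.erase v) (w ε) := BA.cont_PP hc
  have c2 : Continuous fun ε => PP (mm A) Λ (Function.update (w ε) v (full z)) :=
    BA.cont_PP (w := fun ε => Function.update (w ε) v (full z))
      (BA.cont_upd (x := fun _ => full z) hc v fun _ => continuous_const)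
  have h := BA.le_of_eps (F := fun ε => ‖PP (mm A) (Λ.erase v) (w ε)‖ * z.im ^ Fintype.card J)
    (G := fun ε => ‖PP (mm A) Λ (Function.update (w ε) v (full z))‖)
    (c1.norm.mul continuous_const) c2.norm key
  simp only [hw, Complex.ofReal_zero, zero_mul, add_zero] at h
  intro h1
  rw [h1, norm_zero] at h
  exact absurd h (not_le.2 (mul_pos (norm_pos_iff.2 h0) (pow_pos hz _)))

lemma lim_im (hA : ∀ j, Ctr (A j)) (l : V → ℝ) (hv : v ∈ Λ) (hu : u ∈ Λ) (huS : u ∉ S)
    (huv : u ≠ v) {z : ℂ} (hz : 0 < z.im) :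
    (PP (mm A) Λ (Function.update (Function.update (cfg J S fun v => (l v : ℂ)) u
        (fullBut i (l u : ℂ))) v (full z)) *
      conj (PP (mm A) Λ (Function.update (cfg J S fun v => (l v : ℂ)) v (full z)))).im ≤ 0 := by
  set w : ℝ → V → Finset J → ℂ := fun ε => cfg J S fun v => (l v : ℂ) + ε * Complex.I with hw
  have key : ∀ ε : ℝ, 0 < ε → (PP (mm A) Λ (Function.update (Function.update (w ε) u
      (fullBut i ((l u : ℂ) + ε * Complex.I))) v (full z)) *
      conj (PP (mm A) Λ (Function.update (w ε) v (full z)))).im ≤ 0 := by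
    intro ε hε
    have h := im_of_ne_zero (a := PP (mm A) Λ (Function.update (w ε) v (full z)))
      (b := PP (mm A) Λ (Function.update (Function.update (w ε) u
        (fullBut i ((l u : ℂ) + ε * Complex.I))) v (full z))) fun t ht => ?_
    · rw [← Complex.conj_conj (_ * _), Complex.conj_im, map_mul, Complex.conj_conj, mul_comm]
      linarith
    · have e : Function.update (w ε) v (full z) = Function.update (Function.update (w ε) v (full z))
          u (full ((l u : ℂ) + ε * Complex.I)) := by
        rw [eq_comm, Function.update_eq_self_iff, Function.update_of_ne huv]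
        simp [hw, cfg, huS]
      rw [Function.update_comm huv, e, Function.update_idem, ← BA.PP_add hu, ← full_add]
      refine PP_ne_zero reg_upper hA fun x _ => BA.st_upd
        (BA.st_upd (BA.st_eps l hε) v (BA.st_full hz)) u ?_ x
      refine Or.inl ⟨_, _, rfl, fun j => Or.inl ⟨rfl, ?_⟩⟩
      rcases eq_or_ne j i with rfl | hj
      · simpa using add_pos hε ht
      · simpa [hj] using hε
  have hc : ∀ v I, Continuous fun ε => w ε v I := BA.cont_cfg l
  have c1 : Continuous fun ε : ℝ => PP (mm A) Λ (Function.update (Function.update (w ε) u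
      (fullBut i ((l u : ℂ) + ε * Complex.I))) v (full z)) :=
    BA.cont_PP (w := fun ε : ℝ => Function.update (Function.update (w ε) u
      (fullBut i ((l u : ℂ) + ε * Complex.I))) v (full z))
      (BA.cont_upd (x := fun _ => full z) (w := fun ε : ℝ => Function.update (w ε) u
        (fullBut i ((l u : ℂ) + ε * Complex.I)))
        (BA.cont_upd (x := fun ε : ℝ => fullBut i ((l u : ℂ) + ε * Complex.I)) hc u
          (BA.cont_fullBut (l u))) v fun _ => continuous_const)
  have c2 : Continuous fun ε => PP (mm A) Λ (Function.update (w ε) v (full z)) :=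
    BA.cont_PP (w := fun ε => Function.update (w ε) v (full z))
      (BA.cont_upd (x := fun _ => full z) hc v fun _ => continuous_const)
  have h := BA.le_of_eps (F := fun ε : ℝ => (PP (mm A) Λ (Function.update (Function.update (w ε) u
      (fullBut i ((l u : ℂ) + ε * Complex.I))) v (full z)) *
      conj (PP (mm A) Λ (Function.update (w ε) v (full z)))).im) (G := fun _ => 0)
    (Complex.continuous_im.comp (c1.mul (Complex.continuous_conj.comp c2))) continuous_const key
  simpa only [hw, Complex.ofReal_zero, zero_mul, add_zero] using h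

/-- The barrier invariant when all vertices are full. -/
lemma bar_base (hA : ∀ j, Ctr (A j)) (hd : ∀ j v, A j v v = 0) {b : ℝ} (hb : 2 ≤ b) {l : V → ℝ}
    (hl : ∀ v ∈ Λ, b ≤ |l v|) : PP (mm A) Λ (fun v => full (l v : ℂ)) ≠ 0 ∧ ∀ u ∈ Λ, ∀ i,
      (PP (mm A) Λ (Function.update (fun v => full (l v : ℂ)) u (fullBut i (l u : ℂ))) /
        PP (mm A) Λ fun v => full (l v : ℂ)).re ≤ 1 / (b - 1 / (b - 1)) := by
  have hext : ∀ v ∈ Λ, (l v : ℂ) ∈ {z : ℂ | 1 < ‖z‖} := fun v hv => by
    have := hl v hv
    simp only [Set.mem_ofPred_eq, Complex.norm_real, Real.norm_eq_abs]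
    linarith
  have hP : PP (mm A) Λ (fun v => full (l v : ℂ)) ≠ 0 :=
    PP_ne_zero reg_ext hA fun v hv => BA.st_full (hext v hv)
  refine ⟨hP, fun u hu i => ?_⟩
  have hN : PP (mm A) Λ (Function.update (fun v => full (l v : ℂ)) u (fullBut i (l u : ℂ))) ≠ 0 := by
    refine PP_ne_zero reg_ext hA fun v hv => ?_
    rcases eq_or_ne v u with rfl | h
    · simpa using BA.st_fullBut (hext v hv)
    · simpa [h] using BA.st_full (hext v hv)
  have hre : IsRe (fun v => (full (l v : ℂ) : Finset J → ℂ)) := isRe_cfg ∅ l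
  have hb1 : 1 / (b - 1) ≤ 1 := by
    rw [div_le_one (by linarith)]
    linarith
  rw [← hre.re_PP hA] at hP
  rw [← (hre.fullBut u i (l u)).re_PP hA] at hN
  have key : ∀ t : ℝ, 1 / (b - 1) < |l u + t| → (PP (mm A) Λ fun v => full (l v : ℂ)).re + t *
      (PP (mm A) Λ (Function.update (fun v => full (l v : ℂ)) u (fullBut i (l u : ℂ)))).re ≠ 0 := by
    intro t ht
    rw [← Complex.ofReal_ne_zero]
    push_cast
    rw [hre.re_PP hA, (hre.fullBut u i (l u)).re_PP hA]
    have e : (fun v => (full (l v : ℂ) : Finset J → ℂ)) =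
        Function.update (fun v => (full (l v : ℂ) : Finset J → ℂ)) u (full (l u : ℂ)) := by simp
    rw [e, Function.update_idem, ← BA.PP_add hu, ← full_add]
    have e2 : Function.update (fun v => (full (l v : ℂ) : Finset J → ℂ)) u
        (pr (fun _ => 1) (Function.update (fun _ => (l u : ℂ)) i (l u + t))) = fun v =>
        pr (fun _ => 1) fun j => if v = u ∧ j = i then (l u + t : ℂ) else l v := by
      funext v
      rcases eq_or_ne v u with rfl | h
      · rw [Function.update_self]
        congr 1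
        funext j
        rcases eq_or_ne j i with rfl | hj
        · simp
        · simp [hj]
      · simp [h, full]
    rw [e2, PP_pr]
    refine prod_ne_zero_iff.2 fun j _ => ?_
    unfold mm
    rw [det_expand (A j) Λ (fun _ => 1) fun v => if v = u ∧ j = i then (l u + t : ℂ) else l v]
    refine BA.det_ne (Z := fun v => if v = u ∧ j = i then (l u + t : ℂ) else l v) (hA j) (hd j u)
      hu hb (fun v hv h => by simpa [h] using hl v hv) ?_
    rcases eq_or_ne j i with rfl | hj
    · simp only [and_self, if_true]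
      rwa [← Complex.ofReal_add, Complex.norm_real, Real.norm_eq_abs]
    · simp only [hj, and_false, if_false, Complex.norm_real, Real.norm_eq_abs]
      linarith [hl u hu]
  rw [← hre.re_PP hA, ← (hre.fullBut u i (l u)).re_PP hA, ← Complex.ofReal_div, Complex.ofReal_re]
  rw [Complex.ofReal_ne_zero] at hP hN
  generalize (PP (mm A) Λ fun v => full (l v : ℂ)).re = P at *
  generalize (PP (mm A) Λ (Function.update (fun v => full (l v : ℂ)) u
    (fullBut i (l u : ℂ)))).re = N at *
  have h1 : |l u + -(P / N)| ≤ 1 / (b - 1) :=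
    le_of_not_gt fun h => key _ h (by field_simp; ring)
  rw [abs_le] at h1
  rw [← inv_div P N, inv_eq_one_div]
  have h2 : 0 < b - 1 / (b - 1) := by linarith
  rcases le_abs.1 (hl u hu) with h | h
  · exact one_div_le_one_div_of_le h2 (by linarith)
  · exact (one_div_nonpos.2 (by linarith)).trans (by positivity)

end Vale.Agent.P078
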