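import Vale.Agent.P078.Atom
import Mathlib.Algebra.Order.Chebyshev

/-! The coincidence estimate. -/

namespace Vale.Agent.P078.Ctx

open Vale.Agent.P085 Finset

variable {M X : Type*} [CStarAlgebra M] [TopologicalSpace X] [CompactSpace X] (C : Ctx M X)

lemma n2_pj_sq {U : Set X} (v : M) :
    C.T.n2 (C.pj U * v) ^ 2 = (C.T.τ (C.ι (ind U * C.E (star (star v) * star v)))).re := by
  rw [C.T.n2_sq, star_mul, (C.pj_proj _).isSelfAdjoint.star_eq, mul_assoc, ← mul_assoc (C.pj _),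
    (C.pj_proj _).isIdempotentElem.eq, C.T.comm, map_mul C.ι, C.tr, star_star, mul_assoc, pj]

lemma n2_pj_le_sum {κ : Type*} (s : Finset κ) {U : Set X} {V : κ → Set X} (hU : IsClopen U)
    (hV : ∀ k, IsClopen (V k)) (h : ∀ x ∈ U, ∃ k ∈ s, x ∈ V k) (v : M) :
    C.T.n2 (C.pj U * v) ^ 2 ≤ ∑ k ∈ s, C.T.n2 (C.pj (V k) * v) ^ 2 := by
  simp only [C.n2_pj_sq]
  rw [← Complex.re_sum, ← map_sum, ← map_sum]
  refine C.re_τ_mono fun x => ?_
  obtain ⟨h1, h2⟩ := C.E_nonneg (star v) x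
  have h3 : ∀ W, IsClopen W → ((ind W * C.E (star (star v) * star v)) x).re =
      W.indicator (fun _ => (C.E (star (star v) * star v) x).re) x := fun W hW => by
    rw [ContinuousMap.mul_apply, ind_apply hW]
    by_cases hx : x ∈ W <;> simp [hx]
  rw [ContinuousMap.sum_apply, Complex.re_sum, h3 U hU, sum_congr rfl fun k _ => h3 _ (hV k)]
  have h4 : ∀ k ∈ s, 0 ≤ (V k).indicator (fun _ => (C.E (star (star v) * star v) x).re) x :=
    fun k _ => Set.indicator_nonneg (fun _ _ => h1) x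
  by_cases hx : x ∈ U
  · obtain ⟨k, hk, hk'⟩ := h x hx
    refine le_trans ?_ (single_le_sum h4 hk)
    simp [hx, hk']
  · simpa [hx] using sum_nonneg h4

section

variable {Γ ι : Type*} [Fintype Γ] [DecidableEq Γ] [DecidableEq ι]

/-- The values of `a` on the coordinates in `G`. -/
def pat (a : Γ → X → ι) (G : Finset Γ) (x : X) : Γ → Option ι :=
  fun g => if g ∈ G then some (a g x) else none

/-- The cylinder set of `i`. -/
def cyl (a : Γ → X → ι) (i : Γ → Option ι) : Set X :=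
  pat a (univ.filter fun g => i g ≠ none) ⁻¹' {i}

variable {a : Γ → X → ι}

omit [CompactSpace X] [DecidableEq ι] in
lemma lc_all (ha : ∀ g, IsLocallyConstant (a g)) : IsLocallyConstant fun x g => a g x :=
  (IsLocallyConstant.iff_eventually_eq _).mpr fun x =>
    (Filter.eventually_all.mpr fun g => (ha g).eventually_eq x).mono fun _ h => funext h

omit [CompactSpace X] [DecidableEq ι] in
lemma lc_pat (ha : ∀ g, IsLocallyConstant (a g)) (G : Finset Γ) : IsLocallyConstant (pat a G) :=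
  (lc_all ha).comp fun f g => if g ∈ G then some (f g) else none

omit [TopologicalSpace X] [CompactSpace X] in
lemma mem_cyl {i : Γ → Option ι} {x : X} : x ∈ cyl a i ↔ ∀ g, ∀ j ∈ i g, a g x = j := by
  simp only [cyl, Set.mem_preimage, Set.mem_singleton_iff, funext_iff, pat]
  refine forall_congr' fun g => ?_
  cases h : i g <;> simp [h]

lemma pj_expand (ha : ∀ g, IsLocallyConstant (a g)) (U : Finset ι) :
    C.pj {x | ∃ g, a g x ∈ U} =
      ∑ i ∈ (Fintype.piFinset fun _ : Γ => insertNone U).erase (fun _ => none),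
        (-∏ g, (i g).elim (1 : ℂ) fun _ => -1) • C.pj (cyl a i) := by
  simp only [pj, ← map_smul, ← map_sum]
  congr 1
  ext x
  have h1 : ∀ i : Γ → Option ι, (∏ g, (i g).elim (1 : ℂ) fun _ => -1) * ind (cyl a i) x =
      ∏ g, (i g).elim (1 : ℂ) fun j => -if j = a g x then 1 else 0 := fun i => by
    rw [ind_apply (U := cyl a i) (clopen_pre (lc_pat ha _) _)]
    by_cases hx : x ∈ cyl a i
    · rw [Set.indicator_of_mem hx, Pi.one_apply, mul_one]
      refine prod_congr rfl fun g _ => ?_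
      cases h : i g with
      | none => rfl
      | some j => simp [mem_cyl.mp hx g j h]
    · rw [Set.indicator_of_notMem hx, mul_zero]
      simp only [mem_cyl, not_forall] at hx
      obtain ⟨g, j, hj, hj'⟩ := hx
      exact (prod_eq_zero (mem_univ g) (by simp [Option.mem_def.mp hj, Ne.symm hj'])).symm
  have h2 := add_sum_erase (Fintype.piFinset fun _ : Γ => insertNone U)
    (fun i => ∏ g, (i g).elim (1 : ℂ) fun j => -if j = a g x then 1 else 0)
    (a := fun _ => none) (by simp)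
  rw [← prod_univ_sum (fun _ : Γ => insertNone U)
    fun g o => o.elim (1 : ℂ) fun j => -if j = a g x then 1 else 0] at h2
  simp only [ContinuousMap.sum_apply, ContinuousMap.smul_apply, smul_eq_mul, neg_mul, h1,
    sum_neg_distrib]
  rw [ind_apply (U := {x | ∃ g, a g x ∈ U}) (clopen_pre (lc_all ha) {f | ∃ g, f g ∈ U}),
    eq_sub_of_add_eq' h2]
  simp only [sum_insertNone, Option.elim, sum_neg_distrib, sum_ite_eq', prod_const_one]
  by_cases hx : ∃ g, a g x ∈ U
  · obtain ⟨g, hg⟩ := hx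
    rw [prod_eq_zero (mem_univ g) (by simp [hg]), Set.indicator_of_mem (by exact ⟨g, hg⟩)]
    simp
  · rw [Set.indicator_of_notMem (by exact hx), prod_eq_one fun g _ => by
      simp [not_exists.mp hx g]]
    simp

lemma sum_n4_cyl [Fintype ι] (ha : ∀ g, IsLocallyConstant (a g)) (y : M) :
    ∑ i ∈ univ.erase (fun _ => none), n4 C.T (y * C.pj (cyl a i)) ≤
      ∑ _G : Finset Γ, ∑ h, ∑ j, n4 C.T (y * C.pj (a h ⁻¹' {j})) := by
  have h0 : ∀ t, 0 ≤ n4 C.T t := fun t => by rw [n4_eq]; positivity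
  have h1 : ∀ G : Finset Γ, ∀ h j, ∑ i with h ∈ G ∧ i h = some j,
      n4 C.T (y * C.pj (pat a G ⁻¹' {i})) ≤ n4 C.T (y * C.pj (a h ⁻¹' {j})) := fun G h j => by
    by_cases hG : h ∈ G
    · refine (sum_n4_right_le _ (fun _ _ => C.pj_proj _) (fun i _ i' _ hi => ?_) y).trans_eq ?_
      · rw [C.pj_mul (clopen_pre (lc_pat ha _) _) (clopen_pre (lc_pat ha _) _), ← C.pj_empty]
        congr 1
        exact Set.eq_empty_of_forall_notMem fun x hx => hi (hx.1.symm.trans hx.2)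
      · rw [C.sum_pj (lc_pat ha G)]
        congr 3
        ext x
        simp [hG, pat]
    · simp [hG, h0]
  refine le_trans ?_ (sum_le_sum fun G _ => sum_le_sum fun h _ => sum_le_sum fun j _ => h1 G h j)
  simp only [sum_filter]
  rw [sum_congr rfl fun G _ => (sum_congr rfl fun h _ => sum_comm).trans sum_comm, sum_comm]
  refine (sum_le_sum fun i hi => ?_).trans (sum_le_sum_of_subset_of_nonneg (subset_univ _)
    fun i _ _ => sum_nonneg fun _ _ => sum_nonneg fun _ _ => sum_nonneg fun _ _ =>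
      ite_nonneg (h0 _) le_rfl)
  obtain ⟨h, hh⟩ := Function.ne_iff.mp (mem_erase.mp hi).1
  obtain ⟨j, hj⟩ := Option.ne_none_iff_exists'.mp hh
  refine le_trans ?_ (single_le_sum (fun _ _ => sum_nonneg fun _ _ => sum_nonneg fun _ _ =>
    ite_nonneg (h0 _) le_rfl) (mem_univ (univ.filter fun g => i g ≠ none)))
  refine le_trans ?_ (single_le_sum (fun _ _ => sum_nonneg fun _ _ => ite_nonneg (h0 _) le_rfl)
    (mem_univ h))
  refine le_trans ?_ (single_le_sum (fun _ _ => ite_nonneg (h0 _) le_rfl) (mem_univ j))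
  rw [if_pos ⟨by simpa using hh, hj⟩, cyl]

lemma n2_cut_le [Fintype ι] (ha : ∀ g, IsLocallyConstant (a g)) (U : Finset ι) (w z : M) :
    C.T.n2 (C.pj {x | ∃ g, a g x ∈ U} * w * C.pj {x | ∃ g, a g x ∈ U} * z) ^ 2 ≤
      (U.card + 1) ^ Fintype.card Γ *
        ∑ α ∈ (univ ×ˢ U) ×ˢ (Fintype.piFinset fun _ : Γ => insertNone U).erase (fun _ => none),
          C.T.n2 (C.pj (a α.1.1 ⁻¹' {α.1.2}) * w * C.pj (cyl a α.2) * z) ^ 2 := by
  rw [mul_assoc, mul_assoc, sum_product, mul_sum]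
  refine (C.n2_pj_le_sum (univ ×ˢ U) (V := fun α : Γ × ι => a α.1 ⁻¹' {α.2})
    (clopen_pre (lc_all ha) {f | ∃ g, f g ∈ U}) (fun α => clopen_pre (ha _) _)
    (fun x ⟨g, hg⟩ => ⟨(g, a g x), by simpa using hg, rfl⟩) _).trans (sum_le_sum fun α _ => ?_)
  rw [C.pj_expand ha U, sum_mul, mul_sum, mul_sum]
  refine (pow_le_pow_left₀ (C.T.n2_nonneg _) (C.T.n2_sum_le _ _) 2).trans
    (sq_sum_le_card_mul_sum_sq.trans (mul_le_mul ?_ (le_of_eq (sum_congr rfl fun i _ => ?_))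
      (sum_nonneg fun _ _ => sq_nonneg _) (by positivity)))
  · have := card_erase_le (s := Fintype.piFinset fun _ : Γ => insertNone U) (a := fun _ => none)
    rw [Fintype.card_piFinset, prod_const, card_insertNone, card_univ] at this
    exact_mod_cast this
  · rw [smul_mul_assoc, mul_smul_comm, mul_smul_comm, C.T.n2_smul, norm_neg, norm_prod,
      prod_eq_one fun g _ => by cases i g <;> simp, one_mul, mul_assoc, mul_assoc]

lemma sum_n4_cut [Fintype ι] (ha : ∀ g, IsLocallyConstant (a g)) {w : M} {κ : ℝ}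
    (hκ : ∀ g h, C.A4 (a g) (a h) w ≤ κ) :
    ∑ α ∈ (univ : Finset (Γ × ι)) ×ˢ (univ : Finset (Γ → Option ι)).erase (fun _ => none),
      n4 C.T (C.pj (a α.1.1 ⁻¹' {α.1.2}) * w * C.pj (cyl a α.2)) ≤
      Fintype.card Γ * (2 ^ Fintype.card Γ * Fintype.card Γ) * κ := by
  have h1 : ∀ g, ∑ i, ∑ j ∈ (univ : Finset (Γ → Option ι)).erase (fun _ => none),
      n4 C.T (C.pj (a g ⁻¹' {i}) * w * C.pj (cyl a j)) ≤
      2 ^ Fintype.card Γ * Fintype.card Γ * κ := fun g => by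
    refine (sum_le_sum fun i _ => C.sum_n4_cyl ha _).trans ?_
    rw [sum_comm]
    refine (sum_le_card_nsmul _ _ (Fintype.card Γ * κ) fun G _ => ?_).trans_eq
      (by rw [nsmul_eq_mul, card_univ, Fintype.card_finset]; push_cast; ring)
    rw [sum_comm]
    exact (sum_le_card_nsmul _ _ κ fun h _ => hκ g h).trans_eq (by rw [nsmul_eq_mul, card_univ])
  rw [sum_product, Fintype.sum_prod_type]
  exact (sum_le_card_nsmul _ _ _ fun g _ => h1 g).trans_eq
    (by rw [nsmul_eq_mul, card_univ]; ring)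

end

variable [PartialOrder M] [StarOrderedRing M]

lemma sum_n2_le {Ξ : Type*} (s : Finset Ξ) {z : Ξ → M} (h : ∑ χ ∈ s, z χ * star (z χ) ≤ 1) (b : M) :
    ∑ χ ∈ s, C.T.n2 (b * z χ) ^ 2 ≤ √(n4 C.T b) * √(∑ χ ∈ s, C.T.n2 (z χ) ^ 2) := by
  set Θ := ∑ χ ∈ s, z χ * star (z χ) with hΘ
  have h0 : 0 ≤ Θ := sum_nonneg fun _ _ => mul_star_self_nonneg _
  have h1 : ∑ χ ∈ s, C.T.n2 (b * z χ) ^ 2 = (C.T.τ (star b * b * Θ)).re := by
    rw [hΘ, mul_sum, map_sum, Complex.re_sum]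
    refine sum_congr rfl fun χ _ => ?_
    rw [C.T.n2_sq, star_mul, mul_assoc, C.T.comm]
    simp only [mul_assoc]
  have h2 : ∑ χ ∈ s, C.T.n2 (z χ) ^ 2 = (C.T.τ Θ).re := by
    rw [hΘ, map_sum, Complex.re_sum]
    exact sum_congr rfl fun χ _ => by rw [C.T.n2_sq, C.T.comm]
  have h3 : C.T.n2 Θ ≤ √(C.T.τ Θ).re := Real.le_sqrt_of_sq_le (by
    have := C.T.re_mul_nonneg h0 (sub_nonneg.mpr h)
    rw [mul_sub, mul_one, map_sub, Complex.sub_re] at this
    rw [C.T.n2_sq, (IsSelfAdjoint.of_nonneg h0).star_eq]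
    linarith)
  rw [h1, h2, n4_eq, Real.sqrt_sq (C.T.n2_nonneg _)]
  exact ((Complex.re_le_norm _).trans (C.T.norm_τ_mul _ _)).trans
    (mul_le_mul_of_nonneg_left h3 (C.T.n2_nonneg _))

theorem coincide (Γ : Type*) [Fintype Γ] (L : ℕ) : ∃ K : ℝ, 0 ≤ K ∧
    ∀ {ι Ξ : Type} [Fintype ι] [Fintype Ξ] (a : Γ → X → ι), (∀ g, IsLocallyConstant (a g)) →
      ∀ (w : M) (κ : ℝ), (∀ g h, C.A4 (a g) (a h) w ≤ κ) → ∀ (U : Ξ → Finset ι) (z : Ξ → M),
      (∀ χ, L < (U χ).card → z χ = 0) → ∑ χ, z χ * star (z χ) ≤ 1 →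
      ∑ χ, C.T.n2 (C.pj {x | ∃ g, a g x ∈ U χ} * w * C.pj {x | ∃ g, a g x ∈ U χ} * z χ) ^ 2 ≤
        K * √κ := by
  classical
  set n := Fintype.card Γ
  refine ⟨(L + 1) ^ n * (√(n * (2 ^ n * n)) * √(n * L * (L + 1) ^ n)), by positivity,
    fun {ι Ξ} _ _ a ha w κ hκ U z hz h1 => ?_⟩
  let I : Ξ → Finset ((Γ × ι) × (Γ → Option ι)) := fun χ => (univ ×ˢ U χ) ×ˢ
    (Fintype.piFinset fun _ : Γ => insertNone (U χ)).erase (fun _ => none)
  let I₀ : Finset ((Γ × ι) × (Γ → Option ι)) := univ ×ˢ univ.erase (fun _ => none)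
  let b := fun α : (Γ × ι) × (Γ → Option ι) => C.pj (a α.1.1 ⁻¹' {α.1.2}) * w * C.pj (cyl a α.2)
  have hI : ∀ (f : Ξ → (Γ × ι) × (Γ → Option ι) → ℝ),
      ∑ χ, ∑ α ∈ I χ, f χ α = ∑ α ∈ I₀, ∑ χ with α ∈ I χ, f χ α := fun f =>
    sum_comm' fun χ α => by
      simp only [I, I₀, mem_univ, mem_filter, mem_product, mem_erase, true_and, and_true]
      tauto
  have h2 : ∀ χ, C.T.n2 (C.pj {x | ∃ g, a g x ∈ U χ} * w * C.pj {x | ∃ g, a g x ∈ U χ} * z χ) ^ 2 ≤
      (L + 1) ^ n * ∑ α ∈ I χ, C.T.n2 (b α * z χ) ^ 2 := fun χ => by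
    rcases lt_or_ge L (U χ).card with h | h
    · simp [hz χ h, C.T.n2_zero]
    · refine (C.n2_cut_le ha (U χ) w (z χ)).trans (mul_le_mul_of_nonneg_right ?_
        (sum_nonneg fun _ _ => sq_nonneg _))
      gcongr
  have h3 : ∑ α ∈ I₀, n4 C.T (b α) ≤ n * (2 ^ n * n) * κ := C.sum_n4_cut ha hκ
  have h4 : ∑ χ, C.T.n2 (z χ) ^ 2 ≤ 1 := by
    have := C.T.re_nonneg (sub_nonneg.mpr h1)
    rw [map_sub, C.T.one, map_sum, Complex.sub_re, Complex.re_sum, Complex.one_re] at this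
    rw [sum_congr rfl fun χ _ => by rw [C.T.n2_sq, C.T.comm]]
    linarith
  have h5 : ∑ α ∈ I₀, ∑ χ with α ∈ I χ, C.T.n2 (z χ) ^ 2 ≤ n * L * (L + 1) ^ n := by
    rw [← hI]
    refine le_trans (sum_le_sum fun χ _ => ?_) ((mul_sum _ _ _).symm.trans_le
      (mul_le_of_le_one_right (by positivity) h4))
    rcases lt_or_ge L (U χ).card with h | h
    · simp [hz χ h, C.T.n2_zero]
    · rw [sum_const, nsmul_eq_mul]
      refine mul_le_mul_of_nonneg_right ?_ (sq_nonneg _)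
      have := card_erase_le (s := Fintype.piFinset fun _ : Γ => insertNone (U χ))
        (a := fun _ => none)
      rw [Fintype.card_piFinset, prod_const, card_insertNone, card_univ] at this
      have h6 : (I χ).card ≤ n * L * (L + 1) ^ n := by
        rw [card_product, card_product, card_univ]
        exact Nat.mul_le_mul (Nat.mul_le_mul_left _ h) (this.trans (by gcongr))
      exact_mod_cast h6
  refine (sum_le_sum fun χ _ => h2 χ).trans ?_
  rw [← mul_sum, mul_assoc, hI]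
  refine mul_le_mul_of_nonneg_left ?_ (by positivity)
  refine (sum_le_sum fun α _ => C.sum_n2_le _ (le_trans (sum_le_sum_of_subset_of_nonneg
    (subset_univ _) fun _ _ _ => mul_star_self_nonneg _) h1) (b α)).trans ?_
  refine (Real.sum_sqrt_mul_sqrt_le _ (fun α => by rw [n4_eq]; positivity)
    fun α => sum_nonneg fun _ _ => sq_nonneg _).trans ?_
  rw [mul_right_comm _ _ √κ, ← Real.sqrt_mul (x := n * (2 ^ n * n)) (by positivity) κ]
  exact mul_le_mul (Real.sqrt_le_sqrt h3) (Real.sqrt_le_sqrt h5) (Real.sqrt_nonneg _)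
    (Real.sqrt_nonneg _)

end Vale.Agent.P078.Ctx
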