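import Vale.Agent.P078.NV
import Mathlib.Analysis.Matrix.PosDef
import Mathlib.LinearAlgebra.Matrix.ToLinearEquiv

/-! From the mixed polynomial of a colouring to a two-sided bound. -/

namespace Vale.Agent.P078

open Finset
open scoped ComplexConjugate

variable {V κ : Type*} [DecidableEq V] [Fintype κ] [DecidableEq κ]

section general

variable {J : Type*} [Fintype J] [DecidableEq J] {A : J → V → V → ℂ} {q : V → J → ℝ}
  {S T : Finset V} {u v : V} {z₀ : ℝ}

lemma sub_single (j : J) : Sub (Pi.single j (1 : ℝ) : J → ℝ) :=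
  ⟨fun i => by rw [Pi.single_apply]; split_ifs <;> norm_num, by simp⟩

omit [DecidableEq J] in
lemma sub_update (hq : ∀ x ∈ T, Sub (q x)) {p : J → ℝ} (hp : Sub p) :
    ∀ x ∈ T, Sub (Function.update q v p x) := fun x hx => by
  by_cases h : x = v
  · rw [h, Function.update_self]; exact hp
  · rw [Function.update_of_ne h]; exact hq x hx

lemma PZ_erase_update (Z : V → ℂ) (s : ℂ) :
    PZ A q (T.erase u) (Function.update Z u s) = PZ A q (T.erase u) Z :=
  PZ_congr (fun _ _ => rfl) fun _ hx => Function.update_of_ne (ne_of_mem_erase hx) _ _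

lemma PZ_shift (hu : u ∈ T) (Z : V → ℂ) (s : ℂ) :
    PZ A q T (Function.update Z u (Z u + s)) = PZ A q T Z + s * PZ A q (T.erase u) Z := by
  rw [PZ_level (Z := Function.update Z u (Z u + s)) hu, PZ_level (Z := Z) hu, Function.update_idem,
    Function.update_self, PZ_erase_update]
  ring

/-- `PZ` at real levels. -/
noncomputable def PR (A : J → V → V → ℂ) (q : V → J → ℝ) (T : Finset V) (Z : V → ℝ) : ℝ :=
  (PZ A q T fun v => (Z v : ℂ)).re

lemma PR_coe (hA : ∀ j, Ctr (A j)) (Z : V → ℝ) :
    (PR A q T Z : ℂ) = PZ A q T fun v => (Z v : ℂ) := by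
  have h := PZ_conj (q := q) (Λ := T) (Z := fun v => (Z v : ℂ)) fun j => (hA j).herm
  simp only [Complex.conj_ofReal] at h
  exact Complex.conj_eq_iff_re.1 h

lemma coe_update (Z : V → ℝ) (s : ℝ) :
    (fun x => ((Function.update Z u s x : ℝ) : ℂ)) = Function.update (fun x => (Z x : ℂ)) u s :=
  funext fun x => Function.apply_update (fun _ (r : ℝ) => (r : ℂ)) Z u s x

lemma PR_shift (hA : ∀ j, Ctr (A j)) (hu : u ∈ T) (Z : V → ℝ) (s : ℝ) :
    PR A q T (Function.update Z u (Z u + s)) = PR A q T Z + s * PR A q (T.erase u) Z := by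
  apply Complex.ofReal_injective
  push_cast
  rw [PR_coe hA, PR_coe hA, PR_coe hA, coe_update, Complex.ofReal_add, PZ_shift hu]

lemma PR_update (hA : ∀ j, Ctr (A j)) (hv : v ∈ T) (Z : V → ℝ) (p : J → ℝ) :
    PR A (Function.update q v p) T Z = Z v * PR A q (T.erase v) Z +
      ∑ j, p j * PR A (Function.update q v (Pi.single j 1)) T (Function.update Z v 0) := by
  apply Complex.ofReal_injective
  push_cast
  simp only [PR_coe hA, coe_update, Complex.ofReal_zero]
  rw [← PZ_update hv, Function.update_eq_self]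

lemma PR_congr {q' : V → J → ℝ} {Z Z' : V → ℝ} (hq : ∀ v ∈ T, q v = q' v)
    (hZ : ∀ v ∈ T, Z v = Z' v) : PR A q T Z = PR A q' T Z' := by
  unfold PR
  rw [PZ_congr hq fun v hv => by rw [hZ v hv]]

/-- Positivity above the level `z₀` on all subsets of `S`. -/
def Pos (A : J → V → V → ℂ) (q : V → J → ℝ) (S : Finset V) (z₀ : ℝ) : Prop :=
  ∀ T ⊆ S, ∀ Z : V → ℝ, (∀ v, z₀ ≤ Z v) → 0 < PR A q T Z

lemma pos_of_ne_zero (hA : ∀ j, Ctr (A j)) (hq : ∀ v ∈ S, Sub (q v))
    (h : ∀ T ⊆ S, ∀ z : ℝ, z₀ ≤ z → PZ A q T (fun _ => (z : ℂ)) ≠ 0) : Pos A q S z₀ := by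
  have key : ∀ U : Finset V, ∀ T ⊆ S, ∀ Z : V → ℝ, (∀ v, z₀ ≤ Z v) → (∀ v ∉ U, v ∈ T → Z v = z₀) →
      0 < PR A q T Z := by
    intro U
    induction U using Finset.induction_on with
    | empty =>
      intro T hT Z _ hZ
      rw [PR_congr (q' := q) (Z' := fun _ => z₀) (fun _ _ => rfl) fun v hv => hZ v (by simp) hv]
      obtain ⟨μ, -, -, hμ⟩ := exists_roots hA fun v hv => hq v (hT hv)
      have h1 : PR A q T (fun _ => z₀) = (μ.map fun t => z₀ - t).prod := by
        apply Complex.ofReal_injective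
        rw [PR_coe hA, hμ]
        refine Eq.trans ?_ (map_multiset_prod Complex.ofRealHom _).symm
        rw [Multiset.map_map]
        simp
      rw [h1]
      refine Multiset.prod_pos fun x hx => ?_
      obtain ⟨t, ht, rfl⟩ := Multiset.mem_map.1 hx
      by_contra hle
      refine h T hT t (by linarith) ?_
      rw [hμ]
      exact Multiset.prod_eq_zero (Multiset.mem_map.2 ⟨t, ht, sub_self _⟩)
    | insert u U hu ih =>
      intro T hT Z hZ hZ'
      by_cases huT : u ∈ T
      · set Z₁ := Function.update Z u z₀ with hZ₁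
        have h1 : ∀ v, z₀ ≤ Z₁ v := fun v => by
          by_cases e : v = u
          · rw [e, hZ₁, Function.update_self]
          · rw [hZ₁, Function.update_of_ne e]; exact hZ v
        have h2 : ∀ v ∉ U, v ∈ T → Z₁ v = z₀ := fun v hv hvT => by
          by_cases e : v = u
          · rw [e, hZ₁, Function.update_self]
          · rw [hZ₁, Function.update_of_ne e]; exact hZ' v (by simp [e, hv]) hvT
        have h3 : Z = Function.update Z₁ u (Z₁ u + (Z u - z₀)) := by
          rw [hZ₁, Function.update_self, Function.update_idem, add_sub_cancel,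
            Function.update_eq_self]
        have h4 := ih T hT Z₁ h1 h2
        have h5 := ih (T.erase u) ((erase_subset _ _).trans hT) Z₁ h1
          fun v hv hvT => h2 v hv (mem_of_mem_erase hvT)
        rw [h3, PR_shift hA huT]
        have := mul_nonneg (sub_nonneg.2 (hZ u)) h5.le
        linarith
      · exact ih T hT Z hZ fun v hv hvT =>
          hZ' v (by simp [hv, (ne_of_mem_of_not_mem hvT huT)]) hvT
  exact fun T hT Z hZ => key T T hT Z hZ fun v hv hv' => absurd hv' hv

open Filter Topology in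
lemma pick_slot (hA : ∀ j, Ctr (A j)) (hq : ∀ v ∈ T, Sub (q v)) (hv : v ∈ T) (j : J) {Z : V → ℂ}
    (hZ : ∀ x, 0 ≤ (Z x).im) :
    0 ≤ (PZ A (Function.update q v (Pi.single j 1)) T (Function.update Z v 0) *
      conj (PZ A q (T.erase v) Z)).im := by
  set G : (V → ℂ) → ℝ := fun Z =>
    (PZ A (Function.update q v (Pi.single j 1)) T (Function.update Z v 0) *
      conj (PZ A q (T.erase v) Z)).im with hG
  have hc : Continuous G :=
    Complex.continuous_im.comp
      ((PZ_continuous.comp (continuous_id.update v continuous_const)).mul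
        (Complex.continuous_conj.comp PZ_continuous))
  have hp : ∀ Z : V → ℂ, (∀ x, 0 < (Z x).im) → 0 ≤ G Z := fun Z hZ => by
    refine im_of_ne_zero fun t ht => ?_
    have h1 := PZ_update (A := A) (q := q) (Z := Z) hv (Pi.single j 1) t
    rw [sum_eq_single j (fun i _ e => by simp [e]) (by simp)] at h1
    simp only [Pi.single_eq_same, Complex.ofReal_one, one_mul] at h1
    rw [add_comm, ← h1]
    refine PZ_ne_zero reg_upper hA (sub_update hq (sub_single j)) fun x _ => ?_
    by_cases e : x = v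
    · rw [e, Function.update_self]; exact ht
    · rw [Function.update_of_ne e]; exact hZ x
  have hpath : Continuous fun ε : ℝ => fun x => Z x + ε * Complex.I := by fun_prop
  have ht : Tendsto (fun ε : ℝ => G fun x => Z x + ε * Complex.I) (𝓝[>] 0) (𝓝 (G Z)) := by
    have h1 := ((hc.comp hpath).tendsto 0).mono_left (nhdsWithin_le_nhds (s := Set.Ioi 0))
    simpa [Function.comp_def] using h1
  refine ge_of_tendsto ht ?_
  filter_upwards [self_mem_nhdsWithin] with ε hε
  refine hp _ fun x => ?_
  have h1 : (0 : ℝ) < ε := hε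
  have h2 := hZ x
  simp only [Complex.add_im, Complex.mul_im, Complex.ofReal_re, Complex.I_im, mul_one,
    Complex.ofReal_im, Complex.I_re, mul_zero, add_zero]
  linarith

lemma slot_nonpos (hA : ∀ j, Ctr (A j)) (hd : ∀ j v, A j v v = 0) (hq : ∀ v ∈ S, Sub (q v))
    (hP : Pos A q S z₀) (hv : v ∈ S) (j : J) {Z : V → ℝ} (hZ : ∀ x, z₀ ≤ Z x) (U : Finset V)
    (hU : U ⊆ S.erase v) :
    PR A (Function.update q v (Pi.single j 1)) (insert v U) (Function.update Z v 0) ≤ 0 := by
  induction U using Finset.induction_on with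
  | empty =>
    have h1 : PZ A (Function.update q v (Pi.single j 1)) (insert v ∅)
        (fun x => ((Function.update Z v 0 x : ℝ) : ℂ)) = 0 := by
      rw [coe_update, PZ_upd, Complex.ofReal_zero,
        PP_congr (w' := fun _ => pr (Pi.single j 1) (Function.update (fun _ => 1) j 0))
          (m' := mm A) (fun x hx => ?_) fun _ _ _ => rfl]
      · rw [PP_pr (a := fun _ => Pi.single j 1) (b := fun _ => Function.update (fun _ => 1) j 0)]
        refine prod_eq_zero (mem_univ j) ?_
        rw [sum_powerset_insert (notMem_empty v)]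
        simp [mm, mnr_singleton, hd]
      · have : x = v := by simpa using hx
        rw [this, Function.update_self, ← mix_single]
        congr 1
        funext i
        by_cases e : i = j <;> simp [e]
    rw [PR, h1, Complex.zero_re]
  | insert u U hu ih =>
    have huv : u ≠ v := ne_of_mem_erase (hU (mem_insert_self _ _))
    have hU' : U ⊆ S.erase v := (subset_insert _ _).trans hU
    have hvU : v ∉ insert u U := fun h => notMem_erase v S (hU h)
    have hT : insert v (insert u U) ⊆ S := insert_subset hv (hU.trans (erase_subset _ _))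
    have h1 := pick_slot hA (fun x hx => hq x (hT hx)) (mem_insert_self v (insert u U)) j
      (Z := Function.update (fun x => (Z x : ℂ)) u (Z u + Complex.I)) fun x => by
        by_cases e : x = u
        · rw [e, Function.update_self]; simp
        · rw [Function.update_of_ne e]; simp
    have h2 : Function.update (Function.update (fun x => (Z x : ℂ)) u (Z u + Complex.I)) v 0 =
        Function.update (fun x => ((Function.update Z v 0 x : ℝ) : ℂ)) u
          (((Function.update Z v 0 u : ℝ) : ℂ) + Complex.I) := by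
      rw [Function.update_comm huv, coe_update, Function.update_of_ne huv, Complex.ofReal_zero]
    have h3 : (insert v (insert u U)).erase u = insert v U := by
      rw [erase_insert_of_ne huv.symm, erase_insert hu]
    rw [h2, PZ_shift (mem_insert_of_mem (mem_insert_self _ _)), erase_insert hvU,
      PZ_shift (Z := fun x => (Z x : ℂ)) (mem_insert_self _ _), h3, erase_insert hu,
      ← PR_coe hA, ← PR_coe hA, ← PR_coe hA, ← PR_coe hA] at h1
    have h4 := ih hU'
    have h5 := hP _ (hU.trans (erase_subset _ _)) Z hZ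
    have h6 := hP _ (hU'.trans (erase_subset _ _)) Z hZ
    simp at h1
    by_contra hlt
    have h7 := mul_pos (not_le.1 hlt) h6
    have h8 := mul_nonneg (neg_nonneg.2 h4) h5.le
    linarith

lemma Pos.update (hA : ∀ j, Ctr (A j)) (hd : ∀ j v, A j v v = 0) (hq : ∀ v ∈ S, Sub (q v))
    (hP : Pos A q S z₀) {p : J → ℝ} (hp : ∀ j, p j ≤ q v j) :
    Pos A (Function.update q v p) S z₀ := by
  intro T hT Z hZ
  have h0 := hP T hT Z hZ
  by_cases hv : v ∈ T
  · have h1 := PR_update (q := q) hA hv Z (q v)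
    rw [Function.update_eq_self] at h1
    rw [PR_update hA hv]
    refine (h1 ▸ h0).trans_le (add_le_add le_rfl (sum_le_sum fun j _ => ?_))
    have h2 := slot_nonpos hA hd hq hP (hT hv) j hZ (T.erase v) (erase_subset_erase _ hT)
    rw [insert_erase hv] at h2
    exact mul_le_mul_of_nonpos_right (hp j) h2
  · rwa [PR_congr (q' := q) (Z' := Z) (fun x hx =>
      Function.update_of_ne (ne_of_mem_of_not_mem hx hv) _ _) fun _ _ => rfl]

lemma Pos.mono (hA : ∀ j, Ctr (A j)) (hd : ∀ j v, A j v v = 0) (hq : ∀ v ∈ S, Sub (q v))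
    (hP : Pos A q S z₀) {p : V → J → ℝ} (hp : ∀ v ∈ S, Sub (p v))
    (hle : ∀ v ∈ S, ∀ j, p v j ≤ q v j) : Pos A p S z₀ := by
  have key : ∀ U ⊆ S, Pos A (U.piecewise p q) S z₀ := by
    intro U hU
    induction U using Finset.induction_on with
    | empty => rwa [piecewise_empty]
    | insert u U hu ih =>
      rw [piecewise_insert]
      refine (ih ((subset_insert _ _).trans hU)).update hA hd (fun x hx => ?_) fun j => ?_
      · by_cases e : x ∈ U
        · rw [piecewise_eq_of_mem _ _ _ e]; exact hp x hx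
        · rw [piecewise_eq_of_notMem _ _ _ e]; exact hq x hx
      · rw [piecewise_eq_of_notMem _ _ _ hu]
        exact hle u (hU (mem_insert_self _ _)) j
  intro T hT Z hZ
  rw [PR_congr (q' := S.piecewise p q) (Z' := Z)
    (fun x hx => (piecewise_eq_of_mem _ _ _ (hT hx)).symm) fun _ _ => rfl]
  exact key S subset_rfl T hT Z hZ

lemma det_ne_zero_of_half (j : J) {z : ℂ}
    (h : PZ A (fun _ => Pi.single j (1 / 2)) S (fun _ => z) ≠ 0) :
    Matrix.det (Matrix.of fun x y : S => (if x = y then 2 * z else 0) - A j x y) ≠ 0 := by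
  have h1 : PZ A (fun _ => Pi.single j (1 / 2)) S (fun _ => z) =
      (1 / 2) ^ S.card * PP (mm A) S fun _ => mix (Pi.single j 1) (2 * z) := by
    unfold PZ PP
    rw [mul_sum]
    refine sum_congr rfl fun t _ => ?_
    rw [← mul_assoc, ← prod_const, ← prod_mul_distrib]
    congr 1
    refine prod_congr rfl fun v _ => ?_
    beta_reduce
    rw [mix_apply, mix_apply, sum_eq_single j (fun i _ e => by simp [e]) (by simp),
      sum_eq_single j (fun i _ e => by simp [e]) (by simp)]
    simp only [Pi.single_eq_same]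
    push_cast
    ring
  rw [h1, mix_single, PP_pr (a := fun _ => Pi.single j 1)
    (b := fun _ => Function.update (fun _ => 1) j (2 * z))] at h
  have h2 := prod_ne_zero_iff.1 (right_ne_zero_of_mul h) j (mem_univ j)
  rw [mm, det_expand (A j) S (fun _ => (Pi.single j 1 : J → ℂ) j)
    fun _ => Function.update (fun _ => (1 : ℂ)) j (2 * z) j] at h2
  simpa using h2

end general

open Matrix ComplexOrder in
lemma form_le_of_det {B : V → V → ℂ} (hB : ∀ a b, B b a = conj (B a b)) {S : Finset V} {r : ℝ}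
    (h : ∀ t : ℝ, r ≤ t →
      Matrix.det (Matrix.of fun x y : S => (if x = y then (t : ℂ) else 0) - B x y) ≠ 0)
    (ξ : V → ℂ) : (∑ a ∈ S, ∑ b ∈ S, conj (ξ a) * B a b * ξ b).re ≤ r * ∑ a ∈ S, ‖ξ a‖ ^ 2 := by
  set N : Matrix S S ℂ := Matrix.of fun x y : S => (if x = y then (r : ℂ) else 0) - B x y with hN
  have hH : N.IsHermitian := by
    ext x y
    by_cases e : x = y
    · subst e
      simp [hN, ← hB x x]
    · simp [hN, e, Ne.symm e, ← hB y x]
  have hP : N.PosSemidef := by
    refine hH.posSemidef_iff_eigenvalues_nonneg.2 fun i => ?_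
    by_contra hlt
    have hlt' : hH.eigenvalues i < 0 := not_le.1 hlt
    refine h (r - hH.eigenvalues i) (by linarith) (Matrix.exists_mulVec_eq_zero_iff.1
      ⟨(hH.eigenvectorBasis i).ofLp, fun e => ?_, ?_⟩)
    · exact hH.eigenvectorBasis.orthonormal.ne_zero i (by ext x; exact congrFun e x)
    · have h1 := hH.mulVec_eigenvectorBasis i
      have h2 : (Matrix.of fun x y : S =>
          (if x = y then ((r - hH.eigenvalues i : ℝ) : ℂ) else 0) - B x y) =
          N - (hH.eigenvalues i : ℂ) • (1 : Matrix S S ℂ) := by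
        ext x y
        by_cases e : x = y
        · simp [hN, e]; ring
        · simp [hN, e]
      rw [h2, Matrix.sub_mulVec, h1, Matrix.smul_mulVec, Matrix.one_mulVec]
      ext x
      simp
  have h1 := hP.re_dotProduct_nonneg fun x : S => ξ x
  have h2 : star (fun x : S => ξ x) ⬝ᵥ (N *ᵥ fun x : S => ξ x) =
      ((r * ∑ a ∈ S, ‖ξ a‖ ^ 2 : ℝ) : ℂ) - ∑ a ∈ S, ∑ b ∈ S, conj (ξ a) * B a b * ξ b := by
    push_cast
    rw [mul_sum, ← sum_sub_distrib, ← sum_coe_sort S, dotProduct]
    refine sum_congr rfl fun x _ => ?_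
    rw [← sum_coe_sort S, ← Complex.conj_mul']
    simp [hN, Matrix.mulVec, dotProduct, sub_mul, sum_sub_distrib, mul_sub, mul_sum, mul_assoc,
      mul_left_comm]
  rw [h2] at h1
  simp only [RCLike.re_to_complex, Complex.sub_re, Complex.ofReal_re] at h1
  linarith

theorem decouple {Y : V → V → ℂ} (hY : Ctr Y) (hd : ∀ v, Y v v = 0) {Λ : Finset V} {c : V → κ}
    {z₀ : ℝ} (_hz : 0 < z₀)
    (h : ∀ S ⊆ Λ, ∀ z : ℝ, z₀ ≤ z → PZ (pm Y) (fun v => col (c v)) S (fun _ => (z : ℂ)) ≠ 0)
    {S : Finset V} (hS : S ⊆ Λ) {k : κ} (hk : ∀ v ∈ S, c v = k) (ξ : V → ℂ) :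
    ‖∑ a ∈ S, ∑ b ∈ S, conj (ξ a) * Y a b * ξ b‖ ≤ 2 * z₀ * ∑ a ∈ S, ‖ξ a‖ ^ 2 := by
  have hA : ∀ j : κ × Bool, Ctr (pm Y j) := hY.pm
  have hd' : ∀ (j : κ × Bool) v, pm Y j v v = 0 := fun j v => by simp [pm, hd]
  have hq : ∀ v ∈ S, Sub (col (c v)) := fun v _ =>
    ⟨fun j => by unfold col; split_ifs <;> norm_num, by
      simp [col, Fintype.sum_prod_type, sum_add_distrib]
      norm_num⟩
  have hP := pos_of_ne_zero hA hq fun T hT => h T (hT.trans hS)
  have key : ∀ b : Bool, (∑ x ∈ S, ∑ y ∈ S, conj (ξ x) * pm Y (k, b) x y * ξ y).re ≤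
      2 * z₀ * ∑ a ∈ S, ‖ξ a‖ ^ 2 := fun b => by
    have h1 := hP.mono hA hd' hq (p := fun _ => Pi.single (k, b) (1 / 2))
      (fun _ _ => ⟨fun i => by rw [Pi.single_apply]; split_ifs <;> norm_num, by
        rw [sum_pi_single']; norm_num⟩) fun v hv j => by
        rw [Pi.single_apply, hk v hv]
        split_ifs with e
        · simp [col, e]
        · unfold col; split_ifs <;> norm_num
    refine form_le_of_det (hA (k, b)).herm (fun t ht => ?_) ξ
    have h2 := h1 S subset_rfl (fun _ => t / 2) fun _ => by linarith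
    have h3 := det_ne_zero_of_half (A := pm Y) (S := S) (k, b) (z := ((t / 2 : ℝ) : ℂ)) (by
      rw [← PR_coe hA]; exact Complex.ofReal_ne_zero.2 h2.ne')
    have h4 : (2 : ℂ) * ((t / 2 : ℝ) : ℂ) = t := by push_cast; ring
    rwa [h4] at h3
  have h1 := key true
  have h2 := key false
  have him : conj (∑ a ∈ S, ∑ b ∈ S, conj (ξ a) * Y a b * ξ b) =
      ∑ a ∈ S, ∑ b ∈ S, conj (ξ a) * Y a b * ξ b := by
    rw [map_sum, sum_comm]
    refine sum_congr rfl fun a _ => ?_
    rw [map_sum]
    refine sum_congr rfl fun b _ => ?_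
    rw [map_mul, map_mul, Complex.conj_conj, ← hY.herm a b]
    ring
  simp only [pm, if_true, Bool.false_eq_true, if_false, mul_neg, neg_mul, sum_neg_distrib,
    Complex.neg_re] at h1 h2
  rw [← Complex.conj_eq_iff_re.1 him, Complex.norm_real, Real.norm_eq_abs, abs_le]
  exact ⟨by linarith, h1⟩

end Vale.Agent.P078
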