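import Vale.Agent.P078.Defs
import Mathlib.RingTheory.PowerSeries.Derivative
import Mathlib.Algebra.Polynomial.Roots
import Mathlib.Algebra.Polynomial.Eval.Degree

/-! Locality of the Green series, and power sums. -/

namespace Vale.Agent.P078

open Finset

variable {V : Type*} [DecidableEq V] {c c' : Finset V → ℂ} {Λ Λ' : Finset V} {v : V}
  {Q : Polynomial ℝ}

omit [DecidableEq V] in
lemma Pt_congr (h : ∀ S ⊆ Λ, c S = c' S) : Pt c Λ = Pt c' Λ :=
  sum_congr rfl fun S hS => by rw [h S (mem_powerset.1 hS)]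

omit [DecidableEq V] in
lemma coeff_Pt (i : ℕ) :
    PowerSeries.coeff i (Pt c Λ) = ∑ S ∈ Λ.powerset, if i = S.card then c S else 0 := by
  simp [Pt, PowerSeries.coeff_X_pow]

omit [DecidableEq V] in
lemma const_Pt : PowerSeries.constantCoeff (Pt c Λ) = c ∅ := by
  rw [← PowerSeries.coeff_zero_eq_constantCoeff_apply, coeff_Pt, sum_eq_single ∅]
  · simp
  · intro S _ h
    rw [if_neg fun h' => h (card_eq_zero.1 h'.symm)]
  · simp

omit [DecidableEq V] in
lemma Pt_mul_inv (h0 : c ∅ = 1) : Pt c Λ * (Pt c Λ)⁻¹ = 1 :=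
  PowerSeries.mul_inv_cancel _ (by rw [const_Pt, h0]; exact one_ne_zero)

lemma Pt_image {V' : Type*} [DecidableEq V'] {e : V' → V} {Λ' : Finset V'}
    (he : Set.InjOn e Λ') : Pt c (Λ'.image e) = Pt (fun S => c (S.image e)) Λ' := by
  unfold Pt
  rw [powerset_image, sum_image]
  · refine sum_congr rfl fun S hS => ?_
    rw [card_image_of_injOn (he.mono (mem_powerset.1 hS))]
  · intro S hS T hT h
    have hS' : S ⊆ Λ' := mem_powerset.1 hS
    have hT' : T ⊆ Λ' := mem_powerset.1 hT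
    have := (he.image_eq_image_iff hS' hT').1
      (by simpa using congrArg (fun s : Finset V => (s : Set V)) h)
    exact coe_injective this

lemma gs_congr (h : ∀ S ⊆ Λ, c S = c' S) : gs c Λ v = gs c' Λ v := by
  unfold gs
  rw [Pt_congr h, Pt_congr fun S hS => h S (hS.trans (erase_subset _ _))]

lemma gs_image {V' : Type*} [DecidableEq V'] {e : V' → V} {Λ' : Finset V'} {v : V'}
    (he : Set.InjOn e Λ') (hv : v ∈ Λ') :
    gs c (Λ'.image e) (e v) = gs (fun S => c (S.image e)) Λ' v := by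
  unfold gs
  have : (Λ'.image e).erase (e v) = (Λ'.erase v).image e := by
    ext y
    simp only [mem_erase, mem_image]
    constructor
    · rintro ⟨h, x, hx, rfl⟩
      exact ⟨x, ⟨fun h' => h (by rw [h']), hx⟩, rfl⟩
    · rintro ⟨x, ⟨h, hx⟩, rfl⟩
      exact ⟨fun h' => h (he hx hv h'), x, hx, rfl⟩
  rw [this, Pt_image he, Pt_image (he.mono (erase_subset _ _))]

lemma gs_eq_one (h0 : c ∅ = 1) (h : ∀ S ⊆ Λ, v ∈ S → c S = 0) : gs c Λ v = 1 := by
  have : Pt c (Λ.erase v) = Pt c Λ := by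
    refine sum_subset (powerset_mono.2 (erase_subset _ _)) fun S hS hn => ?_
    rw [h S (mem_powerset.1 hS), map_zero, zero_mul]
    by_contra hv
    exact hn (mem_powerset.2 (subset_erase.2 ⟨mem_powerset.1 hS, hv⟩))
  rw [gs, this, Pt_mul_inv h0]

lemma coeff_gs_continuous {X : Type*} [TopologicalSpace X] {c : X → Finset V → ℂ}
    (h0 : ∀ x, c x ∅ = 1) (h : ∀ S, Continuous fun x => c x S) (i : ℕ) :
    Continuous fun x => PowerSeries.coeff i (gs (c x) Λ v) := by
  have h1 : ∀ (Λ : Finset V) (i : ℕ), Continuous fun x => PowerSeries.coeff i (Pt (c x) Λ) := by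
    intro Λ i
    simp only [coeff_Pt]
    refine continuous_finsetSum _ fun S _ => ?_
    split_ifs
    exacts [h S, continuous_const]
  have h2 : ∀ i : ℕ, Continuous fun x => PowerSeries.coeff i (Pt (c x) Λ)⁻¹ := by
    intro i
    induction i using Nat.strong_induction_on with
    | _ i ih =>
      have : (fun x => PowerSeries.coeff i (Pt (c x) Λ)⁻¹) = fun x => if i = 0 then 1 else
          -∑ p ∈ antidiagonal i, if p.2 < i then PowerSeries.coeff p.1 (Pt (c x) Λ) *
            PowerSeries.coeff p.2 (Pt (c x) Λ)⁻¹ else 0 := by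
        funext x
        rw [PowerSeries.coeff_inv, const_Pt, h0]
        simp
      rw [this]
      split_ifs
      · exact continuous_const
      · refine (continuous_finsetSum _ fun p _ => ?_).neg
        split_ifs with hp
        exacts [(h1 _ _).fun_mul (ih _ hp), continuous_const]
  simp only [gs, PowerSeries.coeff_mul]
  exact continuous_finsetSum _ fun p _ => (h1 _ _).fun_mul (h2 _)

omit [DecidableEq V] in
lemma coeff_Pt_mul (A B : Finset V) (i : ℕ) : PowerSeries.coeff i (Pt c A * Pt c B) =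
    ∑ p ∈ (A.powerset ×ˢ B.powerset).filter (fun p => p.1.card + p.2.card = i), c p.1 * c p.2 := by
  unfold Pt
  rw [sum_mul_sum, ← sum_product', map_sum, sum_filter]
  refine sum_congr rfl fun p _ => ?_
  rw [mul_mul_mul_comm, ← map_mul, ← pow_add, PowerSeries.coeff_C_mul, PowerSeries.coeff_X_pow]
  simp [eq_comm]

/-- Exchange the parts of two sets outside `P`. -/
def swp (P : V → Prop) [DecidablePred P] (S T : Finset V) : Finset V :=
  S.filter P ∪ T.filter fun x => ¬ P x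

section swp

variable {P : V → Prop} [DecidablePred P] {S T : Finset V}

lemma mem_swp {x : V} : x ∈ swp P S T ↔ (x ∈ S ∧ P x) ∨ (x ∈ T ∧ ¬ P x) := by simp [swp]

lemma swp_union : swp P S T ∪ swp P T S = S ∪ T := by
  ext x
  simp only [mem_union, mem_swp]
  tauto

lemma swp_swp : swp P (swp P S T) (swp P T S) = S := by
  ext x
  simp only [mem_swp]
  tauto

lemma swp_self : swp P S S = S := by
  ext x
  simp only [mem_swp]
  tauto

lemma card_swp : (swp P S T).card + (swp P T S).card = S.card + T.card := by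
  have hd : ∀ S T : Finset V, Disjoint (S.filter P) (T.filter fun x => ¬ P x) := fun S T =>
    disjoint_left.2 fun x h h' => (mem_filter.1 h').2 (mem_filter.1 h).2
  rw [swp, swp, card_union_of_disjoint (hd _ _), card_union_of_disjoint (hd _ _),
    ← card_filter_add_card_filter_not (s := S) P, ← card_filter_add_card_filter_not (s := T) P]
  ring

end swp

omit [DecidableEq V] in
lemma exists_gap (d : V → ℕ) (n : ℕ) (W : Finset V) (h : W.card ≤ n) :
    ∃ ρ, 1 ≤ ρ ∧ ρ ≤ n + 1 ∧ ∀ w ∈ W, d w ≠ ρ := by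
  have : (W.image d).card < (Icc 1 (n + 1)).card := by
    rw [Nat.card_Icc]
    exact lt_of_le_of_lt (card_image_le.trans h) (by omega)
  obtain ⟨ρ, h1, h2⟩ := exists_mem_notMem_of_card_lt_card this
  exact ⟨ρ, (mem_Icc.1 h1).1, (mem_Icc.1 h1).2, fun w hw e => h2 (mem_image.2 ⟨w, hw, e⟩)⟩

lemma coeff_swap {d : V → ℕ} (hv : d v = 0)
    (hm : ∀ S ⊆ Λ, ∀ T ⊆ Λ, (∀ a ∈ S, ∀ b ∈ T, d a + 1 < d b) → c (S ∪ T) = c S * c T)
    {n : ℕ} (hΛ : Λ' ⊆ Λ) (hd : ∀ u ∈ Λ, u ∉ Λ' → n + 1 < d u) {i : ℕ} (hi : i ≤ n) :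
    PowerSeries.coeff i (Pt c (Λ.erase v) * Pt c Λ') =
      PowerSeries.coeff i (Pt c (Λ'.erase v) * Pt c Λ) := by
  choose! ρ h1 h2 h3 using exists_gap d n
  have hc : ∀ p : Finset V × Finset V, p.1.card + p.2.card = i → (p.1 ∪ p.2).card ≤ n :=
    fun p hp => (card_union_le _ _).trans (hp.le.trans hi)
  have hin : ∀ u ∈ Λ, d u ≤ n + 1 → u ∈ Λ' := fun u hu h => by
    by_contra h'
    exact (hd u hu h').not_ge h
  rw [coeff_Pt_mul, coeff_Pt_mul]
  let f : Finset V × Finset V → Finset V × Finset V := fun p =>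
    (swp (fun x => d x < ρ (p.1 ∪ p.2)) p.1 p.2, swp (fun x => d x < ρ (p.1 ∪ p.2)) p.2 p.1)
  have hf : ∀ p, f (f p) = p := fun p => by simp only [f, swp_union, swp_swp]
  refine sum_nbij' f f ?_ ?_ (fun p _ => hf p) (fun p _ => hf p) ?_
  · intro p hp
    simp only [mem_filter, mem_product, mem_powerset, subset_erase] at hp ⊢
    obtain ⟨⟨⟨ha, hv'⟩, hb⟩, hp⟩ := hp
    have g1 := h1 _ (hc p hp)
    have g2 := h2 _ (hc p hp)
    refine ⟨⟨⟨fun x hx => ?_, fun hx => ?_⟩, fun x hx => ?_⟩, card_swp.trans hp⟩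
    · rcases mem_swp.1 hx with h | h
      exacts [hin x (ha h.1) (h.2.le.trans g2), hb h.1]
    · rcases mem_swp.1 hx with h | h
      exacts [hv' h.1, h.2 (by omega)]
    · rcases mem_swp.1 hx with h | h
      exacts [hΛ (hb h.1), ha h.1]
  · intro p hp
    simp only [mem_filter, mem_product, mem_powerset, subset_erase] at hp ⊢
    obtain ⟨⟨⟨ha, hv'⟩, hb⟩, hp⟩ := hp
    have g1 := h1 _ (hc p hp)
    have g2 := h2 _ (hc p hp)
    refine ⟨⟨⟨fun x hx => ?_, fun hx => ?_⟩, fun x hx => ?_⟩, card_swp.trans hp⟩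
    · rcases mem_swp.1 hx with h | h
      exacts [hΛ (ha h.1), hb h.1]
    · rcases mem_swp.1 hx with h | h
      exacts [hv' h.1, h.2 (by omega)]
    · rcases mem_swp.1 hx with h | h
      exacts [hin x (hb h.1) (h.2.le.trans g2), ha h.1]
  · intro p hp
    simp only [mem_filter, mem_product, mem_powerset, subset_erase] at hp
    obtain ⟨⟨⟨ha, -⟩, hb⟩, hp⟩ := hp
    have g3 := h3 _ (hc p hp)
    have key : ∀ S T : Finset V, S ⊆ Λ → T ⊆ Λ → T ⊆ p.1 ∪ p.2 →
        c (swp (fun x => d x < ρ (p.1 ∪ p.2)) S T) = c (S.filter fun x => d x < ρ (p.1 ∪ p.2)) *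
          c (T.filter fun x => ¬ d x < ρ (p.1 ∪ p.2)) := by
      intro S T hS hT hT'
      refine hm _ ((filter_subset _ _).trans hS) _ ((filter_subset _ _).trans hT)
        fun a ha b hb => ?_
      have := g3 b (hT' (mem_filter.1 hb).1)
      have := (mem_filter.1 ha).2
      have := (mem_filter.1 hb).2
      omega
    have hb' := hb.trans hΛ
    have e1 := key _ _ ha ha subset_union_left
    have e2 := key _ _ hb' hb' subset_union_right
    rw [swp_self] at e1 e2
    simp only [f]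
    rw [key _ _ ha hb' subset_union_right, key _ _ hb' ha subset_union_left, e1, e2]
    ring

/-- The coefficients up to `n` only see the vertices at distance at most `n + 1`. -/
theorem coeff_gs_local (h0 : c ∅ = 1) {d : V → ℕ} (hv : d v = 0)
    (hm : ∀ S ⊆ Λ, ∀ T ⊆ Λ, (∀ a ∈ S, ∀ b ∈ T, d a + 1 < d b) → c (S ∪ T) = c S * c T)
    {n : ℕ} (hΛ : Λ' ⊆ Λ) (hd : ∀ u ∈ Λ, u ∉ Λ' → n + 1 < d u) {i : ℕ} (hi : i ≤ n) :
    PowerSeries.coeff i (gs c Λ v) = PowerSeries.coeff i (gs c Λ' v) := by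
  have h1 : PowerSeries.X ^ (n + 1) ∣
      Pt c (Λ.erase v) * Pt c Λ' - Pt c (Λ'.erase v) * Pt c Λ := by
    refine PowerSeries.X_pow_dvd_iff.2 fun m hm' => ?_
    rw [map_sub, coeff_swap hv hm hΛ hd (Nat.lt_succ_iff.1 hm'), sub_self]
  have h2 : gs c Λ v - gs c Λ' v =
      (Pt c (Λ.erase v) * Pt c Λ' - Pt c (Λ'.erase v) * Pt c Λ) * ((Pt c Λ)⁻¹ * (Pt c Λ')⁻¹) := by
    have a := Pt_mul_inv (Λ := Λ) h0
    have b := Pt_mul_inv (Λ := Λ') h0
    unfold gs
    linear_combination (-(Pt c (Λ.erase v) * (Pt c Λ)⁻¹)) * b +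
      (Pt c (Λ'.erase v) * (Pt c Λ')⁻¹) * a
  rw [← sub_eq_zero, ← map_sub, h2]
  exact PowerSeries.X_pow_dvd_iff.1 (h1.mul_right _) i (Nat.lt_succ_of_le hi)

open PowerSeries in
lemma geom_mul (t : ℂ) : (1 - C t * X) * (mk fun i => t ^ i) = 1 := by
  ext n
  rw [sub_mul, one_mul, mul_assoc, map_sub, coeff_C_mul]
  cases n with
  | zero => simp
  | succ n => simp [coeff_succ_X_mul, pow_succ', coeff_one]

open PowerSeries in
lemma euler_prod (μ : Multiset ℝ) :
    (μ.card : ℂ⟦X⟧) * (μ.map fun t : ℝ => 1 - C (t : ℂ) * X).prod -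
      X * d⁄dX ℂ (μ.map fun t : ℝ => 1 - C (t : ℂ) * X).prod =
    (μ.map fun t : ℝ => 1 - C (t : ℂ) * X).prod *
      (μ.map fun t : ℝ => mk fun i => (t : ℂ) ^ i).sum := by
  induction μ using Multiset.induction_on with
  | empty => simp
  | cons t μ ih =>
    have h := geom_mul t
    have hd : d⁄dX ℂ (1 - C (t : ℂ) * X) = -C (t : ℂ) := by simp [derivative_C]
    simp only [Multiset.map_cons, Multiset.prod_cons, Multiset.sum_cons, Multiset.card_cons,
      Derivation.leibniz, hd, smul_eq_mul, Nat.cast_succ]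
    linear_combination (1 - C (t : ℂ) * X) * ih -
      (μ.map fun t : ℝ => 1 - C (t : ℂ) * X).prod * h

open PowerSeries in
lemma euler_Pt : ∑ v ∈ Λ, Pt c (Λ.erase v) = (Λ.card : ℂ⟦X⟧) * Pt c Λ - X * d⁄dX ℂ (Pt c Λ) := by
  unfold Pt
  rw [sum_comm' (t' := Λ.powerset) (s' := fun S => Λ \ S) (by
    intro x S
    simp only [mem_powerset, subset_erase, mem_sdiff]
    tauto), map_sum, mul_sum, mul_sum, ← sum_sub_distrib]
  refine sum_congr rfl fun S hS => ?_
  have h : X * d⁄dX ℂ (C (c S) * X ^ S.card) = (S.card : ℂ⟦X⟧) * (C (c S) * X ^ S.card) := by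
    rw [Derivation.leibniz, derivative_C, smul_zero, add_zero, Derivation.leibniz_pow,
      derivative_X]
    cases S.card with
    | zero => simp
    | succ k => simp; ring
  rw [h, sum_const, card_sdiff_of_subset (mem_powerset.1 hS), nsmul_eq_mul,
    Nat.cast_sub (card_le_card (mem_powerset.1 hS)), sub_mul]

lemma Pt_eq_prod {μ : Multiset ℝ} (hc : μ.card = Λ.card)
    (h : ∀ z : ℂ, ∑ S ∈ Λ.powerset, c S * z ^ (Λ \ S).card = (μ.map fun t : ℝ => z - t).prod) :
    Pt c Λ = (μ.map fun t : ℝ => 1 - PowerSeries.C (t : ℂ) * PowerSeries.X).prod := by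
  have h1 : ∑ S ∈ Λ.powerset, Polynomial.C (c S) * Polynomial.X ^ S.card =
      (μ.map fun t : ℝ => 1 - Polynomial.C (t : ℂ) * Polynomial.X).prod := by
    refine Polynomial.eq_of_infinite_eval_eq _ _ ?_
    refine (Set.finite_singleton (0 : ℂ)).infinite_compl.mono fun x hx => ?_
    have hx0 : x ≠ 0 := hx
    have h2 : (μ.map fun t : ℝ => 1 - (t : ℂ) * x).prod =
        x ^ μ.card * (μ.map fun t : ℝ => x⁻¹ - t).prod := by
      rw [← Multiset.prod_replicate, ← Multiset.map_const', ← Multiset.prod_map_mul]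
      congr 1
      refine Multiset.map_congr rfl fun t _ => ?_
      rw [mul_sub, mul_inv_cancel₀ hx0, mul_comm]
    simp only [Set.mem_ofPred_eq, Polynomial.eval_finsetSum, Polynomial.eval_multiset_prod,
      Multiset.map_map, Function.comp_def, Polynomial.eval_mul, Polynomial.eval_sub,
      Polynomial.eval_C, Polynomial.eval_X, Polynomial.eval_one, Polynomial.eval_pow]
    rw [h2, ← h, hc, mul_sum]
    refine sum_congr rfl fun S hS => ?_
    rw [← card_sdiff_add_card_eq_card (mem_powerset.1 hS), pow_add, inv_pow]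
    field_simp
  have h3 := congrArg (Polynomial.coeToPowerSeries.ringHom (R := ℂ)) h1
  rw [map_sum, map_multiset_prod, Multiset.map_map] at h3
  simpa [Pt, Function.comp_def] using h3

theorem sum_coeff_gs {μ : Multiset ℝ} (hc : μ.card = Λ.card)
    (h : ∀ z : ℂ, ∑ S ∈ Λ.powerset, c S * z ^ (Λ \ S).card = (μ.map fun t : ℝ => z - t).prod)
    (i : ℕ) : ∑ v ∈ Λ, PowerSeries.coeff i (gs c Λ v) = ((μ.map (· ^ i)).sum : ℝ) := by
  have h1 := Pt_eq_prod hc h
  have h0 : c ∅ = 1 := by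
    rw [← const_Pt (c := c) (Λ := Λ), h1, map_multiset_prod, Multiset.map_map]
    simp
  have h2 := euler_prod μ
  rw [← h1, hc, ← euler_Pt] at h2
  simp only [gs]
  rw [← map_sum, ← sum_mul, h2, mul_right_comm, Pt_mul_inv h0, one_mul, map_multiset_sum,
    Multiset.map_map]
  have h3 := map_multiset_sum Complex.ofRealHom (μ.map (· ^ i))
  rw [Multiset.map_map] at h3
  simpa [Function.comp_def] using h3.symm

lemma phi_congr (h : ∀ S ⊆ Λ, c S = c' S) : phi Q c Λ v = phi Q c' Λ v := by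
  simp only [phi, gs_congr h]

lemma Tot_congr (h : ∀ S ⊆ Λ, c S = c' S) : Tot Q c Λ = Tot Q c' Λ := by
  simp only [Tot, phi_congr h]

lemma phi_image {V' : Type*} [DecidableEq V'] {e : V' → V} {Λ' : Finset V'} {v : V'}
    (he : Set.InjOn e Λ') (hv : v ∈ Λ') :
    phi Q c (Λ'.image e) (e v) = phi Q (fun S => c (S.image e)) Λ' v := by
  simp only [phi, gs_image he hv]

lemma phi_dead (h0 : c ∅ = 1) (h : ∀ S ⊆ Λ, v ∈ S → c S = 0) : phi Q c Λ v = Q.eval 0 := by
  rw [phi, gs_eq_one h0 h, sum_eq_single 0]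
  · simp [Polynomial.coeff_zero_eq_eval_zero]
  · intro i _ hi
    simp [PowerSeries.coeff_one, hi]
  · simp

lemma phi_continuous {X : Type*} [TopologicalSpace X] {c : X → Finset V → ℂ}
    (h0 : ∀ x, c x ∅ = 1) (h : ∀ S, Continuous fun x => c x S) :
    Continuous fun x => phi Q (c x) Λ v := by
  unfold phi
  exact continuous_finsetSum _ fun i _ => continuous_const.fun_mul
    (Complex.continuous_re.comp (coeff_gs_continuous h0 h i))

lemma phi_local (h0 : c ∅ = 1) {d : V → ℕ} (hv : d v = 0)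
    (hm : ∀ S ⊆ Λ, ∀ T ⊆ Λ, (∀ a ∈ S, ∀ b ∈ T, d a + 1 < d b) → c (S ∪ T) = c S * c T)
    (hΛ : Λ' ⊆ Λ) (hd : ∀ u ∈ Λ, u ∉ Λ' → Q.natDegree + 1 < d u) :
    phi Q c Λ v = phi Q c Λ' v := by
  refine sum_congr rfl fun i hi => ?_
  rw [coeff_gs_local h0 hv hm hΛ hd (Nat.lt_succ_iff.1 (mem_range.1 hi))]

theorem Tot_eq {μ : Multiset ℝ} (hc : μ.card = Λ.card)
    (h : ∀ z : ℂ, ∑ S ∈ Λ.powerset, c S * z ^ (Λ \ S).card = (μ.map fun t : ℝ => z - t).prod) :
    Tot Q c Λ = (μ.map Q.eval).sum := by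
  unfold Tot phi
  rw [sum_comm]
  simp only [← mul_sum, ← Complex.re_sum, sum_coeff_gs hc h, Complex.ofReal_re]
  clear hc h
  induction μ using Multiset.induction_on with
  | empty => simp
  | cons t μ ih => simp [mul_add, sum_add_distrib, ih, Polynomial.eval_eq_sum_range]

end Vale.Agent.P078
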