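import Vale.Agent.P078.Bar
import Vale.Agent.P078.Dec
import Vale.Agent.P078.Loc

/-! The finite estimates for the potential. -/

namespace Vale.Agent.P078

open Finset
open scoped ComplexConjugate

variable {V κ : Type*} [DecidableEq V] [Fintype κ] [DecidableEq κ]
variable {Y : V → V → ℂ} {Q : Polynomial ℝ} {w : ℂ} {tol : ℝ} {q : V → κ × Bool → ℝ}
  {Λ : Finset V} {x : V}

lemma sub_zero' {J : Type*} [Fintype J] : Sub (0 : J → ℝ) := ⟨fun _ => le_rfl, by simp⟩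

lemma sub_unif {J : Type*} [Fintype J] : Sub (unif J) :=
  ⟨fun _ => by unfold unif; positivity, by
    simp only [unif, sum_const, card_univ, nsmul_eq_mul, one_div]
    exact mul_inv_le_one⟩

lemma sub_col (c : κ) : Sub (col c) :=
  ⟨fun j => by unfold col; split_ifs <;> norm_num, by
    simp [col, Fintype.sum_prod_type, sum_add_distrib]
    norm_num⟩

section general

variable {J : Type*} [Fintype J] [DecidableEq J] {A : J → V → V → ℂ} {r : V → J → ℝ}

lemma Tot_of_roots {μ : Multiset ℝ} (hc : μ.card = Λ.card)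
    (h : ∀ z : ℂ, PZ A r Λ (fun _ => z) = (μ.map fun t : ℝ => z - t).prod) :
    Tot Q (cc A r) Λ = (μ.map Q.eval).sum :=
  Tot_eq hc fun z => by
    rw [← h z, PZ_expand]
    simp only [prod_const]

lemma exists_il (hA : ∀ j, Ctr (A j)) (hr : ∀ v ∈ Λ, Sub (r v)) (hx : x ∈ Λ) :
    ∃ μ ν : Multiset ℝ, Il μ ν ∧ μ.card = Λ.card ∧ ν.card = (Λ.erase x).card ∧
      (∀ t ∈ μ, t ∈ Set.Icc (-1 : ℝ) 1) ∧
      (∀ z : ℂ, PZ A r Λ (fun _ => z) = (μ.map fun t : ℝ => z - t).prod) ∧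
      ∀ z : ℂ, PZ A r (Λ.erase x) (fun _ => z) = (ν.map fun t : ℝ => z - t).prod := by
  obtain ⟨μ, h1, h2, h3⟩ := exists_roots hA hr
  obtain ⟨ν, h4, -, h5⟩ := exists_roots (Λ := Λ.erase x) hA fun v hv => hr v (mem_of_mem_erase hv)
  refine ⟨μ, ν, ⟨by rw [h1, h4, card_erase_add_one hx], fun z hz => ?_⟩, h1, h4, h2, h3, h5⟩
  rw [← h3, ← h5]
  exact pick_quot hA hr hx hz

lemma root_iff {μ : Multiset ℝ} {z : ℝ} :
    (μ.map fun t : ℝ => (z : ℂ) - t).prod = 0 ↔ z ∈ μ := by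
  rw [Multiset.prod_eq_zero_iff, Multiset.mem_map]
  constructor
  · rintro ⟨t, ht, h⟩
    rwa [Complex.ofReal_injective (sub_eq_zero.1 h)]
  · exact fun h => ⟨z, h, sub_self _⟩

/-- The quotient with the state of `x` replaced by `p`. -/
noncomputable def hquo (A : J → V → V → ℂ) (r : V → J → ℝ) (Λ : Finset V) (x : V) (w : ℂ)
    (p : J → ℝ) : ℂ :=
  PZ A (Function.update r x p) Λ (fun _ => w) / PZ A r (Λ.erase x) fun _ => w

lemma PZ_erase_state (p : J → ℝ) (Z : V → ℂ) :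
    PZ A (Function.update r x p) (Λ.erase x) Z = PZ A r (Λ.erase x) Z :=
  PZ_congr (fun _ hv => Function.update_of_ne (ne_of_mem_erase hv) _ _) fun _ _ => rfl

lemma hq_im (hA : ∀ j, Ctr (A j)) (hr : ∀ v ∈ Λ, Sub (r v)) (hx : x ∈ Λ) (hw : 0 < w.im)
    {p : J → ℝ} (hp : Sub p) : 0 < (hquo A r Λ x w p).im := by
  have h := pick_quot hA (sub_update (v := x) hr hp) hx hw
  rwa [PZ_erase_state] at h

lemma Tot_near (hA : ∀ j, Ctr (A j)) (hr : ∀ v ∈ Λ, Sub (r v)) (hx : x ∈ Λ) (hw : 0 < w.im)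
    (hQ : QF Q w tol) {p : J → ℝ} (hp : Sub p) :
    |Tot Q (cc A (Function.update r x p)) Λ - Tot Q (cc A r) (Λ.erase x) -
      Complex.arg (hquo A r Λ x w p)| ≤ 3 * tol := by
  obtain ⟨μ, ν, h, h1, h2, h3, h4, h5⟩ := exists_il hA (sub_update (v := x) hr hp) hx
  simp only [PZ_erase_state] at h5
  rw [Tot_of_roots h1 h4, Tot_of_roots h2 h5, hquo, h4, h5]
  exact h.near h3 hw hQ

lemma hq_eq (hA : ∀ j, Ctr (A j)) (hr : ∀ v ∈ Λ, Sub (r v)) (hx : x ∈ Λ) (hw : 0 < w.im)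
    (p : J → ℝ) : hquo A r Λ x w p = w + ∑ j, (p j : ℂ) *
      (PZ A (Function.update r x (Pi.single j 1)) Λ (Function.update (fun _ => w) x 0) /
        PZ A r (Λ.erase x) fun _ => w) := by
  have h0 : PZ A r (Λ.erase x) (fun _ => w) ≠ 0 :=
    PZ_ne_zero reg_upper hA (fun v hv => hr v (mem_of_mem_erase hv)) fun _ _ => hw
  have h1 := PZ_update (A := A) (q := r) (Z := fun _ => w) hx p w
  rw [Function.update_eq_self x (fun _ => w)] at h1
  rw [hquo, h1, add_div, mul_div_cancel_right₀ _ h0, sum_div]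
  simp only [mul_div_assoc]

lemma Tot_erase_le (hA : ∀ j, Ctr (A j)) (hr : ∀ v ∈ Λ, Sub (r v)) (hx : x ∈ Λ) (hw : 0 < w.im)
    (hQ : QF Q w tol) : Tot Q (cc A r) (Λ.erase x) ≤ Tot Q (cc A r) Λ + 3 * tol := by
  have h1 := abs_le.1 (Tot_near hA hr hx hw hQ (hr x hx))
  have h2 := arg_pos_of_im (hq_im hA hr hx hw (hr x hx))
  rw [Function.update_eq_self] at h1
  linarith [h1.1]

lemma sum_arg_le {μ : Multiset ℝ} (hμ : ∀ t ∈ μ, t ∈ Set.Icc (-1 : ℝ) 1) (hQ : QF Q w tol) :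
    (μ.map fun t : ℝ => Complex.arg (w - t)).sum ≤ (μ.map Q.eval).sum + μ.card * tol := by
  have h1 : (μ.map fun t : ℝ => Complex.arg (w - t)).sum ≤ (μ.map fun t => Q.eval t + tol).sum :=
    Multiset.sum_map_le_sum_map _ _ fun t ht => by linarith [(abs_le.1 (hQ.near t (hμ t ht))).1]
  rwa [Multiset.sum_map_add, Multiset.map_const', Multiset.sum_replicate, nsmul_eq_mul] at h1

lemma root_up (hA : ∀ j, Ctr (A j)) (hr : ∀ v ∈ Λ, Sub (r v)) {S : Finset V} (hS : S ⊆ Λ) {z : ℝ}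
    (hz : PZ A r S (fun _ => (z : ℂ)) = 0) : ∃ m : ℝ, z ≤ m ∧ PZ A r Λ (fun _ => (m : ℂ)) = 0 := by
  have key : ∀ U ⊆ Λ, ∃ m : ℝ, z ≤ m ∧ PZ A r (S ∪ U) (fun _ => (m : ℂ)) = 0 := by
    intro U hU
    induction U using Finset.induction_on with
    | empty => exact ⟨z, le_rfl, by rwa [union_empty]⟩
    | insert u U _ ih =>
      obtain ⟨m, hm, h0⟩ := ih ((subset_insert _ _).trans hU)
      rw [union_insert]
      by_cases hu : u ∈ S ∪ U
      · exact ⟨m, hm, by rwa [insert_eq_of_mem hu]⟩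
      · have hT : insert u (S ∪ U) ⊆ Λ := by rw [← union_insert]; exact union_subset hS hU
        obtain ⟨μ, ν, h, -, -, h3, h4, h5⟩ :=
          exists_il hA (fun v hv => hr v (hT hv)) (mem_insert_self u (S ∪ U))
        rw [erase_insert hu] at h5
        rw [h5, root_iff] at h0
        obtain ⟨m', hm', hmax⟩ := Multiset.exists_max_image (fun t : ℝ => t) (s := μ)
          (fun e => by have := h.card; simp [e] at this)
        have h6 := h.mem_Icc (l := -1) (u := m') (fun t ht => ⟨(h3 t ht).1, hmax t ht⟩) m h0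
        exact ⟨m', hm.trans h6.2, by rw [h4, root_iff]; exact hm'⟩
  have h := key Λ subset_rfl
  rwa [union_eq_right.2 hS] at h

end general

/-- Colouring a vertex well does not increase the potential. -/
theorem Tot_col [Nonempty κ] (hY : Ctr Y) (hw : 0 < w.im) (hQ : QF Q w tol)
    (hq : ∀ v ∈ Λ, Sub (q v)) (hx : x ∈ Λ) (hu : q x = unif _) :
    ∃ c, Tot Q (cc (pm Y) (Function.update q x (col c))) Λ ≤ Tot Q (cc (pm Y) q) Λ + 6 * tol := by
  have hA : ∀ j : κ × Bool, Ctr (pm Y j) := hY.pm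
  obtain ⟨c, hc⟩ := exists_arg_le fun c : κ => hq_im hA hq hx hw (sub_col c)
  have hk : (Fintype.card κ : ℂ) ≠ 0 := Nat.cast_ne_zero.2 Fintype.card_ne_zero
  have h1 : (∑ c : κ, hquo (pm Y) q Λ x w (col c)) / Fintype.card κ =
      hquo (pm Y) q Λ x w (q x) := by
    simp only [hq_eq hA hq hx hw]
    rw [sum_add_distrib, sum_const, card_univ, nsmul_eq_mul, add_div,
      mul_div_cancel_left₀ _ hk, sum_comm, sum_div]
    congr 1
    refine sum_congr rfl fun j _ => ?_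
    rw [← sum_mul, hu]
    have h2 : ∑ c : κ, ((col c j : ℝ) : ℂ) = 1 / 2 := by
      simp [col, apply_ite Complex.ofReal]
    rw [h2, unif, Fintype.card_prod, Fintype.card_bool]
    push_cast
    field_simp
  rw [h1] at hc
  have h3 := abs_le.1 (Tot_near hA hq hx hw hQ (sub_col c))
  have h4 := abs_le.1 (Tot_near hA hq hx hw hQ (hq x hx))
  rw [Function.update_eq_self] at h4
  exact ⟨c, by linarith [h3.2, h4.1]⟩

/-- Deleting a vertex. -/
theorem Tot_del (hY : Ctr Y) (hw : 0 < w.im) (hQ : QF Q w tol) (hq : ∀ v ∈ Λ, Sub (q v))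
    (hx : x ∈ Λ) : Tot Q (cc (pm Y) (Function.update q x 0)) Λ ≤
      Tot Q (cc (pm Y) q) Λ + (Complex.arg w + 6 * tol) := by
  have hA : ∀ j : κ × Bool, Ctr (pm Y j) := hY.pm
  have h1 := abs_le.1 (Tot_near hA hq hx hw hQ sub_zero')
  have h2 := Tot_erase_le hA hq hx hw hQ
  have h3 : hquo (pm Y) q Λ x w 0 = w := by simp [hq_eq hA hq hx hw]
  rw [h3] at h1
  linarith [h1.2]

/-- Creating an uncoloured vertex among uncoloured vertices. -/
theorem Tot_unif (hY : Ctr Y) (hd : ∀ v, Y v v = 0) (hk : 2 ≤ Fintype.card κ) (hw : 0 < w.im)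
    (hQ : QF Q w tol) (hq : ∀ v ∈ Λ, q v = unif _ ∨ q v = 0) (hx : x ∈ Λ) :
    Tot Q (cc (pm Y) (Function.update q x (unif _))) Λ ≤ Tot Q (cc (pm Y) q) Λ +
      (Complex.arg (w - tb (Fintype.card (κ × Bool))) + 6 * tol) := by
  have hA : ∀ j : κ × Bool, Ctr (pm Y j) := hY.pm
  have hd' : ∀ (j : κ × Bool) v, pm Y j v v = 0 := fun j v => by simp [pm, hd]
  have hs : ∀ v ∈ Λ, Sub (q v) := fun v hv => by
    rcases hq v hv with e | e <;> rw [e]
    exacts [sub_unif, sub_zero']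
  have hk' : 4 ≤ Fintype.card (κ × Bool) := by
    rw [Fintype.card_prod, Fintype.card_bool]; omega
  have h1 := abs_le.1 (Tot_near hA hs hx hw hQ sub_unif)
  have h2 := Tot_erase_le hA hs hx hw hQ
  obtain ⟨μ, ν, h, -, -, h3, h4, h5⟩ := exists_il hA (sub_update (v := x) hs sub_unif) hx
  simp only [PZ_erase_state] at h5
  have h6 : ∀ t ∈ μ, t ∈ Set.Icc (-1 : ℝ) (tb (Fintype.card (κ × Bool))) := fun t ht => by
    refine ⟨(h3 t ht).1, not_lt.1 fun hlt => ?_⟩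
    refine PZ_barrier hA hd' hk' (Λ := Λ) (q := Function.update q x (unif _)) (fun v hv => ?_)
      hlt.le (by rw [h4, root_iff]; exact ht)
    by_cases e : v = x
    · rw [e, Function.update_self]; exact Or.inl rfl
    · rw [Function.update_of_ne e]; exact hq v hv
  have h7 := h.upper h6 ((arg_sub_monotone hw).monotoneOn _)
  rw [hquo, h4, h5, h.arg_eq hw] at h1
  linarith [h1.2]

theorem Tot_lower (hY : Ctr Y) (hw : 0 < w.im) (hQ : QF Q w tol) (hq : ∀ v ∈ Λ, Sub (q v)) :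
    0 ≤ Tot Q (cc (pm Y) q) Λ + Λ.card * tol := by
  obtain ⟨μ, h1, h2, h3⟩ := exists_roots (A := pm Y) hY.pm hq
  rw [Tot_of_roots h1 h3, ← h1]
  refine le_trans (Multiset.sum_nonneg fun a ha => ?_) (sum_arg_le h2 hQ)
  obtain ⟨t, -, rfl⟩ := Multiset.mem_map.1 ha
  exact (arg_pos_of_im (by simpa using hw)).le

/-- A small potential forces the paving bound. -/
theorem Tot_good (hY : Ctr Y) (hd : ∀ v, Y v v = 0) (hw : 0 < w.im) (hw' : 0 < w.re)
    (hQ : QF Q w tol) {c : V → κ}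
    (h : Tot Q (cc (pm Y) fun v => col (c v)) Λ + Λ.card * tol < 1)
    {S : Finset V} (hS : S ⊆ Λ) {k : κ} (hk : ∀ v ∈ S, c v = k) (ξ : V → ℂ) :
    ‖∑ a ∈ S, ∑ b ∈ S, conj (ξ a) * Y a b * ξ b‖ ≤ 2 * w.re * ∑ a ∈ S, ‖ξ a‖ ^ 2 := by
  refine decouple hY hd hw' (fun T hT z hz h0 => ?_) hS hk ξ
  have hq : ∀ v ∈ Λ, Sub (col (c v)) := fun v _ => sub_col _
  obtain ⟨m, hm, h1⟩ := root_up (A := pm Y) hY.pm hq hT h0
  obtain ⟨μ, h2, h3, h4⟩ := exists_roots (A := pm Y) hY.pm hq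
  rw [h4, root_iff] at h1
  rw [Tot_of_roots h2 h4, ← h2] at h
  have h5 := sum_arg_le h3 hQ
  have h6 : Complex.arg (w - m) ≤ (μ.map fun t : ℝ => Complex.arg (w - t)).sum :=
    Multiset.single_le_sum (fun a ha => by
      obtain ⟨t, -, rfl⟩ := Multiset.mem_map.1 ha
      exact (arg_pos_of_im (by simpa using hw)).le) _ (Multiset.mem_map_of_mem _ h1)
  have h7 : Real.arctan ((w.re - m) / w.im) ≤ 0 :=
    Real.arctan_le_zero.2 (div_nonpos_of_nonpos_of_nonneg (by linarith) hw.le)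
  rw [arg_sub_eq hw] at h6
  linarith [Real.two_le_pi]

/-- Colour symmetry. -/
lemma cc_pm_perm (σ : Equiv.Perm κ) (S : Finset V) :
    cc (pm Y) (fun v (j : κ × Bool) => q v (σ j.1, j.2)) S = cc (pm Y) q S :=
  cc_perm (A := pm Y) (q := q) (Equiv.prodCongr σ (Equiv.refl Bool))

end Vale.Agent.P078
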