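import Vale.Agent.P078.ExpB
import Mathlib.Topology.DiscreteQuotient
import Mathlib.Analysis.CStarAlgebra.ContinuousMap
import Mathlib.Topology.ContinuousMap.Ordered
import Mathlib.Analysis.CStarAlgebra.Hom
import Mathlib.Topology.Algebra.Indicator

/-! A maximal abelian subalgebra `C(X)` of a tracial W*-algebra. -/

namespace Vale.Agent.P078

open Vale.Agent.P085 Filter
open scoped Topology ComplexConjugate

/-- The data of a masa `ι (C(X))` with its conditional expectation. -/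
structure Ctx (M X : Type*) [CStarAlgebra M] [TopologicalSpace X] [CompactSpace X] where
  T : Tr M
  fw : FW T
  ι : C(X, ℂ) →⋆ₐ[ℂ] M
  inj : Function.Injective ι
  masa : ∀ m, (∀ f, m * ι f = ι f * m) → ∃ f, ι f = m
  E : M →ₗ[ℂ] C(X, ℂ)
  tr : ∀ f x, T.τ (ι f * ι (E x)) = T.τ (ι f * x)

variable {M X : Type*} [CStarAlgebra M] [TopologicalSpace X] [CompactSpace X]

lemma comm_of_approx {T : Tr M} (h : FW T) {y a : M}
    (hy : ∀ ε > 0, ∃ x, x * a = a * x ∧ T.n2 (y - x) < ε) : y * a = a * y := by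
  refine sub_eq_zero.1 (h.faithful _ (le_antisymm (le_of_forall_pos_le_add fun ε hε => ?_)
    (T.n2_nonneg _)))
  have ha := norm_nonneg a
  obtain ⟨x, hx, h1⟩ := hy (ε / (2 * ‖a‖ + 1)) (by positivity)
  have e : y * a - a * y = (y - x) * a - a * (y - x) := by rw [sub_mul, mul_sub, hx]; abel
  have h2 := T.n2_mul_le' (y - x) a
  have h3 := T.n2_mul_le a (y - x)
  have h4 := T.n2_sub_le ((y - x) * a) (a * (y - x))
  have h5 := T.n2_nonneg (y - x)
  rw [lt_div_iff₀ (by positivity)] at h1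
  rw [e]
  nlinarith

omit [CompactSpace X] in
lemma range_closed {T : Tr M} (h : FW T) (ι : C(X, ℂ) →⋆ₐ[ℂ] M)
    (masa : ∀ m, (∀ f, m * ι f = ι f * m) → ∃ f, ι f = m) : T.Closed ι.range := by
  intro x R y hx hy
  refine masa y fun f => comm_of_approx h fun ε hε => ?_
  obtain ⟨n, hn⟩ := (hy.eventually (gt_mem_nhds hε)).exists
  obtain ⟨g, hg⟩ : ∃ g, ι g = x n := (hx n).1
  exact ⟨x n, by rw [← hg, ← map_mul, ← map_mul, mul_comm], by rwa [T.n2_sub_rev]⟩

theorem exists_ctx {T : Tr M} (h : FW T) (ι : C(X, ℂ) →⋆ₐ[ℂ] M) (inj : Function.Injective ι)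
    (masa : ∀ m, (∀ f, m * ι f = ι f * m) → ∃ f, ι f = m) :
    ∃ C : Ctx M X, C.T = T ∧ C.ι = ι := by
  obtain ⟨E, hE⟩ := exists_exp h (range_closed h ι masa)
  have h0 : ∀ x, ∃ f, ι f = E x := hE.mem
  choose e he using h0
  refine ⟨⟨T, h, ι, inj, masa, ⟨⟨e, fun x y => inj ?_⟩, fun c x => inj ?_⟩, fun f x => ?_⟩,
    rfl, rfl⟩
  · simp only [map_add, he]
  · simp only [map_smul, he, RingHom.id_apply]
  · exact (congrArg (fun z => T.τ (ι f * z)) (he x)).trans (hE.tr _ ⟨f, rfl⟩ x)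

/-- Indicator function of a clopen set. -/
noncomputable def ind (U : Set X) : C(X, ℂ) := ContinuousMap.mkD (U.indicator 1) 0

omit [CompactSpace X] in
lemma ind_apply {U : Set X} (hU : IsClopen U) (x : X) : ind U x = U.indicator 1 x := by
  exact ContinuousMap.mkD_apply_of_continuous (hU.continuous_indicator continuous_one)

omit [CompactSpace X] in
lemma ind_of_mem {U : Set X} (hU : IsClopen U) {x : X} (hx : x ∈ U) : ind U x = 1 := by
  simp [ind_apply hU, hx]

omit [CompactSpace X] in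
lemma ind_of_notMem {U : Set X} (hU : IsClopen U) {x : X} (hx : x ∉ U) : ind U x = 0 := by
  simp [ind_apply hU, hx]

omit [CompactSpace X] in
lemma ind_val (U : Set X) (x : X) : ind U x = 0 ∨ ind U x = 1 := by
  by_cases h : Continuous (U.indicator (1 : X → ℂ))
  · rw [ind, ContinuousMap.mkD_apply_of_continuous h]
    by_cases hx : x ∈ U <;> simp [hx]
  · rw [ind, ContinuousMap.mkD_of_not_continuous h]
    exact Or.inl rfl

omit [CompactSpace X] in
lemma isClopen_preimage {κ : Type*} {c : X → κ} (hc : IsLocallyConstant c) (s : Set κ) :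
    IsClopen (c ⁻¹' s) := ⟨⟨hc sᶜ⟩, hc s⟩

/-- A real function seen as a complex function. -/
noncomputable def cx (f : C(X, ℝ)) : C(X, ℂ) := ⟨fun x => (f x : ℂ), by fun_prop⟩

omit [CompactSpace X] in
@[simp] lemma cx_apply (f : C(X, ℝ)) (x : X) : cx f x = f x := rfl

noncomputable instance (P : DiscreteQuotient X) : Fintype P := Fintype.ofFinite P

namespace Ctx

variable (C : Ctx M X)

/-- The projection of a clopen set. -/
noncomputable def pj (U : Set X) : M := C.ι (ind U)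

/-- Pinching along the fibres of `c`. -/
noncomputable def pinch {κ : Type*} [Fintype κ] (c : X → κ) (y : M) : M :=
  ∑ k, C.pj (c ⁻¹' {k}) * y * C.pj (c ⁻¹' {k})

/-- The trace on real functions. -/
noncomputable def τR : C(X, ℝ) →ₗ[ℝ] ℝ where
  toFun f := (C.T.τ (C.ι ⟨fun x => (f x : ℂ), by fun_prop⟩)).re
  map_add' f g := by
    rw [← Complex.add_re, ← map_add, ← map_add]
    congr 3
    ext x
    simp
  map_smul' c f := by
    rw [RingHom.id_apply, smul_eq_mul, ← Complex.re_ofReal_mul, ← smul_eq_mul, ← map_smul,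
      ← map_smul]
    congr 3
    ext x
    simp

variable {U V : Set X}

lemma ι_comm (f g : C(X, ℂ)) : C.ι f * C.ι g = C.ι g * C.ι f := by
  rw [← map_mul, ← map_mul, mul_comm]

lemma norm_ι (f : C(X, ℂ)) : ‖C.ι f‖ = ‖f‖ := by
  exact NonUnitalStarAlgHom.norm_map C.ι C.inj f

lemma pj_proj (U : Set X) : IsStarProjection (C.pj U) := by
  refine ⟨?_, ?_⟩
  · rw [IsIdempotentElem, pj, ← map_mul]
    congr 1
    ext x
    rcases ind_val U x with h | h <;> simp [h]
  · rw [IsSelfAdjoint, pj, ← map_star]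
    congr 1
    ext x
    rcases ind_val U x with h | h <;> simp [h]

lemma pj_mul (hU : IsClopen U) (hV : IsClopen V) : C.pj U * C.pj V = C.pj (U ∩ V) := by
  rw [pj, pj, pj, ← map_mul]
  congr 1
  ext x
  simp [ind_apply hU, ind_apply hV, ind_apply (hU.inter hV), Set.inter_indicator_one]

lemma pj_empty : C.pj ∅ = 0 := by
  rw [pj, ← map_zero C.ι]
  congr 1
  ext x
  simp [ind_apply isClopen_empty]

lemma pj_univ : C.pj Set.univ = 1 := by
  rw [pj, ← map_one C.ι]
  congr 1
  ext x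
  simp [ind_apply isClopen_univ]

lemma pj_compl (hU : IsClopen U) : C.pj Uᶜ = 1 - C.pj U := by
  rw [pj, pj, ← map_one C.ι, ← map_sub]
  congr 1
  ext x
  by_cases hx : x ∈ U <;> simp [ind_apply hU, ind_apply hU.compl, hx]

lemma pj_union (hU : IsClopen U) (hV : IsClopen V) (h : Disjoint U V) :
    C.pj (U ∪ V) = C.pj U + C.pj V := by
  rw [pj, pj, pj, ← map_add]
  congr 1
  ext x
  simp [ind_apply hU, ind_apply hV, ind_apply (hU.union hV), Set.indicator_union_of_disjoint h]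

lemma pj_eq_zero (hU : IsClopen U) (h : C.pj U = 0) : U = ∅ := by
  have h1 : ind U = 0 := C.inj (by rw [map_zero]; exact h)
  refine Set.eq_empty_of_forall_notMem fun x hx => ?_
  have := ind_of_mem hU hx
  rw [h1] at this
  exact zero_ne_one this

lemma sum_pj {κ : Type*} {c : X → κ} (hc : IsLocallyConstant c) (s : Finset κ) :
    ∑ k ∈ s, C.pj (c ⁻¹' {k}) = C.pj (c ⁻¹' s) := by
  classical
  simp only [pj]
  rw [← map_sum]
  congr 1
  ext x
  simp [ind_apply (isClopen_preimage hc _), Set.indicator_apply]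

lemma exists_pj {f : C(X, ℂ)} (hf : IsStarProjection (C.ι f)) :
    ∃ U, IsClopen U ∧ C.ι f = C.pj U := by
  have h1 : f * f = f := C.inj (by rw [map_mul]; exact hf.isIdempotentElem)
  have h2 : ∀ x, f x = 0 ∨ f x = 1 := fun x => by
    have : f x * (f x - 1) = 0 := by
      rw [mul_sub, mul_one, ← ContinuousMap.mul_apply, h1, sub_self]
    exact (mul_eq_zero.1 this).imp id sub_eq_zero.1
  have hU : IsClopen {x | f x = 1} := by
    refine ⟨isClosed_eq f.continuous continuous_const, ?_⟩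
    have : {x | f x = 1} = {x | f x ≠ 0} := by
      ext x
      rcases h2 x with h | h <;> simp [h]
    rw [this]
    exact isOpen_ne_fun f.continuous continuous_const
  refine ⟨_, hU, congrArg _ ?_⟩
  ext x
  rcases h2 x with h | h
  · rw [h, ind_of_notMem hU (by simp [h])]
  · rw [h, ind_of_mem hU h]

lemma isExp : IsExp C.T C.ι.range (C.ι.toLinearMap ∘ₗ C.E) :=
  ⟨fun x => ⟨C.E x, rfl⟩, by rintro _ ⟨f, rfl⟩ x; exact C.tr f x⟩

lemma closed : C.T.Closed C.ι.range := range_closed C.fw C.ι C.masa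

lemma E_eq_of {y : M} {g : C(X, ℂ)} (h : ∀ f, C.T.τ (C.ι f * C.ι g) = C.T.τ (C.ι f * y)) :
    C.E y = g :=
  C.inj (C.isExp.eq_of C.fw ⟨g, rfl⟩ (by rintro _ ⟨f, rfl⟩; exact h f))

lemma E_ι (f : C(X, ℂ)) : C.E (C.ι f) = f := by
  exact C.E_eq_of fun _ => rfl

lemma E_mul_left (f : C(X, ℂ)) (y : M) : C.E (C.ι f * y) = f * C.E y := by
  exact C.inj ((C.isExp.mul_left C.fw ⟨f, rfl⟩ y).trans (map_mul C.ι _ _).symm)

lemma E_mul_right (f : C(X, ℂ)) (y : M) : C.E (y * C.ι f) = C.E y * f := by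
  exact C.inj ((C.isExp.mul_right C.fw ⟨f, rfl⟩ y).trans (map_mul C.ι _ _).symm)

lemma E_star (y : M) : C.E (star y) = star (C.E y) := by
  exact C.inj ((C.isExp.map_star C.fw y).trans (map_star C.ι _).symm)

lemma τ_E (y : M) : C.T.τ (C.ι (C.E y)) = C.T.τ y := by
  simpa using C.tr 1 y

lemma n2_E_le (y : M) : C.T.n2 (C.ι (C.E y)) ≤ C.T.n2 y := by
  exact C.isExp.n2_le y

lemma norm_E_le {y : M} (hy : star y = y) : ‖C.E y‖ ≤ ‖y‖ := by
  rw [← C.norm_ι]
  exact C.isExp.norm_le C.fw C.closed hy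

lemma τR_cx (f : C(X, ℝ)) : C.τR f = (C.T.τ (C.ι (cx f))).re := rfl

lemma τR_apply (f : C(X, ℝ)) (g : C(X, ℂ)) (h : ∀ x, (g x).re = f x) :
    C.τR f = (C.T.τ (C.ι g)).re := by
  have h1 : (C.T.τ (C.ι (cx f - g))).re = 0 := by
    refine C.T.re_τ_skew ?_
    rw [← map_star, ← map_neg]
    congr 1
    ext x
    apply Complex.ext <;> simp [h]
  rw [map_sub, map_sub, Complex.sub_re, sub_eq_zero] at h1
  exact h1

lemma τR_eq_sq {f : C(X, ℝ)} (hf : 0 ≤ f) :
    C.τR f = C.T.n2 (C.ι (cx ⟨fun x => √(f x), by fun_prop⟩)) ^ 2 := by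
  rw [C.T.n2_sq, ← map_star, ← map_mul]
  refine C.τR_apply _ _ fun x => ?_
  simpa using Real.mul_self_sqrt (hf x)

lemma τR_nonneg {f : C(X, ℝ)} (hf : 0 ≤ f) : 0 ≤ C.τR f := by
  rw [C.τR_eq_sq hf]
  positivity

lemma τR_one : C.τR 1 = 1 := by
  rw [C.τR_apply 1 1 fun x => by simp, map_one, C.T.one, Complex.one_re]

lemma τR_faithful {f : C(X, ℝ)} (hf : 0 ≤ f) (h : C.τR f = 0) : f = 0 := by
  rw [C.τR_eq_sq hf, sq_eq_zero_iff] at h
  have h1 := C.inj ((C.fw.faithful _ h).trans (map_zero C.ι).symm)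
  ext x
  have h2 := congrArg (fun g : C(X, ℂ) => g x) h1
  exact (Real.sqrt_eq_zero (hf x)).1 (by simpa using h2)

lemma re_τ_mono {f g : C(X, ℂ)} (h : ∀ x, (f x).re ≤ (g x).re) :
    (C.T.τ (C.ι f)).re ≤ (C.T.τ (C.ι g)).re := by
  have h1 := C.τR_nonneg (f := ⟨fun x => (g x).re - (f x).re, by fun_prop⟩)
    fun x => sub_nonneg.2 (h x)
  rwa [C.τR_apply _ (g - f) fun x => by simp, map_sub, map_sub, Complex.sub_re, sub_nonneg] at h1

lemma E_nonneg (y : M) (x : X) : 0 ≤ (C.E (star y * y) x).re ∧ (C.E (star y * y) x).im = 0 := by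
  set g := C.E (star y * y) with hg
  have h1 : star g = g := by rw [hg, ← C.E_star, star_mul, star_star]
  refine ⟨?_, Complex.conj_eq_iff_im.1 (congrArg (fun k : C(X, ℂ) => k x) h1)⟩
  let n : C(X, ℝ) := ⟨fun x => max (-(g x).re) 0, by fun_prop⟩
  let s : C(X, ℂ) := cx ⟨fun x => √(n x), by fun_prop⟩
  have hs : star s = s := by ext x; simp [s]
  have hn : ∀ x, 0 ≤ n x := fun x => le_max_right _ _
  have h2 : 0 ≤ (C.T.τ (C.ι (s * s * g))).re := by
    rw [map_mul, hg, C.tr, map_mul C.ι, mul_assoc, C.T.comm]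
    have := (C.T.pos (y * C.ι s)).1
    rwa [star_mul, ← map_star, hs, mul_assoc, ← mul_assoc (star y), ← mul_assoc] at this
  have h3 : C.τR (-(n * n)) = (C.T.τ (C.ι (s * s * g))).re := by
    refine C.τR_apply _ _ fun x => ?_
    have : (s * s * g) x = n x * g x := by
      simp only [s, ContinuousMap.mul_apply, cx_apply, ContinuousMap.coe_mk]
      rw [← Complex.ofReal_mul, Real.mul_self_sqrt (hn x)]
    rw [this, Complex.re_ofReal_mul]
    simp only [n, ContinuousMap.neg_apply, ContinuousMap.mul_apply, ContinuousMap.coe_mk]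
    rcases le_total (-(g x).re) 0 with h | h
    · simp [max_eq_right h]
    · rw [max_eq_left h]; ring
  have h4 : 0 ≤ n * n := fun x => mul_self_nonneg (n x)
  rw [← h3, map_neg, neg_nonneg] at h2
  have h5 := congrArg (fun k : C(X, ℝ) => k x)
    (C.τR_faithful h4 (le_antisymm h2 (C.τR_nonneg h4)))
  have h6 : max (-(g x).re) 0 = 0 := mul_self_eq_zero.1 h5
  linarith [le_max_left (-(g x).re) 0]

lemma norm_E_conj_le {y : M} (hy : star y = y) (z : M) (x : X) :
    ‖C.E (star z * y * z) x‖ ≤ ‖y‖ * (C.E (star z * z) x).re := by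
  let _ := CStarAlgebra.spectralOrder M
  have _ := CStarAlgebra.spectralOrderedRing M
  have key : ∀ w : M, star w = w → ‖w‖ = ‖y‖ →
      (C.E (star z * w * z) x).re ≤ ‖y‖ * (C.E (star z * z) x).re := by
    intro w hw hn
    obtain ⟨b, hb⟩ := CStarAlgebra.nonneg_iff_eq_star_mul_self.mp
      (sub_nonneg.2 (IsSelfAdjoint.le_algebraMap_norm_self hw))
    have h1 := (C.E_nonneg (b * z) x).1
    have e : star (b * z) * (b * z) = (‖y‖ : ℂ) • (star z * z) - star z * w * z := by
      rw [star_mul, mul_assoc, ← mul_assoc (star b), ← hb, hn, Algebra.algebraMap_eq_smul_one,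
        ← Complex.coe_smul]
      simp [sub_mul, mul_sub, mul_assoc]
    rw [e, map_sub, map_smul] at h1
    simpa using h1
  have h1 := key y hy rfl
  have h2 := key (-y) (by rw [star_neg, hy]) (norm_neg y)
  have h3 : star (C.E (star z * y * z)) = C.E (star z * y * z) := by
    rw [← C.E_star, star_mul, star_mul, star_star, hy, mul_assoc]
  have h4 := Complex.conj_eq_iff_im.1 (congrArg (fun k : C(X, ℂ) => k x) h3)
  rw [mul_neg, neg_mul, map_neg, ContinuousMap.neg_apply, Complex.neg_re] at h2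
  rw [← Complex.abs_re_eq_norm.2 h4, abs_le]
  constructor <;> linarith

end Ctx

end Vale.Agent.P078
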