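import Vale.Agent.P078.Ctx
import Mathlib.Topology.Separation.DisjointCover
import Mathlib.Topology.UrysohnsLemma

/-! Clopen sets and pinchings. -/

namespace Vale.Agent.P078

open Vale.Agent.P085 Filter
open scoped Topology ComplexConjugate

variable {M X : Type*} [CStarAlgebra M] [TopologicalSpace X] [CompactSpace X]

namespace Ctx

variable (C : Ctx M X)

/-- The range of `ι` is closed in the 2-norm. -/
lemma mem_of_approx {y : M} (h : ∀ ε > 0, ∃ f, C.T.n2 (y - C.ι f) < ε) : ∃ f, C.ι f = y := by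
  refine C.masa y fun f => comm_of_approx C.fw fun ε hε => ?_
  obtain ⟨g, hg⟩ := h ε hε
  exact ⟨_, C.ι_comm g f, hg⟩

lemma pj_star (U : Set X) : star (C.pj U) = C.pj U := (C.pj_proj U).isSelfAdjoint

lemma pj_idem (U : Set X) : C.pj U * C.pj U = C.pj U := (C.pj_proj U).isIdempotentElem

lemma pj_comm_ι (U : Set X) (f : C(X, ℂ)) : C.pj U * C.ι f = C.ι f * C.pj U := C.ι_comm _ _

lemma exists_lim_clopen {U : ℕ → Set X} (hU : ∀ n, IsClopen (U n)) (hm : Monotone U) :
    ∃ V, IsClopen V ∧ (∀ n, U n ⊆ V) ∧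
      Tendsto (fun n => (C.T.τ (C.pj (U n))).re) atTop (𝓝 (C.T.τ (C.pj V)).re) := by
  obtain ⟨u, hu⟩ := exists_net_lim C.fw (D := ℕᵒᵈ) (z := fun n => C.pj (U (OrderDual.ofDual n))ᶜ)
    (R := 1) (fun n => (C.pj_proj _).norm_le) fun P Q h => C.T.n2_ext (by
      rw [pj_star, pj_idem, C.pj_mul (hU _).compl (hU _).compl]
      exact congrArg _ (Set.inter_eq_left.2 (Set.compl_subset_compl.2 (hm h))))
  have ht : Tendsto (fun n => C.T.n2 (C.pj (U n)ᶜ - u)) atTop (𝓝 0) := by
    refine Metric.tendsto_atTop.2 fun ε hε => ?_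
    obtain ⟨P, hP⟩ := hu ε hε
    refine ⟨OrderDual.ofDual P, fun n hn => ?_⟩
    rw [Real.dist_0_eq_abs, abs_of_nonneg (C.T.n2_nonneg _)]
    exact hP (OrderDual.toDual n) hn
  obtain ⟨f, rfl⟩ : ∃ f, C.ι f = u :=
    C.closed _ 1 u (fun n => ⟨⟨_, rfl⟩, (C.pj_proj _).norm_le⟩) ht
  have h1 : C.ι f * C.ι f = C.ι f := Tr.lim_mul C.fw.faithful (fun n => (C.pj_proj _).norm_le) ht ht
    (by simpa only [pj_idem] using ht)
  have h2 : star (C.ι f) = C.ι f := by
    have := Tr.lim_mul C.fw.faithful (x := fun _ => 1) (y := 1) (y' := star (C.ι f))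
      (x' := fun n => C.pj (U n)ᶜ) (fun _ => le_rfl) (by simp [C.T.n2_zero])
      (ht.congr fun n => by rw [← C.T.n2_star, star_sub, pj_star]) (by simpa only [one_mul] using ht)
    rwa [one_mul] at this
  obtain ⟨W, hW, e⟩ := C.exists_pj ⟨h1, h2⟩
  rw [e] at ht
  refine ⟨Wᶜ, hW.compl, fun n => ?_, ?_⟩
  · rw [Set.subset_compl_iff_disjoint_right, Set.disjoint_iff_inter_eq_empty]
    refine C.pj_eq_zero ((hU n).inter hW) ?_
    rw [← C.pj_mul (hU n) hW]
    refine Tr.lim_mul C.fw.faithful (x := fun _ => C.pj (U n)) (fun _ => le_rfl)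
      (by simp [C.T.n2_zero]) ht (tendsto_const_nhds.congr' ?_)
    filter_upwards [eventually_ge_atTop n] with m hnm
    rw [C.pj_mul (hU n) (hU m).compl, Set.disjoint_iff_inter_eq_empty.1
      (Set.disjoint_compl_right_iff_subset.2 (hm hnm)), pj_empty, sub_zero, C.T.n2_zero]
  · have := (Complex.continuous_re.tendsto _).comp ((C.T.tendsto_τ ht 1).const_sub (C.T.τ 1))
    simp only [one_mul, ← map_sub, C.pj_compl (hU _), sub_sub_cancel] at this
    rw [C.pj_compl hW]
    exact this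

section pinch

variable {κ : Type*} [Fintype κ] {c : X → κ}

lemma pinch_add (y z : M) : C.pinch c (y + z) = C.pinch c y + C.pinch c z := by
  simp only [pinch, mul_add, add_mul, Finset.sum_add_distrib]

lemma pinch_smul (a : ℂ) (y : M) : C.pinch c (a • y) = a • C.pinch c y := by
  simp only [pinch, mul_smul_comm, smul_mul_assoc, Finset.smul_sum]

lemma pinch_star (y : M) : star (C.pinch c y) = C.pinch c (star y) := by
  simp only [pinch, star_sum, star_mul, pj_star, mul_assoc]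

lemma sum_fib (hc : IsLocallyConstant c) : ∑ k, C.pj (c ⁻¹' {k}) = 1 := by
  rw [C.sum_pj hc, Finset.coe_univ, Set.preimage_univ, pj_univ]

omit [Fintype κ] in
lemma fib_mul (hc : IsLocallyConstant c) {j k : κ} (h : j ≠ k) :
    C.pj (c ⁻¹' {j}) * C.pj (c ⁻¹' {k}) = 0 := by
  rw [C.pj_mul (isClopen_preimage hc _) (isClopen_preimage hc _), ← Set.preimage_inter,
    Set.singleton_inter_of_notMem (by simpa using h), Set.preimage_empty, pj_empty]

lemma pinch_of_comm (hc : IsLocallyConstant c) {y : M}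
    (h : ∀ k, y * C.pj (c ⁻¹' {k}) = C.pj (c ⁻¹' {k}) * y) : C.pinch c y = y := by
  simp only [pinch, mul_assoc, h]
  simp only [← mul_assoc, pj_idem]
  rw [← Finset.sum_mul, C.sum_fib hc, one_mul]

lemma pinch_comm (hc : IsLocallyConstant c) {U : Set X} (hU : IsClopen U)
    (h : ∀ x x', c x = c x' → x ∈ U → x' ∈ U) (y : M) :
    C.pinch c y * C.pj U = C.pj U * C.pinch c y := by
  rw [pinch, Finset.sum_mul, Finset.mul_sum]
  refine Finset.sum_congr rfl fun k _ => ?_
  rw [mul_assoc, ← mul_assoc (C.pj U), ← mul_assoc (C.pj U),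
    C.pj_mul (isClopen_preimage hc _) hU, C.pj_mul hU (isClopen_preimage hc _), Set.inter_comm U]
  by_cases hk : (c ⁻¹' {k} ∩ U).Nonempty
  · obtain ⟨x, hx, hxU⟩ := hk
    rw [Set.inter_eq_left.2 fun x' hx' => h x x' (hx.trans hx'.symm) hxU]
  · rw [Set.not_nonempty_iff_eq_empty.1 hk, pj_empty]
    simp

lemma τ_pinch_mul (a b : M) : C.T.τ (C.pinch c a * b) = C.T.τ (a * C.pinch c b) := by
  simp only [pinch, Finset.sum_mul, Finset.mul_sum, map_sum]
  refine Finset.sum_congr rfl fun k _ => ?_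
  rw [mul_assoc, mul_assoc, C.T.comm]
  simp only [mul_assoc]

lemma pinch_pinch (hc : IsLocallyConstant c) {κ' : Type*} [Fintype κ'] {c' : X → κ'}
    (hc' : IsLocallyConstant c') (h : ∀ x x', c' x = c' x' → c x = c x') (y : M) :
    C.pinch c (C.pinch c' y) = C.pinch c' y :=
  C.pinch_of_comm hc fun _ => C.pinch_comm hc' (isClopen_preimage hc _)
    (fun x x' e hx => by rwa [Set.mem_preimage, ← h x x' e]) y

lemma τ_pinch_pinch (hc : IsLocallyConstant c) {κ' : Type*} [Fintype κ'] {c' : X → κ'}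
    (hc' : IsLocallyConstant c') (h : ∀ x x', c' x = c' x' → c x = c x') (y : M) :
    C.T.τ (star (C.pinch c' y) * C.pinch c y) = C.T.τ (star (C.pinch c' y) * y) := by
  rw [← τ_pinch_mul, pinch_star, C.pinch_pinch hc hc' h]

lemma blk_mul (hc : IsLocallyConstant c) (y z : M) : C.pinch c y * C.pinch c z =
    ∑ k, C.pj (c ⁻¹' {k}) * (y * C.pj (c ⁻¹' {k}) * z) * C.pj (c ⁻¹' {k}) := by
  rw [pinch, pinch, Finset.sum_mul_sum]
  refine Finset.sum_congr rfl fun k _ => ?_
  rw [Finset.sum_eq_single k (fun j _ hj => ?_) (by simp)]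
  · simp only [mul_assoc]
    rw [← mul_assoc (C.pj _) (C.pj _), pj_idem]
  · simp only [mul_assoc]
    rw [← mul_assoc (C.pj _) (C.pj _), C.fib_mul hc hj.symm]
    simp

lemma pinch_ι (hc : IsLocallyConstant c) (f : C(X, ℂ)) : C.pinch c (C.ι f) = C.ι f := by
  exact C.pinch_of_comm hc fun _ => C.ι_comm _ _

lemma n2_pinch_le (hc : IsLocallyConstant c) (y : M) : C.T.n2 (C.pinch c y) ≤ C.T.n2 y := by
  have h1 := C.T.norm_τ_star_mul (C.pinch c y) y
  rw [← C.τ_pinch_pinch hc hc (fun _ _ h => h), C.T.n2_sq', Complex.norm_real,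
    Real.norm_of_nonneg (sq_nonneg _), sq] at h1
  rcases (C.T.n2_nonneg (C.pinch c y)).eq_or_lt with h | h
  · rw [← h]
    exact C.T.n2_nonneg y
  · exact le_of_mul_le_mul_left h1 h

lemma norm_pinch_le (hc : IsLocallyConstant c) (y : M) : ‖C.pinch c y‖ ≤ ‖y‖ := by
  let _ := CStarAlgebra.spectralOrder M
  have _ := CStarAlgebra.spectralOrderedRing M
  have h1 : star (C.pinch c y) * C.pinch c y ≤ algebraMap ℝ M (‖y‖ * ‖y‖) := by
    rw [pinch_star, C.blk_mul hc, Algebra.algebraMap_eq_smul_one, ← C.sum_fib hc, Finset.smul_sum]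
    refine Finset.sum_le_sum fun k _ => ?_
    have h2 : star (C.pj (c ⁻¹' {k})) * (star y * C.pj (c ⁻¹' {k}) * y) * C.pj (c ⁻¹' {k}) ≤
        ‖star y * C.pj (c ⁻¹' {k}) * y‖ • (star (C.pj (c ⁻¹' {k})) * C.pj (c ⁻¹' {k})) :=
      CStarAlgebra.star_left_conjugate_le_norm_smul (IsSelfAdjoint.conjugate' (C.pj_star _) y)
    rw [pj_star, pj_idem] at h2
    refine h2.trans (smul_le_smul_of_nonneg_right ?_ (C.pj_proj _).nonneg)
    have h3 := (C.pj_proj (c ⁻¹' {k})).norm_le
    calc ‖star y * C.pj (c ⁻¹' {k}) * y‖ ≤ ‖star y‖ * ‖C.pj (c ⁻¹' {k})‖ * ‖y‖ :=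
          norm_mul₃_le
      _ ≤ ‖star y‖ * 1 * ‖y‖ := by gcongr
      _ = ‖y‖ * ‖y‖ := by rw [norm_star, mul_one]
  rw [← CStarAlgebra.norm_le_iff_le_algebraMap _ (by positivity) (star_mul_self_nonneg _),
    CStarRing.norm_star_mul_self] at h1
  exact abs_le_of_sq_le_sq' (by nlinarith) (norm_nonneg y) |>.2

lemma pinch_pow (hc : IsLocallyConstant c) (y : M) {n : ℕ} (hn : n ≠ 0) :
    C.pinch c y ^ n = ∑ k, (C.pj (c ⁻¹' {k}) * y * C.pj (c ⁻¹' {k})) ^ n := by
  obtain ⟨n, rfl⟩ := Nat.exists_eq_succ_of_ne_zero hn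
  induction n with
  | zero => simp [pinch]
  | succ n ih =>
    rw [pow_succ, ih n.succ_ne_zero, pinch, Finset.sum_mul_sum]
    refine Finset.sum_congr rfl fun k _ => ?_
    rw [Finset.sum_eq_single k (fun j _ hj => ?_) (by simp), ← pow_succ]
    rw [pow_succ]
    simp only [mul_assoc]
    rw [← mul_assoc (C.pj _) (C.pj _), C.fib_mul hc hj.symm]
    simp

end pinch

variable [T2Space X]

include C in
lemma isClopen_closure (f : C(X, ℝ)) : IsClopen (closure {x | 0 < f x}) := by
  let a : C(X, ℂ) := cx ⟨fun x => max (f x) 0, by fun_prop⟩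
  obtain ⟨e, he, h⟩ := C.fw.rp (C.ι a) (by rw [← map_star]; congr 1; ext x; simp [a])
  have h0 : (1 - e) * C.ι a = 0 := (h _).2 he.one_sub_mul_self
  have h1 : ∀ g, C.ι g * e = e * C.ι g * e := fun g => by
    have : (1 - e) * C.ι g * e = 0 :=
      (h _).1 (by rw [mul_assoc, ι_comm, ← mul_assoc, h0, zero_mul])
    rwa [sub_mul, sub_mul, one_mul, sub_eq_zero] at this
  obtain ⟨g, rfl⟩ := C.masa e fun g => by
    have := congrArg star (h1 (star g))
    simp only [star_mul, ← map_star, star_star, he.isSelfAdjoint.star_eq] at this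
    exact this.trans ((mul_assoc _ _ _).symm.trans (h1 g).symm)
  obtain ⟨U, hU, e⟩ := C.exists_pj he
  rw [e] at h h0
  have : closure {x | 0 < f x} = U := by
    refine (closure_minimal (fun x hx => ?_) hU.isClosed).antisymm fun x hx => ?_
    · by_contra hn
      rw [← C.pj_compl hU, pj, ← map_mul, ← map_zero C.ι] at h0
      have h2 := congrArg (fun k : C(X, ℂ) => k x) (C.inj h0)
      have hx' : 0 < f x := hx
      simp [ind_of_mem hU.compl hn, a, hx'.not_ge] at h2
    · by_contra hn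
      obtain ⟨k, k0, k1, -⟩ := exists_continuous_zero_one_of_isClosed isClosed_closure
        isClosed_singleton (Set.disjoint_singleton_right.2 hn)
      have h2 : C.ι (cx k) * C.pj U = 0 := by
        refine (h _).1 ?_
        rw [← map_mul, ← map_zero C.ι]
        congr 1
        ext y
        by_cases hy : 0 < f y
        · simp [k0 (subset_closure hy)]
        · simp [a, not_lt.1 hy]
      rw [pj, ← map_mul, ← map_zero C.ι] at h2
      have h3 := congrArg (fun k : C(X, ℂ) => k x) (C.inj h2)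
      simp [ind_of_mem hU hx, k1 rfl] at h3
  rwa [this]

include C in
lemma totallyDisconnected : TotallyDisconnectedSpace X := by
  have : TotallySeparatedSpace X := by
    refine totallySeparatedSpace_iff_exists_isClopen.2 fun x y hxy => ?_
    obtain ⟨k, k0, k1, -⟩ := exists_continuous_zero_one_of_isClosed isClosed_singleton
      isClosed_singleton (Set.disjoint_singleton.2 hxy.symm)
    refine ⟨_, C.isClopen_closure ⟨fun z => k z - 1 / 2, by fun_prop⟩, subset_closure ?_,
      fun hy => ?_⟩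
    · simp [k1 rfl]
      norm_num
    · have h : y ∈ {z | 0 ≤ k z - 1 / 2} :=
        closure_minimal (s := {z | 0 < k z - 1 / 2}) (t := {z | 0 ≤ k z - 1 / 2})
          (fun z (hz : 0 < k z - 1 / 2) => hz.le) (isClosed_le continuous_const (by fun_prop)) hy
      simp [k0 rfl] at h
      norm_num at h
  infer_instance

lemma mem_of_comm_pj {y : M} (h : ∀ U, IsClopen U → y * C.pj U = C.pj U * y) :
    ∃ f, C.ι f = y := by
  have := C.totallyDisconnected
  refine C.masa y fun f => (comm_of_approx C.fw fun ε hε => ?_).symm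
  obtain ⟨n, g, v, hg, hv⟩ := f.exists_finite_approximation_of_mem_nhds_diagonal
    (S := {p | dist p.1 p.2 < ε}) ((isOpen_lt (by fun_prop) continuous_const).mem_nhdsSet.2
      (by rintro ⟨a, b⟩ (rfl : a = b); simpa using hε))
  have hc : IsLocallyConstant g := (IsLocallyConstant.iff_continuous g).2 hg
  let k : C(X, ℂ) := ⟨v ∘ g, (hc.comp v).continuous⟩
  have hk : C.ι k = ∑ i, v i • C.pj (g ⁻¹' {i}) := by
    simp only [pj, ← map_smul, ← map_sum]
    congr 1
    ext x
    simp only [k, ContinuousMap.sum_apply, ContinuousMap.smul_apply,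
      ind_apply (isClopen_preimage hc _)]
    rw [Finset.sum_eq_single (g x) (fun i _ hi => by simp [hi.symm]) (by simp)]
    simp
  refine ⟨C.ι k, ?_, (C.T.n2_le_norm _).trans_lt ?_⟩
  · simp only [hk, Finset.sum_mul, Finset.mul_sum, smul_mul_assoc, mul_smul_comm,
      h _ (isClopen_preimage hc _)]
  · rw [← map_sub, norm_ι, ContinuousMap.norm_lt_iff _ hε]
    intro x
    simpa [k, dist_eq_norm] using hv x

omit [CompactSpace X] [T2Space X] in
lemma proj_eq_of_le {P Q : DiscreteQuotient X} (h : Q ≤ P) (x x' : X)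
    (e : Q.proj x = Q.proj x') : P.proj x = P.proj x' := by
  rw [← DiscreteQuotient.ofLE_proj h, e, DiscreteQuotient.ofLE_proj]

omit [CompactSpace X] [T2Space X] in
lemma mem_of_le_ofIsClopen {U : Set X} (hU : IsClopen U) {Q : DiscreteQuotient X}
    (h : Q ≤ DiscreteQuotient.ofIsClopen hU) (x x' : X) (e : Q.proj x = Q.proj x')
    (hx : x ∈ U) : x' ∈ U :=
  (Quotient.exact' (proj_eq_of_le h x x' e) : x ∈ U ↔ x' ∈ U).1 hx

/-- Pinchings converge to the conditional expectation. -/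
theorem pinch_tendsto (y : M) {ε : ℝ} (hε : 0 < ε) : ∃ P : DiscreteQuotient X, ∀ Q ≤ P,
    C.T.n2 (C.pinch Q.proj y - C.ι (C.E y)) < ε := by
  obtain ⟨u, hu⟩ := exists_net_lim C.fw (z := fun P : DiscreteQuotient X => C.pinch P.proj y)
    (fun P => C.norm_pinch_le P.proj_isLocallyConstant y) fun P Q h => by
      have hP := P.proj_isLocallyConstant
      have hQ := Q.proj_isLocallyConstant
      rw [C.T.n2_sub_rev, C.T.n2_sub_sq, C.τ_pinch_pinch hP hQ (proj_eq_of_le h),
        ← C.τ_pinch_pinch hQ hQ fun _ _ h => h, ← C.T.n2_sq]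
      ring
  obtain ⟨g, rfl⟩ := C.mem_of_comm_pj (y := u) fun U hU => comm_of_approx C.fw fun δ hδ => by
    obtain ⟨P, hP⟩ := hu δ hδ
    refine ⟨_, C.pinch_comm (P ⊓ DiscreteQuotient.ofIsClopen hU).proj_isLocallyConstant hU
      (mem_of_le_ofIsClopen hU inf_le_right) y, ?_⟩
    rw [C.T.n2_sub_rev]
    exact hP _ inf_le_left
  have : C.E y = g := by
    refine C.E_eq_of fun f => ?_
    refine eq_of_forall_dist_le fun δ hδ => ?_
    obtain ⟨P, hP⟩ := hu (δ / (C.T.n2 (C.ι f) + 1))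
      (div_pos hδ (by linarith [C.T.n2_nonneg (C.ι f)]))
    have h1 : C.T.τ (C.ι f * y) = C.T.τ (C.ι f * C.pinch P.proj y) := by
      rw [← τ_pinch_mul, C.pinch_ι P.proj_isLocallyConstant]
    rw [h1, dist_comm, dist_eq_norm, ← map_sub, ← mul_sub]
    refine (C.T.norm_τ_mul _ _).trans ?_
    rw [mul_comm]
    exact (mul_lt_of_lt_div (C.T.n2_nonneg _) (C.T.n2_nonneg _) (hP P le_rfl)).le
  rw [this]
  exact hu ε hε

end Ctx

end Vale.Agent.P078
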