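import Mathlib.Analysis.Complex.Basic
import Mathlib.LinearAlgebra.Matrix.Determinant.Basic
import Mathlib.RingTheory.PowerSeries.Inverse
import Mathlib.Analysis.SpecialFunctions.Complex.Arg
import Mathlib.Algebra.Polynomial.Eval.Defs

/-! Mixed determinantal polynomials: definitions. -/

namespace Vale.Agent.P078

open Finset
open scoped ComplexConjugate

variable {V J R : Type*} [DecidableEq V] [Fintype J] [DecidableEq J] [CommRing R]

/-- Sum over all choices, for each slot `j`, of the set `t j` of vertices interacting in `j`. -/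
def PP (m : J → Finset V → R) (Λ : Finset V) (w : V → Finset J → R) : R :=
  ∑ t ∈ Fintype.piFinset (fun _ : J => Λ.powerset),
    (∏ v ∈ Λ, w v (univ.filter fun j => v ∈ t j)) * ∏ j, m j (t j)

/-- Principal minor of `-A`. -/
noncomputable def mnr (A : V → V → ℂ) (S : Finset V) : ℂ :=
  Matrix.det (Matrix.of fun a b : S => -A a b)

/-- Point mass at `I`. -/
def dl (I : Finset J) : Finset J → R := Pi.single I 1

/-- Vertex at level `z`, placed in slot `j` with weight `q j`. -/
def mix (q : J → R) (z : R) : Finset J → R := z • dl ∅ + ∑ j, q j • dl {j}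

/-- Product state. -/
def pr (a b : J → R) : Finset J → R := fun I => ∏ j, if j ∈ I then a j else b j

/-- Vertex present in all slots at level `s`. -/
def full (s : R) : Finset J → R := pr (fun _ => 1) (fun _ => s)

/-- Vertex present in all slots but `i`, at level `s`. -/
def fullBut (i : J) (s : R) : Finset J → R :=
  pr (Function.update (fun _ => 1) i 0) (Function.update (fun _ => s) i 1)

/-- Hermitian contraction kernel. -/
structure Ctr (A : V → V → ℂ) : Prop where
  herm : ∀ a b, A b a = conj (A a b)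
  bdd : ∀ (Λ : Finset V) (ξ : V → ℂ),
    ‖∑ a ∈ Λ, ∑ b ∈ Λ, conj (ξ a) * A a b * ξ b‖ ≤ ∑ a ∈ Λ, ‖ξ a‖ ^ 2

/-- Subprobability vector. -/
structure Sub (q : J → ℝ) : Prop where
  nonneg : ∀ j, 0 ≤ q j
  sum_le : ∑ j, q j ≤ 1

/-- The minors of a family of kernels. -/
noncomputable def mm (A : J → V → V → ℂ) : J → Finset V → ℂ := fun j => mnr (A j)

/-- Multi-affine mixed characteristic polynomial. -/
noncomputable def PZ (A : J → V → V → ℂ) (q : V → J → ℝ) (Λ : Finset V) (Z : V → ℂ) : ℂ :=
  PP (mm A) Λ fun v => mix (fun j => (q v j : ℂ)) (Z v)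

/-- Its coefficients. -/
noncomputable def cc (A : J → V → V → ℂ) (q : V → J → ℝ) (S : Finset V) : ℂ :=
  PZ A q S fun _ => 0

/-- Reversed polynomial as a power series. -/
noncomputable def Pt (c : Finset V → ℂ) (Λ : Finset V) : PowerSeries ℂ :=
  ∑ S ∈ Λ.powerset, PowerSeries.C (c S) * PowerSeries.X ^ S.card

/-- Local Green series. -/
noncomputable def gs (c : Finset V → ℂ) (Λ : Finset V) (v : V) : PowerSeries ℂ :=
  Pt c (Λ.erase v) * (Pt c Λ)⁻¹

/-- Local density of the sum of `Q` over the roots. -/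
noncomputable def phi (Q : Polynomial ℝ) (c : Finset V → ℂ) (Λ : Finset V) (v : V) : ℝ :=
  ∑ i ∈ range (Q.natDegree + 1), Q.coeff i * (PowerSeries.coeff i (gs c Λ v)).re

/-- Total potential of a finite set. -/
noncomputable def Tot (Q : Polynomial ℝ) (c : Finset V → ℂ) (Λ : Finset V) : ℝ :=
  ∑ v ∈ Λ, phi Q c Λ v

/-- The kernels `Y` and `-Y`, one pair for each colour. -/
def pm {κ : Type*} (Y : V → V → ℂ) : κ × Bool → V → V → ℂ :=
  fun j a b => if j.2 then Y a b else -Y a b

/-- State of a vertex of colour `c`. -/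
noncomputable def col {κ : Type*} [DecidableEq κ] (c : κ) : κ × Bool → ℝ :=
  fun j => if j.1 = c then 1 / 2 else 0

/-- State of an uncoloured vertex. -/
noncomputable def unif (J : Type*) [Fintype J] : J → ℝ := fun _ => 1 / Fintype.card J

/-- The barrier level for `k` slots. -/
noncomputable def tb (k : ℕ) : ℝ := 1 / (√k - 1) + 2 * √k / k

/-- `Q` approximates `t ↦ arg (w - t)` on `[-1, 1]`, with Lipschitz control. -/
structure QF (Q : Polynomial ℝ) (w : ℂ) (tol : ℝ) : Prop where
  near : ∀ t ∈ Set.Icc (-1 : ℝ) 1, |Q.eval t - Complex.arg (w - t)| ≤ tol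
  lip : ∀ s ∈ Set.Icc (-1 : ℝ) 1, ∀ t ∈ Set.Icc (-1 : ℝ) 1,
    |(Q.eval t - Complex.arg (w - t)) - (Q.eval s - Complex.arg (w - s))| ≤ tol * |t - s|

end Vale.Agent.P078
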