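import Vale.Agent.P078.Coin
import Vale.Agent.P078.Four
import Vale.Agent.P078.Grd

/-! Random pinchings of elements with small atoms. -/

namespace Vale.Agent.P078.Ctx

open Vale.Agent.P085 Finset
open scoped BigOperators

variable {M X : Type*} [CStarAlgebra M] [TopologicalSpace X] [CompactSpace X]
  (C : Ctx M X) {r : ℕ} [NeZero r]

variable [T2Space X]

section

variable {T : Finset C.Nor} {N : ℕ} {a : X → Fin N} {c : (Fin N → ZMod r) → X → ZMod r}

lemma lc_pi (ha : IsLocallyConstant a) (T : Finset C.Nor) :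
    IsLocallyConstant fun x (g : T) => a ((g : C.Nor) • x) :=
  (IsLocallyConstant.iff_continuous _).mpr
    (continuous_pi fun _ => ha.continuous.comp (continuous_const_smul _))

lemma deg_pj (ha : IsLocallyConstant a) (hc : Seeded T a c) (k : ZMod r) :
    Deg T.card fun ω => C.pj (c ω ⁻¹' {k}) := by
  classical
  have hb := C.lc_pi ha T
  set b := fun x (g : T) => a ((g : C.Nor) • x)
  have h1 : ∀ ω, C.pj (c ω ⁻¹' {k}) = ∑ i, C.pj (c ω ⁻¹' {k} ∩ b ⁻¹' {i}) := fun ω => by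
    rw [← sum_congr rfl fun i _ => C.pj_mul (clopen_pre (hc.lc ω) {k}) (clopen_pre hb {i}),
      ← mul_sum, C.sum_pj hb]
    simp [C.pj_univ]
  simp only [h1]
  refine Deg.sum _ fun i _ => (Deg.of_dep (D := univ.image i) fun ω ω' h => ?_).mono
    (card_image_le.trans (by simp))
  congr 1
  ext x
  refine and_congr_left fun hx => ?_
  have : c ω x = c ω' x := hc.dep _ _ _ fun g hg =>
    h _ (mem_image.mpr ⟨⟨g, hg⟩, mem_univ _, (congrFun hx ⟨g, hg⟩).symm⟩)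
  simp [this]

lemma nn_pj_fm (ha : IsLocallyConstant a) (hc : Seeded T a c) (k : ZMod r)
    (η : (Fin N → ZMod r) → M) :
    nn C.T (fun ω => C.pj (c ω ⁻¹' {k}) *
      fm (fun χ => 1 - C.pj {x | ∃ g : T, a ((g : C.Nor) • x) ∈ supp χ}) η ω) ≤
      1 / √r * nn C.T η := by
  classical
  have hb := C.lc_pi ha T
  have hcl : ∀ χ : AddChar (Fin N → ZMod r) ℂ,
      IsClopen {x | ∃ g : T, a ((g : C.Nor) • x) ∈ supp χ} := fun χ =>
    clopen_pre hb {i | ∃ g, i g ∈ supp χ}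
  have h0 := nn_fm_le (T := C.T) (ξ := η) fun χ => (C.pj_proj
    {x | ∃ g : T, a ((g : C.Nor) • x) ∈ supp χ}).one_sub.norm_le
  set ρ := fm (fun χ => 1 - C.pj {x | ∃ g : T, a ((g : C.Nor) • x) ∈ supp χ}) η with hρ
  set b := fun x (g : T) => a ((g : C.Nor) • x)
  have key : ∀ i, (r : ℝ) * ∑ ω, C.T.n2 (C.pj (b ⁻¹' {i}) * (C.pj (c ω ⁻¹' {k}) * ρ ω)) ^ 2 =
      ∑ ω, C.T.n2 (C.pj (b ⁻¹' {i}) * ρ ω) ^ 2 := fun i => by
    let σ : ZMod r → (Fin N → ZMod r) ≃ (Fin N → ZMod r) := fun s =>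
      Equiv.addRight fun j => if j ∈ univ.image i then s else 0
    have hσ : ∀ s ω, σ s ω = fun j => if j ∈ univ.image i then ω j + s else ω j := fun s ω => by
      ext j
      simp only [σ, Equiv.coe_addRight, Pi.add_apply]
      split_ifs <;> simp
    have h1 : ∀ s ω, C.pj (b ⁻¹' {i}) * ρ (σ s ω) = C.pj (b ⁻¹' {i}) * ρ ω := fun s ω => by
      simp only [hρ, fm, mul_sum, mul_smul_comm]
      refine sum_congr rfl fun χ _ => ?_
      by_cases h : Disjoint (supp χ) (univ.image i)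
      · rw [hσ, char_shift h]
      · obtain ⟨j, hj, hj'⟩ := not_disjoint_iff.mp h
        obtain ⟨g, -, rfl⟩ := mem_image.mp hj'
        have : C.pj (b ⁻¹' {i}) * C.pj {x | ∃ g : T, a ((g : C.Nor) • x) ∈ supp χ} =
            C.pj (b ⁻¹' {i}) := by
          rw [C.pj_mul (clopen_pre hb {i}) (hcl χ), Set.inter_eq_left.mpr]
          exact fun x hx => ⟨g, (show i g = a ((g : C.Nor) • x) from (congrFun hx g).symm) ▸ hj⟩
        rw [← mul_assoc, mul_sub, mul_one, this]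
        simp
    have h2 : ∀ s ω, C.pj (b ⁻¹' {i}) * C.pj (c (σ s ω) ⁻¹' {k}) =
        C.pj (c ω ⁻¹' {k - s}) * C.pj (b ⁻¹' {i}) := fun s ω => by
      rw [C.pj_mul (clopen_pre hb {i}) (clopen_pre (hc.lc _) _),
        C.pj_mul (clopen_pre (hc.lc _) _) (clopen_pre hb {i}), Set.inter_comm]
      congr 1
      ext x
      refine and_congr_left fun hx => ?_
      have : c (σ s ω) x = c ω x + s := by
        rw [← hc.shift]
        refine hc.dep _ _ _ fun g hg => ?_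
        rw [hσ]
        exact if_pos (mem_image.mpr ⟨⟨g, hg⟩, mem_univ _, (congrFun hx ⟨g, hg⟩).symm⟩)
      simp [this, eq_sub_iff_add_eq]
    have h3 : ∀ s ω, C.pj (b ⁻¹' {i}) * (C.pj (c (σ s ω) ⁻¹' {k}) * ρ (σ s ω)) =
        C.pj (c ω ⁻¹' {k - s}) * (C.pj (b ⁻¹' {i}) * ρ ω) := fun s ω => by
      rw [← mul_assoc, h2, mul_assoc, h1]
    calc _ = ∑ s : ZMod r, ∑ ω,
          C.T.n2 (C.pj (b ⁻¹' {i}) * (C.pj (c (σ s ω) ⁻¹' {k}) * ρ (σ s ω))) ^ 2 := by
          rw [sum_congr rfl fun s _ => (σ s).sum_comp fun ω =>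
            C.T.n2 (C.pj (b ⁻¹' {i}) * (C.pj (c ω ⁻¹' {k}) * ρ ω)) ^ 2]
          simp
      _ = _ := by
          rw [sum_comm]
          refine sum_congr rfl fun ω _ => ?_
          simp only [h3]
          rw [← C.sum_n2_pj (hc.lc ω) (C.pj (b ⁻¹' {i}) * ρ ω)]
          exact (Equiv.subLeft k).sum_comp fun s =>
            C.T.n2 (C.pj (c ω ⁻¹' {s}) * (C.pj (b ⁻¹' {i}) * ρ ω)) ^ 2
  have h4 : (r : ℝ) * 𝔼 ω, C.T.n2 (C.pj (c ω ⁻¹' {k}) * ρ ω) ^ 2 = 𝔼 ω, C.T.n2 (ρ ω) ^ 2 := by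
    rw [expect_eq_sum_div_card, expect_eq_sum_div_card,
      ← sum_congr rfl fun ω _ => C.sum_n2_pj hb (C.pj (c ω ⁻¹' {k}) * ρ ω),
      ← sum_congr rfl fun ω _ => C.sum_n2_pj hb (ρ ω),
      sum_comm, ← mul_div_assoc, mul_sum, sum_congr rfl fun i _ => key i, sum_comm]
  have hr : (0 : ℝ) < r := Nat.cast_pos.mpr (NeZero.pos r)
  refine le_trans (le_of_eq ?_) (mul_le_mul_of_nonneg_left h0 (by positivity))
  rw [nn, nn, ← h4, Real.sqrt_mul hr.le]
  field_simp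

lemma nn_step {w : M} (hw : ‖w‖ ≤ 1) (ha : IsLocallyConstant a) (hc : Seeded T a c) (k : ZMod r)
    (ζ : (Fin N → ZMod r) → M) {β : ℝ} (hβ : ∀ t : AddChar (Fin N → ZMod r) ℂ → M,
      (∀ χ, t χ = C.pj {x | ∃ g : T, a ((g : C.Nor) • x) ∈ supp χ}) →
      nn C.T (fm t fun ω => w * fm t (fun ω => C.pj (c ω ⁻¹' {k}) * ζ ω) ω) ≤ β) :
    nn C.T (fun ω => C.pj (c ω ⁻¹' {k}) * w * C.pj (c ω ⁻¹' {k}) * ζ ω) ≤
      2 / √r * nn C.T ζ + β := by
  set t := fun χ : AddChar (Fin N → ZMod r) ℂ =>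
    C.pj {x | ∃ g : T, a ((g : C.Nor) • x) ∈ supp χ} with ht
  set p := fun ω => C.pj (c ω ⁻¹' {k}) with hp
  have hp1 : ∀ ω, ‖p ω‖ ≤ 1 := fun ω => (C.pj_proj _).norm_le
  have ht1 : ∀ χ, ‖t χ‖ ≤ 1 := fun χ => (C.pj_proj _).norm_le
  set ξ := fun ω => p ω * ζ ω with hξ
  have h0 : nn C.T ξ ≤ nn C.T ζ := nn_mul_le hp1
  have h1 := C.nn_pj_fm ha hc k fun ω => w * ξ ω
  have h1' : nn C.T (fun ω => w * ξ ω) ≤ nn C.T ξ := nn_mul_le fun _ => hw
  have h2 : nn C.T (fm (fun χ => 1 - t χ) ξ) ≤ 1 / √r * nn C.T ζ :=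
    nn_fm_mul_le (fun χ => (C.pj_proj _).one_sub) (fun ω => C.pj_proj _) (by positivity)
      (C.nn_pj_fm ha hc k)
  have h3 : nn C.T (fm t fun ω => w * fm (fun χ => 1 - t χ) ξ ω) ≤ 1 / √r * nn C.T ζ :=
    (nn_fm_le ht1).trans ((nn_mul_le fun _ => hw).trans h2)
  have h4 : fm t (fun ω => w * ξ ω) = fun ω => fm t (fun ω => w * fm t ξ ω) ω +
      fm t (fun ω => w * fm (fun χ => 1 - t χ) ξ ω) ω := by
    ext ω
    simp only [fm.eq_1 t fun _ => w * _, hat_mul_left, hat_fm, ← sum_add_distrib, ← smul_add,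
      ← mul_add, ← add_mul, add_sub_cancel, one_mul]
  have h5 : (fun ω => p ω * w * p ω * ζ ω) = fun ω => p ω * fm t (fun ω => w * ξ ω) ω +
      p ω * fm (fun χ => 1 - t χ) (fun ω => w * ξ ω) ω := by
    ext ω
    rw [← mul_add, fm_add_compl, hξ, mul_assoc, mul_assoc]
  have h6 : nn C.T (fun ω => p ω * fm t (fun ω => w * ξ ω) ω) ≤ β + 1 / √r * nn C.T ζ := by
    refine (nn_mul_le hp1).trans ?_
    rw [h4]
    exact nn_add_le.trans (add_le_add (hβ t fun _ => rfl) h3)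
  have h7 := mul_le_mul_of_nonneg_left (h1'.trans h0) (show 0 ≤ 1 / √(r : ℝ) by positivity)
  have h8 : 2 / √(r : ℝ) = 1 / √r + 1 / √r := by ring
  change nn C.T (fun ω => p ω * w * p ω * ζ ω) ≤ _
  rw [h5, h8]
  refine nn_add_le.trans ?_
  linarith

end

theorem w_part (hr : 4 ≤ r) (T : Finset C.Nor) {n : ℕ} (hn : n ≠ 0) {δ : ℝ} (hδ : 0 < δ) :
    ∃ κ > 0, ∀ w : M, star w = w → ‖w‖ ≤ 1 → ∀ (N : ℕ) (a : X → Fin N), IsLocallyConstant a →
      (∀ g ∈ T, ∀ h ∈ T, C.A4 (fun x => a (g • x)) (fun x => a (h • x)) w ≤ κ) →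
      ∀ c : (Fin N → ZMod r) → X → ZMod r, Seeded T a c →
        ∃ ω, (C.T.τ (C.pinch (c ω) w ^ (2 * n))).re ≤ r * (2 / √r) ^ (2 * n) + δ := by
  let := CStarAlgebra.spectralOrder M
  have := CStarAlgebra.spectralOrderedRing M
  obtain ⟨K, hK, hco⟩ := C.coincide T ((2 * n + 1) * T.card)
  have hr0 : (0 : ℝ) < r := Nat.cast_pos.mpr (NeZero.pos r)
  have hn0 : (0 : ℝ) < n := Nat.cast_pos.mpr (Nat.pos_of_ne_zero hn)
  obtain ⟨β, hβ, hβ1, hβ2⟩ : ∃ β : ℝ, 0 < β ∧ n * β ≤ 1 ∧ 3 * r * (n * β) ≤ δ :=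
    ⟨min (1 / n) (δ / (3 * r * n)), by positivity, by
      rw [mul_comm, ← le_div_iff₀ hn0]; exact min_le_left _ _, by
      rw [← mul_assoc, mul_comm, ← le_div_iff₀ (by positivity)]; exact min_le_right _ _⟩
  refine ⟨(β ^ 2 / (K + 1)) ^ 2, by positivity, fun w hs hw N a ha hA c hc => ?_⟩
  have hρ : 2 / √(r : ℝ) ≤ 1 := by
    rw [div_le_one (Real.sqrt_pos.mpr hr0)]
    exact Real.le_sqrt_of_sq_le (by norm_num; exact_mod_cast hr)
  have key : ∀ k, ∀ j ≤ n, nn C.T (fun ω => (C.pj (c ω ⁻¹' {k}) * w * C.pj (c ω ⁻¹' {k})) ^ j) ≤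
      (2 / √r) ^ j + j * β := fun k j hj => by
    have hp1 : ∀ ω, ‖C.pj (c ω ⁻¹' {k})‖ ≤ 1 := fun ω => (C.pj_proj _).norm_le
    have hd : ∀ j, Deg (2 * j * T.card)
        fun ω => (C.pj (c ω ⁻¹' {k}) * w * C.pj (c ω ⁻¹' {k})) ^ j := fun j => by
      induction j with
      | zero => simpa using Deg.const (1 : M)
      | succ j ih =>
        simp only [pow_succ]
        exact (ih.mul (((C.deg_pj ha hc k).mul (Deg.const w)).mul (C.deg_pj ha hc k))).mono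
          (le_of_eq (by ring))
    induction j with
    | zero => simp [nn, C.T.n2_one]
    | succ j ih =>
      have h1 := C.nn_step hw ha hc k
        (fun ω => (C.pj (c ω ⁻¹' {k}) * w * C.pj (c ω ⁻¹' {k})) ^ j) (β := β) fun t ht => by
          refine abs_le_of_sq_le_sq' ?_ hβ.le |>.2
          rw [nn_sq]
          simp only [hat_fm, hat_mul_left, ← mul_assoc, ht]
          refine (hco (fun (g : T) x => a ((g : C.Nor) • x))
            (fun g => ha.comp_continuous (continuous_const_smul _)) w _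
            (fun g h => hA g g.2 h h.2) supp _ (fun χ hχ => ((C.deg_pj ha hc k).mul (hd j)).mono
              (by nlinarith) χ hχ) (sum_hat_le fun ω => ?_)).trans ?_
          · refine mul_le_one₀ (hp1 ω) (norm_nonneg _) ?_ |> (norm_mul_le _ _).trans
            rcases j with - | j
            · simpa using (IsStarProjection.one M).norm_le
            · refine (norm_pow_le' _ j.succ_pos).trans (pow_le_one₀ (norm_nonneg _) ?_)
              exact (norm_mul_le_of_le (norm_mul_le_of_le (hp1 ω) hw) (hp1 ω)).trans (by norm_num)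
          · rw [Real.sqrt_sq (by positivity), ← mul_div_assoc, div_le_iff₀ (by positivity)]
            nlinarith [sq_nonneg β]
      have h2 := mul_le_mul_of_nonneg_left (ih (by omega)) (show 0 ≤ 2 / √(r : ℝ) by positivity)
      have h3 := mul_le_mul_of_nonneg_right hρ (show 0 ≤ j * β by positivity)
      simp only [pow_succ']
      push_cast
      linarith
  have h1 : ∀ ω, (C.T.τ (C.pinch (c ω) w ^ (2 * n))).re =
      ∑ k, C.T.n2 ((C.pj (c ω ⁻¹' {k}) * w * C.pj (c ω ⁻¹' {k})) ^ n) ^ 2 := fun ω => by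
    rw [C.pinch_pow (hc.lc ω) w (by omega), map_sum, Complex.re_sum]
    refine sum_congr rfl fun k _ => ?_
    rw [C.T.n2_sq, star_pow, star_mul, star_mul, (C.pj_proj _).isSelfAdjoint.star_eq, hs,
      ← mul_assoc, ← pow_add, two_mul]
  have h2 : 𝔼 ω, (C.T.τ (C.pinch (c ω) w ^ (2 * n))).re ≤ r * (2 / √r) ^ (2 * n) + δ := by
    simp only [h1]
    rw [expect_sum_comm]
    have h3 : (2 / √(r : ℝ)) ^ n ≤ 1 := pow_le_one₀ (by positivity) hρ
    refine (sum_le_card_nsmul _ _ (((2 / √r) ^ n + n * β) ^ 2) fun k _ => ?_).trans ?_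
    · have := pow_le_pow_left₀ nn_nonneg (key k n le_rfl) 2
      rwa [nn, Real.sq_sqrt (expect_nonneg fun _ _ => sq_nonneg _)] at this
    · rw [card_univ, ZMod.card, nsmul_eq_mul, mul_comm 2 n, pow_mul]
      have h4 : 0 ≤ n * β := by positivity
      have h5 : ((2 / √(r : ℝ)) ^ n + n * β) ^ 2 ≤ ((2 / √(r : ℝ)) ^ n) ^ 2 + 3 * (n * β) := by
        nlinarith
      nlinarith
  obtain ⟨ω, -, hω⟩ := exists_le_of_expect_le univ_nonempty h2
  exact ⟨ω, hω⟩

end Vale.Agent.P078.Ctx
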