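import Vale.Agent.P085.Factor

/-! Tracial W*-algebras: conditional expectations, closures, spectral cuts. -/

namespace Vale.Agent.P078

open Vale.Agent.P085 Filter
open scoped Topology ComplexStarModule

variable {M : Type*} [CStarAlgebra M] {T : Tr M}

/-- The properties of a tracial von Neumann algebra that are used. -/
structure FW (T : Tr M) : Prop where
  faithful : ∀ a, T.n2 a = 0 → a = 0
  complete : T.Complete
  rp : ∀ a : M, star a = a → ∃ e, IsStarProjection e ∧ ∀ y, y * a = 0 ↔ y * e = 0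

/-- Trace preserving conditional expectation onto `N`. -/
structure IsExp (T : Tr M) (N : StarSubalgebra ℂ M) (E : M →ₗ[ℂ] M) : Prop where
  mem : ∀ x, E x ∈ N
  tr : ∀ n ∈ N, ∀ x, T.τ (n * E x) = T.τ (n * x)

variable {N : StarSubalgebra ℂ M} {E : M →ₗ[ℂ] M}

lemma orth_of_min {a : M} (ha : ∀ n ∈ N, T.n2 a ≤ T.n2 (a - n)) :
    ∀ n ∈ N, T.τ (star a * n) = 0 := by
  have key : ∀ n ∈ N, (T.τ (star a * n)).re = 0 := fun n hn => by
    set r := (T.τ (star a * n)).re with hr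
    set b := T.n2 n ^ 2 with hb
    have hb0 : 0 ≤ b := sq_nonneg _
    set t := r / (b + 1) with ht
    have h1 := pow_le_pow_left₀ (T.n2_nonneg a) (ha _ (N.smul_mem hn (t : ℂ))) 2
    rw [T.n2_sub_sq, mul_smul_comm, map_smul, smul_eq_mul, Complex.re_ofReal_mul, T.n2_smul,
      mul_pow, Complex.norm_real, Real.norm_eq_abs, sq_abs, ← hr, ← hb] at h1
    have h2 : r = t * (b + 1) := by rw [ht]; field_simp
    have h3 : t ^ 2 * (b + 2) ≤ 0 := by rw [h2] at h1; nlinarith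
    have h4 : t ^ 2 = 0 := le_antisymm (by nlinarith [sq_nonneg t]) (sq_nonneg t)
    rw [h2, pow_eq_zero_iff two_ne_zero |>.1 h4, zero_mul]
  intro n hn
  have h1 := key _ (N.smul_mem hn Complex.I)
  rw [mul_smul_comm, map_smul, smul_eq_mul, Complex.I_mul_re, neg_eq_zero] at h1
  exact Complex.ext (key n hn) h1

lemma exists_orth (h : FW T) (hN : T.Closed N) {c : M} (hc : star c = c) :
    ∃ y ∈ N, ‖y‖ ≤ ‖c‖ ∧ ∀ n ∈ N, T.τ (n * y) = T.τ (n * c) := by
  set S := (fun y => T.n2 (c - y)) '' N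
  have hS : S.Nonempty := ⟨_, 0, zero_mem N, rfl⟩
  have hb : BddBelow S := ⟨0, by rintro _ ⟨x, -, rfl⟩; exact T.n2_nonneg _⟩
  set d := sInf S with hd
  have hd0 : 0 ≤ d := le_csInf hS (by rintro _ ⟨x, -, rfl⟩; exact T.n2_nonneg _)
  have hle : ∀ y ∈ N, d ≤ T.n2 (c - y) := fun y hy => csInf_le hb ⟨y, hy, rfl⟩
  have : ∀ n : ℕ, ∃ x ∈ N, ‖x‖ ≤ ‖c‖ ∧ T.n2 (c - x) ≤ d + 1 / (n + 1) := fun n => by
    obtain ⟨_, ⟨x, hx, rfl⟩, hx'⟩ := exists_lt_of_csInf_lt hS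
      (lt_add_of_pos_right _ (Nat.one_div_pos_of_nat (n := n)))
    obtain ⟨z, hz, -, hz1, hz2⟩ := exists_clamp (T := T) hN.isClosed hc hx
    exact ⟨z, hz, hz1, hz2.trans hx'.le⟩
  choose x hx hx1 hx2 using this
  have h0 : Tendsto (fun n : ℕ => (1 / (n + 1) : ℝ)) atTop (𝓝 0) :=
    tendsto_one_div_add_atTop_nhds_zero_nat
  have h1 : Tendsto (fun n : ℕ => 4 * (d + 1 / (n + 1) : ℝ) ^ 2 - 4 * d ^ 2) atTop (𝓝 0) := by
    have := (((h0.const_add d).pow 2).const_mul 4).sub_const (4 * d ^ 2)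
    rwa [add_zero, _root_.sub_self] at this
  obtain ⟨y, hy⟩ := h.complete x ‖c‖ hx1 (T.cauchySeq h1 fun n m K hn hm => by
    have e1 := T.parallelogram (c - x m) (c - x n)
    have e2 : (2⁻¹ : ℂ) • (c - x m + (c - x n)) = c - (2⁻¹ : ℂ) • (x m + x n) := by module
    have e3 := pow_le_pow_left₀ hd0 (hle _ (N.smul_mem (add_mem (hx m) (hx n)) 2⁻¹)) 2
    have e4 : T.n2 (c - x m) ^ 2 ≤ (d + 1 / (K + 1)) ^ 2 :=
      pow_le_pow_left₀ (T.n2_nonneg _) ((hx2 m).trans (by gcongr)) 2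
    have e5 : T.n2 (c - x n) ^ 2 ≤ (d + 1 / (K + 1)) ^ 2 :=
      pow_le_pow_left₀ (T.n2_nonneg _) ((hx2 n).trans (by gcongr)) 2
    rw [e2, sub_sub_sub_cancel_left] at e1
    linarith)
  have hyN : y ∈ N := hN x ‖c‖ y (fun n => ⟨hx n, hx1 n⟩) hy
  have hyd : T.n2 (c - y) ≤ d := by
    refine ge_of_tendsto' (by simpa using (h0.const_add d).add hy) fun n => ?_
    have := T.n2_triangle c (x n) y
    have := hx2 n
    simp only [one_div] at *
    linarith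
  obtain ⟨z, hz, hzs, hz1, hz2⟩ := exists_clamp (T := T) hN.isClosed hc hyN
  refine ⟨z, hz, hz1, fun n hn => ?_⟩
  have h2 := orth_of_min (T := T) (N := N) (a := c - z) (fun n hn => by
    rw [sub_sub]
    exact (hz2.trans hyd).trans (hle _ (add_mem hz hn))) n hn
  rw [star_sub, hc, hzs, T.comm, mul_sub, map_sub, sub_eq_zero] at h2
  exact h2.symm

lemma eq_of_tr (h : FW T) {y y' : M} (hy : y ∈ N) (hy' : y' ∈ N)
    (hxy : ∀ n ∈ N, T.τ (n * y) = T.τ (n * y')) : y = y' := by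
  have h1 := T.n2_sq (y - y')
  rw [mul_sub, map_sub, hxy _ (star_mem (sub_mem hy hy')), sub_self, Complex.zero_re] at h1
  exact sub_eq_zero.1 (h.faithful _ (pow_eq_zero_iff two_ne_zero |>.1 h1))

theorem exists_exp (h : FW T) (hN : T.Closed N) : ∃ E, IsExp T N E := by
  have : ∀ x : M, ∃ y ∈ N, ∀ n ∈ N, T.τ (n * y) = T.τ (n * x) := fun x => by
    obtain ⟨a, ha, -, ha'⟩ := exists_orth h hN (c := (ℜ x : M)) (ℜ x).2
    obtain ⟨b, hb, -, hb'⟩ := exists_orth h hN (c := (ℑ x : M)) (ℑ x).2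
    refine ⟨a + Complex.I • b, add_mem ha (N.smul_mem hb _), fun n hn => ?_⟩
    conv_rhs => rw [← realPart_add_I_smul_imaginaryPart x]
    simp only [mul_add, mul_smul_comm, map_add, map_smul, ha' n hn, hb' n hn]
  choose f hf hf' using this
  refine ⟨⟨⟨f, fun x y => ?_⟩, fun c x => ?_⟩, hf, fun n hn x => hf' x n hn⟩
  · refine eq_of_tr h (hf _) (add_mem (hf _) (hf _)) fun n hn => ?_
    simp only [mul_add, map_add, hf' _ n hn]
  · refine eq_of_tr h (hf _) (N.smul_mem (hf _) _) fun n hn => ?_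
    simp only [mul_smul_comm, map_smul, hf' _ n hn, RingHom.id_apply]

lemma IsExp.eq_of (h : FW T) (hE : IsExp T N E) {x y : M} (hy : y ∈ N)
    (hxy : ∀ n ∈ N, T.τ (n * y) = T.τ (n * x)) : E x = y :=
  eq_of_tr h (hE.mem x) hy fun n hn => by rw [hE.tr n hn, hxy n hn]

lemma IsExp.fix (h : FW T) (hE : IsExp T N E) {n : M} (hn : n ∈ N) : E n = n :=
  hE.eq_of h hn fun _ _ => rfl

lemma IsExp.mul_left (h : FW T) (hE : IsExp T N E) {n : M} (hn : n ∈ N) (x : M) :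
    E (n * x) = n * E x :=
  hE.eq_of h (mul_mem hn (hE.mem x)) fun m hm => by
    rw [← mul_assoc, ← mul_assoc, hE.tr _ (mul_mem hm hn)]

lemma IsExp.mul_right (h : FW T) (hE : IsExp T N E) {n : M} (hn : n ∈ N) (x : M) :
    E (x * n) = E x * n :=
  hE.eq_of h (mul_mem (hE.mem x) hn) fun m hm => by
    rw [← mul_assoc, ← mul_assoc, T.comm, T.comm (m * x), ← mul_assoc, ← mul_assoc,
      hE.tr _ (mul_mem hn hm)]

lemma IsExp.map_star (h : FW T) (hE : IsExp T N E) (x : M) : E (star x) = star (E x) :=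
  hE.eq_of h (star_mem (hE.mem x)) fun m hm => by
    have e : ∀ y, m * star y = star (y * star m) := fun y => by rw [star_mul, star_star]
    rw [e, e, T.map_star, T.map_star, T.comm, T.comm x, hE.tr _ (star_mem hm)]

lemma IsExp.n2_le (hE : IsExp T N E) (x : M) : T.n2 (E x) ≤ T.n2 x := by
  have h1 := T.n2_sq (E x)
  rw [hE.tr _ (star_mem (hE.mem x))] at h1
  have h2 := (Complex.re_le_norm _).trans (T.norm_τ_star_mul (E x) x)
  have h3 := T.n2_nonneg (E x)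
  have h4 := T.n2_nonneg x
  by_contra hlt
  nlinarith [not_le.1 hlt]

lemma IsExp.norm_le (h : FW T) (hN : T.Closed N) (hE : IsExp T N E) {x : M} (hx : star x = x) :
    ‖E x‖ ≤ ‖x‖ := by
  obtain ⟨y, hy, hy1, hy2⟩ := exists_orth h hN hx
  rwa [hE.eq_of h hy hy2]

lemma mul_lt_of_lt_div {a b ε : ℝ} (ha : 0 ≤ a) (hb : 0 ≤ b) (h : a < ε / (b + 1)) : a * b < ε := by
  rw [lt_div_iff₀ (by positivity)] at h
  nlinarith

variable (T) in
/-- Closure in the 2-norm. -/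
def cl (N : StarSubalgebra ℂ M) : StarSubalgebra ℂ M where
  carrier := {y | ∀ ε > 0, ∃ n ∈ N, T.n2 (y - n) < ε}
  mul_mem' := by
    intro a b ha hb ε hε
    obtain ⟨n, hn, h1⟩ := ha (ε / 2 / (‖b‖ + 1)) (by positivity)
    obtain ⟨m, hm, h2⟩ := hb (ε / 2 / (‖n‖ + 1)) (by positivity)
    refine ⟨n * m, mul_mem hn hm, ?_⟩
    have h3 := T.n2_triangle (a * b) (n * b) (n * m)
    rw [← sub_mul, ← mul_sub] at h3
    have h4 := T.n2_mul_le' (a - n) b
    have h5 := T.n2_mul_le n (b - m)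
    have h6 := mul_lt_of_lt_div (T.n2_nonneg _) (norm_nonneg _) h1
    have h7 := mul_lt_of_lt_div (T.n2_nonneg _) (norm_nonneg _) h2
    linarith
  add_mem' := by
    intro a b ha hb ε hε
    obtain ⟨n, hn, h1⟩ := ha (ε / 2) (by positivity)
    obtain ⟨m, hm, h2⟩ := hb (ε / 2) (by positivity)
    refine ⟨n + m, add_mem hn hm, ?_⟩
    have h3 := T.n2_add_le (a - n) (b - m)
    rw [sub_add_sub_comm] at h3
    linarith
  algebraMap_mem' := fun c ε hε => ⟨_, N.algebraMap_mem c, by rwa [sub_self, T.n2_zero]⟩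
  star_mem' := by
    intro a ha ε hε
    obtain ⟨n, hn, h1⟩ := ha ε hε
    exact ⟨star n, star_mem hn, by rwa [← star_sub, T.n2_star]⟩

lemma mem_cl {y : M} : y ∈ cl T N ↔ ∀ ε > 0, ∃ n ∈ N, T.n2 (y - n) < ε := Iff.rfl

lemma le_cl : N ≤ cl T N := fun y hy ε hε => ⟨y, hy, by rwa [sub_self, T.n2_zero]⟩

lemma mem_cl_of_approx {y : M} (h : ∀ ε > 0, ∃ n ∈ cl T N, T.n2 (y - n) < ε) : y ∈ cl T N := by
  intro ε hε
  obtain ⟨n, hn, h1⟩ := h (ε / 2) (by positivity)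
  obtain ⟨m, hm, h2⟩ := hn (ε / 2) (by positivity)
  exact ⟨m, hm, by linarith [T.n2_triangle y n m]⟩

lemma cl_closed : T.Closed (cl T N) := by
  intro x R y hx hy
  refine mem_cl_of_approx fun ε hε => ?_
  obtain ⟨n, hn⟩ := (hy.eventually (gt_mem_nhds hε)).exists
  exact ⟨x n, (hx n).1, by rwa [T.n2_sub_rev]⟩

lemma exists_bdd_approx {y : M} (hy : y ∈ cl T N) (hs : star y = y) {ε : ℝ} (hε : 0 < ε) :
    ∃ n ∈ N, star n = n ∧ ‖n‖ ≤ ‖y‖ + ε ∧ T.n2 (y - n) < ε := by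
  obtain ⟨n₀, hn₀, h0⟩ := hy (ε / 2) (by positivity)
  obtain ⟨z, hz, hzs, hz1, hz2⟩ := exists_clamp (T := T) (N := N.topologicalClosure)
    N.isClosed_topologicalClosure hs (N.le_topologicalClosure hn₀)
  obtain ⟨n₁, hn₁, h1⟩ := Metric.mem_closure_iff.1 hz (ε / 2) (by positivity)
  have h2 : ‖z - ℜ n₁‖ < ε / 2 := by
    have e : z - ℜ n₁ = ℜ (z - n₁) := by
      rw [map_sub, AddSubgroupClass.coe_sub, IsSelfAdjoint.coe_realPart hzs]
    rw [e]
    rw [dist_eq_norm] at h1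
    exact (realPart.norm_le (z - n₁)).trans_lt h1
  refine ⟨ℜ n₁, realPart_mem hn₁, (ℜ n₁).2, ?_, ?_⟩
  · have := norm_sub_norm_le (ℜ n₁ : M) z
    rw [norm_sub_rev] at this
    linarith
  · linarith [T.n2_triangle y z (ℜ n₁), T.n2_le_norm (z - ℜ n₁)]

lemma orth_cl {w : M} (hw : ∀ n ∈ N, T.τ (n * w) = 0) : ∀ n ∈ cl T N, T.τ (n * w) = 0 := by
  intro n hn
  refine norm_le_zero_iff.1 (le_of_forall_pos_le_add fun ε hε => ?_)
  obtain ⟨m, hm, h1⟩ := hn (ε / (T.n2 w + 1)) (by have := T.n2_nonneg w; positivity)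
  have h2 := T.norm_τ_mul (n - m) w
  rw [sub_mul, map_sub, hw m hm, sub_zero] at h2
  linarith [mul_lt_of_lt_div (T.n2_nonneg _) (T.n2_nonneg _) h1]

end Vale.Agent.P078
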