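import Vale.Agent.P078.Exp

/-! Nets, spectral cuts and the 4-norm. -/

namespace Vale.Agent.P078

open Vale.Agent.P085 Filter
open scoped Topology

variable {M : Type*} [CStarAlgebra M] {T : Tr M}

/-- Limit of a bounded decreasing net of orthogonal projections of a vector. -/
theorem exists_net_lim (h : FW T) {D : Type*} [SemilatticeInf D] [Nonempty D] {z : D → M} {R : ℝ}
    (hR : ∀ P, ‖z P‖ ≤ R)
    (hz : ∀ P Q, Q ≤ P → T.n2 (z P - z Q) ^ 2 = T.n2 (z P) ^ 2 - T.n2 (z Q) ^ 2) :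
    ∃ u, ∀ ε > 0, ∃ P, ∀ Q ≤ P, T.n2 (z Q - u) < ε := by
  set S := Set.range fun P => T.n2 (z P) ^ 2
  have hS : S.Nonempty := Set.range_nonempty _
  have hb : BddBelow S := ⟨0, by rintro _ ⟨x, rfl⟩; positivity⟩
  have hle : ∀ P, sInf S ≤ T.n2 (z P) ^ 2 := fun P => csInf_le hb ⟨P, rfl⟩
  have : ∀ n : ℕ, ∃ P, T.n2 (z P) ^ 2 < sInf S + (1 / (n + 1)) ^ 2 := fun n => by
    obtain ⟨_, ⟨x, rfl⟩, hx'⟩ := exists_lt_of_csInf_lt hS
      (lt_add_of_pos_right _ (pow_pos (Nat.one_div_pos_of_nat (n := n)) 2))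
    exact ⟨x, hx'⟩
  choose P hP using this
  have key : ∀ n, ∀ Q ≤ P n, T.n2 (z (P n) - z Q) ≤ 1 / (n + 1) := fun n Q hQ => by
    refine (abs_le_of_sq_le_sq' ?_ (by positivity)).2
    rw [hz _ _ hQ]
    linarith [hP n, hle Q]
  have h0 : Tendsto (fun n : ℕ => (1 / (n + 1) : ℝ)) atTop (𝓝 0) :=
    tendsto_one_div_add_atTop_nhds_zero_nat
  have h1 : Tendsto (fun n : ℕ => (1 / (n + 1) + 1 / (n + 1) : ℝ) ^ 2) atTop (𝓝 0) := by
    simpa using (h0.add h0).pow 2
  obtain ⟨u, hu⟩ := h.complete (fun n => z (P n)) R (fun n => hR _)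
    (T.cauchySeq h1 fun n m K hn hm => by
      refine pow_le_pow_left₀ (T.n2_nonneg _) ?_ 2
      have e1 := T.n2_triangle (z (P n)) (z (P n ⊓ P m)) (z (P m))
      rw [T.n2_sub_rev (z (P n ⊓ P m))] at e1
      have e2 : (1 / (n + 1) : ℝ) ≤ 1 / (K + 1) := by gcongr
      have e3 : (1 / (m + 1) : ℝ) ≤ 1 / (K + 1) := by gcongr
      linarith [key n _ (inf_le_left (b := P m)), key m _ (inf_le_right (a := P n))])
  refine ⟨u, fun ε hε => ?_⟩
  have h2 := h0.add hu
  rw [add_zero] at h2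
  obtain ⟨n, hn⟩ := (h2.eventually (gt_mem_nhds hε)).exists
  refine ⟨P n, fun Q hQ => ?_⟩
  have e1 := T.n2_triangle (z Q) (z (P n)) u
  rw [T.n2_sub_rev (z Q) (z (P n))] at e1
  linarith [key n Q hQ]

lemma sq_le_one_add_pow [PartialOrder M] [StarOrderedRing M] {b : M} (hb : IsSelfAdjoint b) {m : ℕ}
    (hm : 1 ≤ m) : b * b ≤ 1 + b ^ (2 * m) := by
  have h1 : 1 + b ^ (2 * m) - b * b = cfc (fun t : ℝ => 1 + t ^ (2 * m) - t ^ 2) b := by
    rw [cfc_sub .., cfc_add .., cfc_const_one ℝ b, cfc_pow_id (R := ℝ) b, cfc_pow_id (R := ℝ) b, sq]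
  rw [← sub_nonneg, h1]
  refine cfc_nonneg fun t _ => ?_
  rw [pow_mul]
  rcases le_total (t ^ 2) 1 with h | h
  · have : 0 ≤ (t ^ 2) ^ m := by positivity
    linarith
  · linarith [le_self_pow₀ h (by omega : m ≠ 0)]

/-- Cutting off large spectral values of finitely many self-adjoint elements. -/
theorem exists_cut (h : FW T) {ι : Type*} [Fintype ι] {a : ι → M} (ha : ∀ k, star (a k) = a k)
    {m : ι → ℕ} (hm : ∀ k, 1 ≤ m k) {s : ℝ} (hs : 0 < s) : ∃ q, IsStarProjection q ∧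
      (∀ k, ‖q * a k * q‖ ≤ 2 * s) ∧
      (T.τ (1 - q)).re ≤ ∑ k, (T.τ (a k ^ (2 * m k))).re / s ^ (2 * m k) := by
  classical
  let _ := CStarAlgebra.spectralOrder M
  have _ := CStarAlgebra.spectralOrderedRing M
  set b : ι → M := fun k => ((s⁻¹ : ℝ) : ℂ) • a k with hb
  have hbs : ∀ k, IsSelfAdjoint (b k) := fun k => by
    rw [IsSelfAdjoint, hb]
    simp [ha k]
  have hb0 : ∀ k, 0 ≤ b k ^ (2 * m k) := fun k => by
    rw [two_mul, pow_add]
    simpa [((hbs k).pow (m k)).star_eq] using star_mul_self_nonneg (b k ^ m k)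
  set H := ∑ k, b k ^ (2 * m k) with hH
  have hH0 : 0 ≤ H := Finset.sum_nonneg fun k _ => hb0 k
  have hHs : IsSelfAdjoint (H - 1) := (IsSelfAdjoint.of_nonneg hH0).sub (.one M)
  have hp : 0 ≤ (H - 1)⁺ := CFC.posPart_nonneg _
  have hn : 0 ≤ (H - 1)⁻ := CFC.negPart_nonneg _
  have hpn : H = 1 + (H - 1)⁺ - (H - 1)⁻ := by
    rw [add_sub_assoc, CFC.posPart_sub_negPart _ hHs, add_sub_cancel]
  obtain ⟨e, he, hy⟩ := h.rp (H - 1)⁺ (IsSelfAdjoint.of_nonneg hp)
  have hq := he.one_sub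
  have h1 : (1 - e) * (H - 1)⁺ = 0 := (hy _).2 he.one_sub_mul_self
  have h2 : (H - 1)⁻ * e = 0 := (hy _).1 (CFC.negPart_mul_posPart _)
  have hqs : star (1 - e) = 1 - e := hq.isSelfAdjoint
  have hes : star e = e := he.isSelfAdjoint
  have hq1 : 1 - e ≤ 1 := sub_le_self _ he.nonneg
  refine ⟨1 - e, hq, fun k => ?_, ?_⟩
  · have h3 : (1 - e) * (1 + H) * (1 - e) ≤ 1 + 1 := by
      have e1 : (1 - e) * (1 + H) * (1 - e) =
          (1 - e) + (1 - e) - star (1 - e) * (H - 1)⁻ * (1 - e) := by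
        conv_lhs => rw [hpn]
        rw [hqs]
        simp only [mul_add, mul_sub (1 - e) (1 + (H - 1)⁺), h1, mul_one, add_zero, add_mul,
          sub_mul (1 - e) ((1 - e) * (H - 1)⁻), hq.isIdempotentElem.eq]
        abel
      rw [e1]
      exact (sub_le_self _ (star_left_conjugate_nonneg hn _)).trans (add_le_add hq1 hq1)
    have h4 : b k * b k ≤ 1 + H := (sq_le_one_add_pow (hbs k) (hm k)).trans
      (add_le_add le_rfl (Finset.single_le_sum (fun k _ => hb0 k) (Finset.mem_univ k)))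
    have h5 : star (b k * (1 - e)) * (b k * (1 - e)) ≤ 1 + 1 := by
      refine le_trans ?_ h3
      have := star_left_conjugate_le_conjugate h4 (1 - e)
      rwa [star_mul, (hbs k).star_eq, hqs, mul_assoc, ← mul_assoc (b k), ← mul_assoc, ← hqs,
        hqs] at *
    have h6 := CStarAlgebra.norm_le_norm_of_nonneg_of_le (star_mul_self_nonneg _) h5
    have h7 : ‖(1 + 1 : M)‖ ≤ 2 := (norm_add_le _ _).trans (by
      linarith [norm_unitary_le (one_mem (unitary M))])
    rw [CStarRing.norm_star_mul_self] at h6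
    have h8 : ‖b k * (1 - e)‖ ≤ 2 := by nlinarith [norm_nonneg (b k * (1 - e))]
    have h9 : (1 - e) * a k * (1 - e) = (s : ℂ) • ((1 - e) * (b k * (1 - e))) := by
      rw [hb]
      simp only [smul_mul_assoc, mul_smul_comm, smul_smul, mul_assoc]
      rw [← Complex.ofReal_mul, mul_inv_cancel₀ hs.ne', Complex.ofReal_one, one_smul]
    rw [h9, norm_smul, Complex.norm_real, Real.norm_of_nonneg hs.le, mul_comm 2]
    refine mul_le_mul_of_nonneg_left ((norm_mul_le _ _).trans ?_) hs.le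
    exact (mul_le_of_le_one_left (norm_nonneg _) hq.norm_le).trans h8
  · have h3 : H * e = e + (H - 1)⁺ * e := by
      conv_lhs => rw [hpn]
      rw [sub_mul, h2, sub_zero, add_mul, one_mul]
    have h4 := T.re_mul_nonneg hp he.nonneg
    have h5 := T.re_mul_nonneg hH0 hq.nonneg
    rw [mul_sub, mul_one, h3, map_sub, map_add, Complex.sub_re, Complex.add_re] at h5
    have h6 : (T.τ H).re = ∑ k, (T.τ (a k ^ (2 * m k))).re / s ^ (2 * m k) := by
      rw [hH, map_sum, Complex.re_sum]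
      refine Finset.sum_congr rfl fun k _ => ?_
      rw [hb, smul_pow, map_smul, smul_eq_mul, ← Complex.ofReal_pow, Complex.re_ofReal_mul,
        inv_pow, inv_mul_eq_div]
    rw [sub_sub_cancel, ← h6]
    linarith

variable (T) in
/-- Fourth power of the 4-norm. -/
noncomputable def n4 (t : M) : ℝ := (T.τ ((star t * t) ^ 2)).re

lemma n4_eq (t : M) : n4 T t = T.n2 (star t * t) ^ 2 := by
  rw [T.n2_sq, star_mul, star_star, n4, sq]

lemma n4_star (t : M) : n4 T (star t) = n4 T t := by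
  rw [n4, n4, star_star, sq, sq, mul_assoc, T.comm]
  simp only [mul_assoc]

lemma n4_unitary {u v : M} (hu : u ∈ unitary M) (hv : v ∈ unitary M) (t : M) :
    n4 T (u * t * v) = n4 T t := by
  have : star (u * t * v) * (u * t * v) = star v * (star t * t) * v := by
    simp only [star_mul, mul_assoc]
    rw [← mul_assoc (star u), hu.1, one_mul]
  rw [n4_eq, n4_eq, this, T.n2_mul_unitary hv, T.n2_unitary_mul (Unitary.star_mem hv)]

lemma sum_n4_left_le {ι : Type*} (s : Finset ι) {e : ι → M} (he : ∀ i ∈ s, IsStarProjection (e i))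
    (ho : ∀ i ∈ s, ∀ j ∈ s, i ≠ j → e i * e j = 0) (t : M) :
    ∑ i ∈ s, n4 T (e i * t) ≤ n4 T ((∑ i ∈ s, e i) * t) := by
  let _ := CStarAlgebra.spectralOrder M
  have _ := CStarAlgebra.spectralOrderedRing M
  have h1 : star ((∑ i ∈ s, e i) * t) * ((∑ i ∈ s, e i) * t) =
      ∑ i ∈ s, star (e i * t) * (e i * t) := by
    rw [Finset.sum_mul, star_sum, Finset.sum_mul]
    refine Finset.sum_congr rfl fun i hi => ?_
    rw [Finset.mul_sum, Finset.sum_eq_single_of_mem i hi fun j hj hij => ?_]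
    rw [star_mul, (he i hi).isSelfAdjoint.star_eq, mul_assoc, ← mul_assoc (e i),
      ho i hi j hj hij.symm, zero_mul, mul_zero]
  rw [n4, h1, sq, Finset.sum_mul, map_sum, Complex.re_sum]
  refine Finset.sum_le_sum fun i hi => ?_
  rw [Finset.mul_sum, map_sum, Complex.re_sum, n4, sq]
  exact Finset.single_le_sum
    (f := fun j => (T.τ (star (e i * t) * (e i * t) * (star (e j * t) * (e j * t)))).re)
    (fun j _ => T.re_mul_nonneg (star_mul_self_nonneg _) (star_mul_self_nonneg _)) hi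

lemma sum_n4_right_le {ι : Type*} (s : Finset ι) {e : ι → M} (he : ∀ i ∈ s, IsStarProjection (e i))
    (ho : ∀ i ∈ s, ∀ j ∈ s, i ≠ j → e i * e j = 0) (t : M) :
    ∑ i ∈ s, n4 T (t * e i) ≤ n4 T (t * ∑ i ∈ s, e i) := by
  have h1 := sum_n4_left_le (T := T) s he ho (star t)
  have h2 : ∀ i ∈ s, star (e i) = e i := fun i hi => (he i hi).isSelfAdjoint
  rw [← n4_star (_ * _), star_mul, star_star, star_sum, Finset.sum_congr rfl h2] at h1
  refine le_trans (le_of_eq (Finset.sum_congr rfl fun i hi => ?_)) h1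
  rw [← n4_star, star_mul, h2 i hi]

end Vale.Agent.P078
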