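import Vale.Agent.P078.CtxB

/-! Extraction of an intertwiner from an atomic part. -/

namespace Vale.Agent.P078.Ctx

open Vale.Agent.P085 Filter Finset
open scoped Topology ComplexConjugate

variable {M X : Type*} [CStarAlgebra M] [TopologicalSpace X] [CompactSpace X] (C : Ctx M X)

/-- Sum of the squares of the masses of the pieces of `P`. -/
noncomputable def SS (w : M) (P : DiscreteQuotient X) : ℝ :=
  ∑ i : P, C.T.n2 (C.ι (C.E (star w * C.pj (P.proj ⁻¹' {i}) * w))) ^ 2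

/-- Mass of `V` seen through `w`. -/
noncomputable def ms (w : M) (V : Set X) : C(X, ℝ) :=
  ⟨fun x => (C.E (star w * C.pj V * w) x).re, by fun_prop⟩

lemma conj_pj_eq (w : M) (V : Set X) : star w * C.pj V * w = star (C.pj V * w) * (C.pj V * w) := by
  rw [star_mul, (C.pj_proj _).isSelfAdjoint.star_eq, mul_assoc (star w) (C.pj V) (C.pj V * w),
    ← mul_assoc (C.pj V), (C.pj_proj _).isIdempotentElem.eq, mul_assoc]

lemma ms_nonneg (w : M) (V : Set X) (x : X) : 0 ≤ C.ms w V x := by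
  simpa only [ms, conj_pj_eq, ContinuousMap.coe_mk] using (C.E_nonneg _ x).1

lemma E_eq_ms (w : M) (V : Set X) (x : X) : C.E (star w * C.pj V * w) x = C.ms w V x :=
  Complex.ext rfl (by simpa only [conj_pj_eq, Complex.ofReal_im] using (C.E_nonneg _ x).2)

lemma n2_ms (w : M) (V : Set X) :
    C.T.n2 (C.ι (C.E (star w * C.pj V * w))) ^ 2 = C.τR (C.ms w V ^ 2) := by
  rw [C.T.n2_sq, ← map_star, ← map_mul]
  refine (C.τR_apply _ _ fun x => ?_).symm
  simp [E_eq_ms, sq]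

lemma SS_eq (w : M) (P : DiscreteQuotient X) :
    C.SS w P = C.τR (∑ i : P, C.ms w (P.proj ⁻¹' {i}) ^ 2) := by
  simp only [SS, n2_ms, map_sum]

lemma τR_mono {f g : C(X, ℝ)} (h : ∀ x, f x ≤ g x) : C.τR f ≤ C.τR g := by
  have := C.τR_nonneg (f := g - f) fun x => by simpa using h x
  rwa [map_sub, sub_nonneg] at this

lemma sum_ms {κ : Type*} {c : X → κ} (hc : IsLocallyConstant c) (s : Finset κ) (w : M) (x : X) :
    ∑ k ∈ s, C.ms w (c ⁻¹' {k}) x = C.ms w (c ⁻¹' s) x := by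
  simp only [ms, ContinuousMap.coe_mk, ← C.sum_pj hc, mul_sum, sum_mul, map_sum,
    ContinuousMap.sum_apply, Complex.re_sum]

lemma ms_union (w : M) {U V : Set X} (hU : IsClopen U) (hV : IsClopen V) (h : Disjoint U V)
    (x : X) : C.ms w (U ∪ V) x = C.ms w U x + C.ms w V x := by
  simp [ms, C.pj_union hU hV h, mul_add, add_mul]

lemma ms_mono (w : M) {U V : Set X} (hU : IsClopen U) (hV : IsClopen V) (h : U ⊆ V) (x : X) :
    C.ms w U x ≤ C.ms w V x := by
  rw [← Set.union_diff_cancel h, C.ms_union w hU (hV.diff hU) Set.disjoint_sdiff_right]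
  linarith [C.ms_nonneg w (V \ U) x]

lemma ms_pj (w : M) {U V : Set X} (hU : IsClopen U) (hV : IsClopen V) :
    C.ms (C.pj U * w) V = C.ms w (U ∩ V) := by
  ext x
  have : star (C.pj U * w) * C.pj V * (C.pj U * w) = star w * C.pj (U ∩ V) * w := by
    rw [star_mul, (C.pj_proj _).isSelfAdjoint.star_eq, mul_assoc (star w), C.pj_mul hU hV,
      ← mul_assoc, mul_assoc (star w), C.pj_mul (hU.inter hV) hU, Set.inter_comm (U ∩ V),
      ← Set.inter_assoc, Set.inter_self]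
  simp only [ms, this]

lemma SS_mono (w : M) {P Q : DiscreteQuotient X} (h : Q ≤ P) : C.SS w Q ≤ C.SS w P := by
  classical
  rw [SS_eq, SS_eq]
  refine C.τR_mono fun x => ?_
  simp only [ContinuousMap.sum_apply, ContinuousMap.pow_apply]
  rw [← sum_fiberwise univ (DiscreteQuotient.ofLE h)]
  refine sum_le_sum fun i _ => (sum_sq_le_sq_sum_of_nonneg fun _ _ => C.ms_nonneg _ _ _).trans_eq ?_
  rw [C.sum_ms Q.proj_isLocallyConstant]
  congr 3
  ext y
  simp

lemma SS_top (w : M) : C.SS w ⊤ = C.τR (C.ms w Set.univ ^ 2) := by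
  have h : ∀ i : (⊤ : DiscreteQuotient X), (⊤ : DiscreteQuotient X).proj ⁻¹' {i} = Set.univ :=
    fun i => Set.eq_univ_of_forall fun x => by
      obtain ⟨y, rfl⟩ := DiscreteQuotient.proj_surjective _ i
      exact Quotient.sound trivial
  rcases isEmpty_or_nonempty X with hX | ⟨⟨x⟩⟩
  · rw [SS_eq]
    congr 1
    ext x
    exact hX.elim x
  · have : Subsingleton (⊤ : DiscreteQuotient X) := ⟨fun i j => by
      have h1 : x ∈ _ := (h i).ge trivial
      have h2 : x ∈ _ := (h j).ge trivial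
      exact h1.symm.trans h2⟩
    rw [SS_eq, Fintype.sum_subsingleton _ ((⊤ : DiscreteQuotient X).proj x), h]

lemma SS_split (w : M) {P Q : DiscreteQuotient X} (h : Q ≤ P) :
    C.SS w Q = ∑ i : P, C.SS (C.pj (P.proj ⁻¹' {i}) * w) Q := by
  simp only [SS_eq, ← map_sum]
  congr 1
  rw [sum_comm]
  refine sum_congr rfl fun j _ => ?_
  simp only [C.ms_pj w (P.isClopen_preimage _) (Q.isClopen_preimage _)]
  rw [sum_eq_single (DiscreteQuotient.ofLE h j) (fun i _ hi => ?_) (by simp),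
    Set.inter_eq_right.mpr (DiscreteQuotient.fiber_subset_ofLE h j)]
  have : P.proj ⁻¹' {i} ∩ Q.proj ⁻¹' {j} = ∅ := Set.eq_empty_of_forall_notMem fun x hx =>
    hi (hx.1.symm.trans (DiscreteQuotient.fiber_subset_ofLE h j hx.2))
  ext x
  simp [this, ms, C.pj_empty]

lemma exists_piece {w : M} {c : ℝ} (hc : 0 < c) (h : ∀ P, c ≤ C.SS w P) :
    ∃ U, IsClopen U ∧ 0 < C.SS (C.pj U * w) ⊤ ∧
      ∀ P, 3 / 4 * C.SS (C.pj U * w) ⊤ ≤ C.SS (C.pj U * w) P := by
  by_contra! hn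
  have hb : BddBelow (Set.range (C.SS w)) := ⟨c, by rintro _ ⟨P, rfl⟩; exact h P⟩
  have h1 : c ≤ ⨅ P, C.SS w P := le_ciInf h
  obtain ⟨P, hP⟩ := exists_lt_of_ciInf_lt (show ⨅ P, C.SS w P < 4 / 3 * ⨅ P, C.SS w P by linarith)
  have h2 : ∀ i : P, ∃ Q, C.SS (C.pj (P.proj ⁻¹' {i}) * w) Q ≤
      3 / 4 * C.SS (C.pj (P.proj ⁻¹' {i}) * w) ⊤ := fun i => by
    rcases lt_or_ge 0 (C.SS (C.pj (P.proj ⁻¹' {i}) * w) ⊤) with h0 | h0
    · exact (hn _ (P.isClopen_preimage _) h0).imp fun _ => le_of_lt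
    · exact ⟨⊤, by linarith⟩
  choose Q hQ using h2
  have h3 := ciInf_le hb (P ⊓ univ.inf Q)
  have h4 : C.SS w (P ⊓ univ.inf Q) ≤ 3 / 4 * C.SS w P := by
    rw [C.SS_split w inf_le_left, SS, mul_sum]
    refine sum_le_sum fun i _ => (C.SS_mono _ (inf_le_right.trans (inf_le (mem_univ i)))).trans
      ((hQ i).trans_eq ?_)
    rw [SS_top, n2_ms, C.ms_pj w (P.isClopen_preimage _) isClopen_univ, Set.inter_univ]
  linarith

omit [TopologicalSpace X] [CompactSpace X] in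
lemma sum_proj {ι : Type*} (s : Finset ι) {e : ι → M} (he : ∀ i, IsStarProjection (e i))
    (ho : ∀ i j, i ≠ j → e i * e j = 0) : IsStarProjection (∑ i ∈ s, e i) := by
  classical
  induction s using Finset.induction_on with
  | empty => simpa using IsStarProjection.zero M
  | insert a s ha ih =>
    rw [sum_insert ha]
    exact (he a).add ih (by
      rw [mul_sum]
      exact sum_eq_zero fun j hj => ho _ _ fun h => ha (h ▸ hj))

omit [TopologicalSpace X] [CompactSpace X] in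
lemma norm_block_le {ι : Type*} (s : Finset ι) {e f : ι → M} (he : ∀ i, IsStarProjection (e i))
    (ho : ∀ i j, i ≠ j → e i * e j = 0) (hf : ∀ i, IsStarProjection (f i))
    (ho' : ∀ i j, i ≠ j → f i * f j = 0) (w : M) : ‖∑ i ∈ s, e i * w * f i‖ ≤ ‖w‖ := by
  let := CStarAlgebra.spectralOrder M
  have := CStarAlgebra.spectralOrderedRing M
  have h1 : star (∑ i ∈ s, e i * w * f i) * ∑ i ∈ s, e i * w * f i =
      ∑ i ∈ s, star (f i) * (star (e i * w) * (e i * w)) * f i := by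
    rw [star_sum, sum_mul]
    refine sum_congr rfl fun i hi => ?_
    rw [mul_sum, sum_eq_single i (fun j _ hj => ?_) (fun h => (h hi).elim)]
    · simp only [star_mul, mul_assoc]
    · rw [star_mul, star_mul, (he i).isSelfAdjoint.star_eq, mul_assoc, mul_assoc, mul_assoc,
        ← mul_assoc (e i), ho _ _ hj.symm]
      simp
  have h2 : ∑ i ∈ s, star (f i) * (star (e i * w) * (e i * w)) * f i ≤
      ‖w‖ ^ 2 • ∑ i ∈ s, f i := by
    rw [smul_sum]
    refine sum_le_sum fun i _ => (CStarAlgebra.star_left_conjugate_le_norm_smul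
      (IsSelfAdjoint.star_mul_self _)).trans ?_
    rw [(hf i).isSelfAdjoint.star_eq, (hf i).isIdempotentElem.eq, CStarRing.norm_star_mul_self,
      ← sq]
    exact smul_le_smul_of_nonneg_right (pow_le_pow_left₀ (norm_nonneg _)
      ((norm_mul_le_of_le (he i).norm_le le_rfl).trans_eq (one_mul _)) 2) (hf i).nonneg
  have h3 := CStarAlgebra.norm_le_norm_of_nonneg_of_le (star_mul_self_nonneg _) (h1.trans_le h2)
  rw [CStarRing.norm_star_mul_self, norm_smul, ← sq, norm_pow, norm_norm] at h3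
  exact abs_le_of_sq_le_sq' (h3.trans (mul_le_of_le_one_right (by positivity)
    (sum_proj s hf ho').norm_le)) (norm_nonneg _) |>.2

/-- Where `V` carries the majority of the mass. -/
def maj (w : M) (V : Set X) : Set X :=
  closure {x | 0 < (C.ms w V - (2⁻¹ : ℝ) • C.ms w Set.univ) x}

lemma le_of_mem_maj {w : M} {V : Set X} {x : X} (h : x ∈ C.maj w V) :
    C.ms w Set.univ x ≤ 2 * C.ms w V x := by
  have := closure_minimal (s := {x | 0 < (C.ms w V - (2⁻¹ : ℝ) • C.ms w Set.univ) x})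
    (t := {x | 0 ≤ (C.ms w V - (2⁻¹ : ℝ) • C.ms w Set.univ) x})
    (Set.setOf_subset_setOf.mpr fun x => le_of_lt) (isClosed_le continuous_const (map_continuous _)) h
  simp only [Set.mem_setOf_eq, ContinuousMap.sub_apply, ContinuousMap.smul_apply,
    smul_eq_mul] at this
  linarith

lemma le_of_notMem_maj {w : M} {V : Set X} {x : X} (h : x ∉ C.maj w V) :
    2 * C.ms w V x ≤ C.ms w Set.univ x := by
  have := mt (@subset_closure _ _ _ x) h
  simp only [Set.mem_setOf_eq, ContinuousMap.sub_apply, ContinuousMap.smul_apply,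
    smul_eq_mul] at this
  linarith

lemma maj_mono (w : M) {U V : Set X} (hU : IsClopen U) (hV : IsClopen V) (h : U ⊆ V) :
    C.maj w U ⊆ C.maj w V := closure_mono fun x hx => by
  simp only [Set.mem_setOf_eq, ContinuousMap.sub_apply] at hx ⊢
  linarith [C.ms_mono w hU hV h x]

variable [T2Space X]

lemma maj_clopen (w : M) (V : Set X) : IsClopen (C.maj w V) := C.isClopen_closure _

lemma pj_maj_mul (w : M) {U V : Set X} (hU : IsClopen U) (hV : IsClopen V) (h : Disjoint U V) :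
    C.pj (C.maj w U) * C.pj (C.maj w V) = 0 := by
  rw [C.pj_mul (C.maj_clopen _ _) (C.maj_clopen _ _), ← C.pj_empty, ← Disjoint.inter_eq]
  refine Disjoint.closure_right (Disjoint.closure_left (Set.disjoint_left.mpr fun x h1 h2 => ?_)
    (isOpen_lt continuous_const (map_continuous _))) (C.maj_clopen w U).isOpen
  simp only [Set.mem_setOf_eq, ContinuousMap.sub_apply, ContinuousMap.smul_apply,
    smul_eq_mul] at h1 h2
  linarith [C.ms_union w hU hV h x, C.ms_mono w (hU.union hV) isClopen_univ (Set.subset_univ _) x]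

/-- The part of `w` supported on the majority graph of `P`. -/
noncomputable def zz (w : M) (P : DiscreteQuotient X) : M :=
  ∑ i : P, C.pj (P.proj ⁻¹' {i}) * w * C.pj (C.maj w (P.proj ⁻¹' {i}))

omit [T2Space X] in
lemma pj_fib_mul (P : DiscreteQuotient X) {i j : P} (h : i ≠ j) :
    C.pj (P.proj ⁻¹' {i}) * C.pj (P.proj ⁻¹' {j}) = 0 := by
  rw [C.pj_mul (P.isClopen_preimage _) (P.isClopen_preimage _), ← C.pj_empty]
  congr 1
  exact Set.eq_empty_of_forall_notMem fun x hx => h (hx.1.symm.trans hx.2)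

lemma norm_zz (w : M) (P : DiscreteQuotient X) : ‖C.zz w P‖ ≤ ‖w‖ :=
  norm_block_le _ (fun _ => C.pj_proj _) (fun _ _ => C.pj_fib_mul P) (fun _ => C.pj_proj _)
    (fun _ _ h => C.pj_maj_mul w (P.isClopen_preimage _) (P.isClopen_preimage _)
      (Set.disjoint_left.mpr fun _ h1 h2 => h (h1.symm.trans h2))) w

lemma inner_zz (w : M) {P Q : DiscreteQuotient X} (h : Q ≤ P) :
    C.T.τ (star (C.zz w Q) * C.zz w P) = ∑ j : Q,
      C.T.τ (C.pj (C.maj w (Q.proj ⁻¹' {j})) * (star w * C.pj (Q.proj ⁻¹' {j}) * w)) := by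
  rw [zz, star_sum, sum_mul, map_sum]
  refine sum_congr rfl fun j _ => ?_
  have h1 := DiscreteQuotient.fiber_subset_ofLE h j
  rw [star_mul, star_mul, (C.pj_proj _).isSelfAdjoint.star_eq, (C.pj_proj _).isSelfAdjoint.star_eq,
    zz, mul_sum, sum_eq_single (DiscreteQuotient.ofLE h j) (fun i _ hi => ?_) (by simp)]
  · rw [← mul_assoc, C.T.comm, ← mul_assoc, ← mul_assoc, ← mul_assoc,
      C.pj_mul (C.maj_clopen _ _) (C.maj_clopen _ _), Set.inter_eq_right.mpr
        (C.maj_mono w (Q.isClopen_preimage _) (P.isClopen_preimage _) h1), mul_assoc _ (_ * _),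
      mul_assoc (star w), C.pj_mul (Q.isClopen_preimage _) (P.isClopen_preimage _),
      Set.inter_eq_left.mpr h1, mul_assoc]
  · have : Q.proj ⁻¹' {j} ∩ P.proj ⁻¹' {i} = ∅ := Set.eq_empty_of_forall_notMem fun x hx =>
      hi (hx.2.symm.trans (h1 hx.1))
    rw [mul_assoc, mul_assoc, mul_assoc, ← mul_assoc (C.pj (Q.proj ⁻¹' {j})),
      C.pj_mul (Q.isClopen_preimage _) (P.isClopen_preimage _), this, C.pj_empty]
    simp

lemma SS_le_zz (w : M) (P : DiscreteQuotient X) :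
    C.SS w P ≤ 2⁻¹ * C.SS w ⊤ + ‖C.ms w Set.univ‖ * C.T.n2 (C.zz w P) ^ 2 := by
  classical
  let g : C(X, ℂ) := ∑ j : P, ind (C.maj w (P.proj ⁻¹' {j})) *
    C.E (star w * C.pj (P.proj ⁻¹' {j}) * w)
  have h1 : C.T.n2 (C.zz w P) ^ 2 = C.τR ⟨fun x => (g x).re, by fun_prop⟩ := by
    rw [C.T.n2_sq, C.inner_zz w le_rfl, C.τR_apply _ g fun _ => rfl]
    simp only [g, map_sum, map_mul, C.tr, pj]
  rw [h1, SS_top, SS_eq, ← smul_eq_mul, ← smul_eq_mul, ← map_smul, ← map_smul, ← map_add]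
  refine C.τR_mono fun x => ?_
  have h2 : ∀ j : P, 0 ≤ C.ms w (P.proj ⁻¹' {j}) x := fun j => C.ms_nonneg _ _ _
  have h3 : ∑ j : P, C.ms w (P.proj ⁻¹' {j}) x = C.ms w Set.univ x := by
    simpa using C.sum_ms P.proj_isLocallyConstant univ w x
  have h4 : (g x).re = ∑ j : P, if x ∈ C.maj w (P.proj ⁻¹' {j}) then
      C.ms w (P.proj ⁻¹' {j}) x else 0 := by
    simp only [g, ContinuousMap.sum_apply, ContinuousMap.mul_apply, Complex.re_sum,
      ind_apply (C.maj_clopen _ _), E_eq_ms]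
    refine sum_congr rfl fun j _ => ?_
    split_ifs with h <;> simp [h]
  have h5 : C.ms w Set.univ x ≤ ‖C.ms w Set.univ‖ :=
    (le_abs_self _).trans ((C.ms w Set.univ).norm_coe_le_norm x)
  have h6 : ∀ j ∈ (univ : Finset P), 0 ≤ if x ∈ C.maj w (P.proj ⁻¹' {j}) then
      C.ms w (P.proj ⁻¹' {j}) x else 0 := fun j _ => ite_nonneg (h2 j) le_rfl
  simp only [ContinuousMap.sum_apply, ContinuousMap.pow_apply, ContinuousMap.add_apply,
    ContinuousMap.smul_apply, smul_eq_mul, ContinuousMap.coe_mk, h4]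
  have h0 := C.ms_nonneg w Set.univ x
  by_cases hx : ∃ j : P, x ∈ C.maj w (P.proj ⁻¹' {j})
  · obtain ⟨j, hj⟩ := hx
    have h7 := single_le_sum h6 (mem_univ j)
    rw [if_pos hj] at h7
    have h8 := sum_sq_le_sq_sum_of_nonneg (s := univ) fun j _ => h2 j
    rw [h3] at h8
    have h9 := C.le_of_mem_maj hj
    have := mul_le_mul h5 h7 (h2 j) (norm_nonneg _)
    nlinarith
  · have h7 : ∑ j : P, C.ms w (P.proj ⁻¹' {j}) x ^ 2 ≤
        ∑ j : P, 2⁻¹ * C.ms w Set.univ x * C.ms w (P.proj ⁻¹' {j}) x := sum_le_sum fun j _ => by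
      nlinarith [C.le_of_notMem_maj (not_exists.mp hx j), h2 j]
    rw [← mul_sum, h3] at h7
    nlinarith [mul_nonneg (norm_nonneg (C.ms w Set.univ)) (sum_nonneg h6)]

theorem exists_intertwiner {w : M} (h0 : 0 < C.SS w ⊤) (h : ∀ P, 3 / 4 * C.SS w ⊤ ≤ C.SS w P) :
    ∃ u, u ≠ 0 ∧ (∀ V, IsClopen V → ∃ V', IsClopen V' ∧ C.pj V * u = u * C.pj V') ∧
      (∀ f f', w * C.ι f = C.ι f' * w → u * C.ι f = C.ι f' * u) ∧
      ∀ y, (∀ f f', C.T.τ (y * (C.ι f * w * C.ι f')) = 0) → C.T.τ (y * u) = 0 := by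
  obtain ⟨u, hu⟩ := exists_net_lim C.fw (C.norm_zz w) fun P Q hQ => by
    rw [C.T.n2_sub_rev, C.T.n2_sub_sq, C.inner_zz w hQ, ← C.inner_zz w le_rfl, ← C.T.n2_sq]
    ring
  have key : ∀ (a b : M) (P₀ : DiscreteQuotient X), (∀ Q ≤ P₀, a * C.zz w Q = C.zz w Q * b) →
      a * u = u * b := fun a b P₀ hab => by
    refine sub_eq_zero.mp (C.fw.faithful _ ((C.T.n2_nonneg _).antisymm'
      (le_of_forall_pos_le_add fun ε hε => ?_)))
    obtain ⟨P, hP⟩ := hu (ε / (‖a‖ + ‖b‖ + 1)) (by positivity)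
    have h1 := hP (P ⊓ P₀) inf_le_left
    have h2 : a * u - u * b = (C.zz w (P ⊓ P₀) - u) * b - a * (C.zz w (P ⊓ P₀) - u) := by
      rw [sub_mul, mul_sub, hab _ inf_le_right]
      abel
    rw [lt_div_iff₀ (by positivity)] at h1
    have h3 := C.T.n2_mul_le a (C.zz w (P ⊓ P₀) - u)
    have h4 := C.T.n2_mul_le' (C.zz w (P ⊓ P₀) - u) b
    have h5 := C.T.n2_nonneg (C.zz w (P ⊓ P₀) - u)
    rw [h2]
    refine (C.T.n2_sub_le _ _).trans ?_
    nlinarith
  refine ⟨u, ?_, fun V hV => ⟨C.maj w V, C.maj_clopen _ _,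
    key _ _ (DiscreteQuotient.ofIsClopen hV) fun Q hQ => ?_⟩,
    fun f f' hf => (key _ _ ⊤ fun Q _ => ?_).symm, fun y hy => ?_⟩
  · rintro rfl
    obtain ⟨P, hP⟩ := hu √(C.SS w ⊤ / 4 / (‖C.ms w Set.univ‖ + 1)) (by positivity)
    have h1 := hP P le_rfl
    rw [sub_zero, Real.lt_sqrt (C.T.n2_nonneg _), lt_div_iff₀ (by positivity)] at h1
    nlinarith [h P, C.SS_le_zz w P, sq_nonneg (C.T.n2 (C.zz w P))]
  · rw [zz, mul_sum, sum_mul]
    refine sum_congr rfl fun j _ => ?_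
    obtain ⟨x, rfl⟩ := Q.proj_surjective j
    have h1 : ∀ y ∈ Q.proj ⁻¹' {Q.proj x}, y ∈ V ↔ x ∈ V := fun y hy =>
      hQ (Quotient.exact hy)
    rw [← mul_assoc, ← mul_assoc, C.pj_mul hV (Q.isClopen_preimage _)]
    by_cases hx : x ∈ V
    · have h2 : Q.proj ⁻¹' {Q.proj x} ⊆ V := fun y hy => (h1 y hy).mpr hx
      rw [Set.inter_eq_right.mpr h2, mul_assoc _ _ (C.pj (C.maj w V)),
        C.pj_mul (C.maj_clopen _ _) (C.maj_clopen _ _),
        Set.inter_eq_left.mpr (C.maj_mono w (Q.isClopen_preimage _) hV h2)]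
    · have h2 : Disjoint (Q.proj ⁻¹' {Q.proj x}) V :=
        Set.disjoint_left.mpr fun y hy hy' => hx ((h1 y hy).mp hy')
      rw [mul_assoc _ _ (C.pj (C.maj w V)), C.pj_maj_mul w (Q.isClopen_preimage _) hV h2,
        h2.symm.inter_eq, C.pj_empty]
      simp
  · rw [zz, mul_sum, sum_mul]
    refine sum_congr rfl fun j _ => ?_
    rw [pj, pj, ← mul_assoc, ← mul_assoc, C.ι_comm f', mul_assoc _ _ w, ← hf, mul_assoc,
      mul_assoc, C.ι_comm f]
    simp only [mul_assoc]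
  · refine norm_le_zero_iff.mp (le_of_forall_pos_le_add fun ε hε => ?_)
    obtain ⟨P, hP⟩ := hu (ε / (C.T.n2 y + 1)) (by have := C.T.n2_nonneg y; positivity)
    have h1 := hP P le_rfl
    have h2 : C.T.τ (y * u) = -C.T.τ (y * (C.zz w P - u)) := by
      have : C.T.τ (y * C.zz w P) = 0 := by
        rw [zz, mul_sum, map_sum]
        exact sum_eq_zero fun j _ => hy _ _
      rw [mul_sub, map_sub, this]
      simp
    have h3 := C.T.n2_nonneg y
    rw [lt_div_iff₀ (by positivity)] at h1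
    rw [h2, norm_neg]
    nlinarith [C.T.norm_τ_mul y (C.zz w P - u), C.T.n2_nonneg (C.zz w P - u)]

end Vale.Agent.P078.Ctx
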