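import Vale.Agent.P078.Defs
import Mathlib.Analysis.SpecialFunctions.Trigonometric.ArctanDeriv
import Mathlib.Analysis.SpecialFunctions.Trigonometric.Bounds
import Mathlib.Analysis.Complex.Convex
import Mathlib.Topology.ContinuousMap.Weierstrass
import Mathlib.Analysis.Calculus.MeanValue
import Mathlib.Analysis.Calculus.Deriv.Polynomial

/-! Interlacing from the Pick property. -/

namespace Vale.Agent.P078

open Finset

/-- `∏ (z - μ) / ∏ (z - ν)` has one more zero than poles and maps the upper half plane to itself. -/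
structure Il (μ ν : Multiset ℝ) : Prop where
  card : μ.card = ν.card + 1
  pick : ∀ z : ℂ, 0 < z.im →
    0 < ((μ.map fun t : ℝ => z - t).prod / (ν.map fun t : ℝ => z - t).prod).im

variable {μ ν : Multiset ℝ}

lemma arg_pos_of_im {w : ℂ} (hw : 0 < w.im) : 0 < Complex.arg w := by
  refine lt_of_le_of_ne (Complex.arg_nonneg_iff.2 hw.le) fun h => ?_
  exact hw.ne' (Complex.arg_eq_zero_iff.1 h.symm).2

lemma arg_lt_pi_of_im {w : ℂ} (hw : 0 < w.im) : Complex.arg w < Real.pi :=
  Complex.arg_lt_pi_iff.2 (Or.inr hw.ne')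

lemma arg_eq_arctan {w : ℂ} (hw : 0 < w.im) :
    Complex.arg w = Real.pi / 2 - Real.arctan (w.re / w.im) := by
  have h1 := arg_pos_of_im hw
  have h2 := arg_lt_pi_of_im hw
  have h3 : Real.tan (Real.pi / 2 - Complex.arg w) = w.re / w.im := by
    rw [Real.tan_pi_div_two_sub, Complex.tan_arg, inv_div]
  rw [← h3, Real.arctan_tan (by linarith) (by linarith)]
  ring

lemma arg_sub_eq {w : ℂ} (hw : 0 < w.im) (t : ℝ) :
    Complex.arg (w - t) = Real.pi / 2 - Real.arctan ((w.re - t) / w.im) := by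
  rw [arg_eq_arctan (by simpa using hw)]
  simp

lemma arctan_le_self' {x : ℝ} (hx : 0 ≤ x) : Real.arctan x ≤ x := by
  have := Real.le_tan (Real.arctan_nonneg.2 hx) (Real.arctan_lt_pi_div_two x)
  rwa [Real.tan_arctan] at this

lemma abs_arctan_le' (x : ℝ) : |Real.arctan x| ≤ |x| := by
  rcases le_total 0 x with hx | hx
  · rw [abs_of_nonneg hx, abs_of_nonneg (Real.arctan_nonneg.2 hx)]
    exact arctan_le_self' hx
  · have := arctan_le_self' (neg_nonneg.2 hx)
    rw [Real.arctan_neg] at this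
    rwa [abs_of_nonpos hx, abs_of_nonpos (Real.arctan_le_zero.2 hx)]

lemma sub_ne_zero_of_im {z : ℂ} (hz : 0 < z.im) (t : ℝ) : z - t ≠ 0 := fun h => by
  have := congrArg Complex.im h
  simp at this
  exact hz.ne' this

lemma prod_sub_ne_zero (a : Multiset ℝ) {z : ℂ} (hz : 0 < z.im) :
    (a.map fun t : ℝ => z - t).prod ≠ 0 := by
  refine Multiset.prod_ne_zero fun h => ?_
  obtain ⟨t, -, ht⟩ := Multiset.mem_map.1 h
  exact sub_ne_zero_of_im hz t ht

lemma arg_prod_angle (a : Multiset ℝ) {z : ℂ} (hz : 0 < z.im) :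
    ((Complex.arg (a.map fun t : ℝ => z - t).prod : ℝ) : Real.Angle) =
      (((a.map fun t : ℝ => Complex.arg (z - t)).sum : ℝ) : Real.Angle) := by
  induction a using Multiset.induction_on with
  | empty => simp
  | cons t a ih =>
    rw [Multiset.map_cons, Multiset.prod_cons, Multiset.map_cons, Multiset.sum_cons,
      Complex.arg_mul_coe_angle (sub_ne_zero_of_im hz t) (prod_sub_ne_zero a hz), ih,
      Real.Angle.coe_add]

lemma continuousOn_sum_arg (a : Multiset ℝ) :
    ContinuousOn (fun z : ℂ => (a.map fun t : ℝ => Complex.arg (z - t)).sum) {z | 0 < z.im} := by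
  refine continuousOn_multiset_sum a fun t _ z hz => ?_
  refine ContinuousAt.continuousWithinAt ?_
  refine ContinuousAt.comp (f := fun z : ℂ => z - t) (Complex.continuousAt_arg ?_) (by fun_prop)
  refine Or.inr ?_
  have hz' : 0 < z.im := hz
  simpa using hz'.ne'

lemma sum_arg_near (a : Multiset ℝ) {y : ℝ} (hy : 0 < y) :
    |(a.map fun t : ℝ => Complex.arg ((y * Complex.I) - t)).sum - a.card * (Real.pi / 2)| ≤
      (a.map fun t => |t|).sum / y := by
  induction a using Multiset.induction_on with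
  | empty => simp
  | cons t a ih =>
    have hz : 0 < ((y : ℂ) * Complex.I).im := by simpa using hy
    rw [Multiset.map_cons, Multiset.sum_cons, Multiset.map_cons, Multiset.sum_cons,
      Multiset.card_cons, arg_sub_eq hz, add_div]
    have h1 := abs_arctan_le' ((((y : ℂ) * Complex.I).re - t) / ((y : ℂ) * Complex.I).im)
    have h2 : |(((y : ℂ) * Complex.I).re - t) / ((y : ℂ) * Complex.I).im| = |t| / y := by
      simp [abs_div, abs_of_pos hy]
    rw [h2] at h1
    rw [abs_le] at h1 ih ⊢
    push_cast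
    constructor <;> linarith [h1.1, h1.2, ih.1, ih.2]

lemma Il.arg_eq (h : Il μ ν) {z : ℂ} (hz : 0 < z.im) :
    Complex.arg ((μ.map fun t : ℝ => z - t).prod / (ν.map fun t : ℝ => z - t).prod) =
      (μ.map fun t : ℝ => Complex.arg (z - t)).sum - (ν.map fun t : ℝ => Complex.arg (z - t)).sum := by
  set F : ℂ → ℝ := fun z => (μ.map fun t : ℝ => Complex.arg (z - t)).sum -
    (ν.map fun t : ℝ => Complex.arg (z - t)).sum -
    Complex.arg ((μ.map fun t : ℝ => z - t).prod / (ν.map fun t : ℝ => z - t).prod) with hF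
  have hpi := Real.pi_pos
  have hint : ∀ z : ℂ, 0 < z.im → ∃ k : ℤ, F z = 2 * Real.pi * k := fun z hz => by
    refine Real.Angle.angle_eq_iff_two_pi_dvd_sub.1 ?_
    rw [Complex.arg_div_coe_angle (prod_sub_ne_zero μ hz) (prod_sub_ne_zero ν hz),
      arg_prod_angle μ hz, arg_prod_angle ν hz, Real.Angle.coe_sub]
  have hc : ContinuousOn F {z | 0 < z.im} := by
    refine ((continuousOn_sum_arg μ).sub (continuousOn_sum_arg ν)).sub fun z hz => ?_
    refine ContinuousAt.continuousWithinAt ?_
    refine ContinuousAt.comp (f := fun z : ℂ =>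
      (μ.map fun t : ℝ => z - t).prod / (ν.map fun t : ℝ => z - t).prod)
      (Complex.continuousAt_arg (Or.inr (h.pick z hz).ne')) ?_
    refine ContinuousAt.div ?_ ?_ (prod_sub_ne_zero ν hz)
    · exact (continuous_multiset_prod μ fun t _ => by fun_prop).continuousAt
    · exact (continuous_multiset_prod ν fun t _ => by fun_prop).continuousAt
  have hμ : 0 ≤ (μ.map fun t => |t|).sum :=
    Multiset.sum_nonneg fun x hx => by
      obtain ⟨t, -, rfl⟩ := Multiset.mem_map.1 hx
      exact abs_nonneg t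
  have hν : 0 ≤ (ν.map fun t => |t|).sum :=
    Multiset.sum_nonneg fun x hx => by
      obtain ⟨t, -, rfl⟩ := Multiset.mem_map.1 hx
      exact abs_nonneg t
  set y : ℝ := (μ.map fun t => |t|).sum + (ν.map fun t => |t|).sum + 1 with hy
  have hy0 : 0 < y := by positivity
  have hz0 : 0 < ((y : ℂ) * Complex.I).im := by simpa using hy0
  have h0 : F (y * Complex.I) = 0 := by
    obtain ⟨k, hk⟩ := hint _ hz0
    have h1 := sum_arg_near μ hy0
    have h2 := sum_arg_near ν hy0
    have h3 : (μ.map fun t => |t|).sum / y ≤ 1 := by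
      rw [div_le_one hy0]; linarith
    have h4 : (ν.map fun t => |t|).sum / y ≤ 1 := by
      rw [div_le_one hy0]; linarith
    have h5 := arg_pos_of_im (h.pick _ hz0)
    have h6 := arg_lt_pi_of_im (h.pick _ hz0)
    have h7 : (μ.card : ℝ) = ν.card + 1 := by rw [h.card]; push_cast; ring
    rw [h7, abs_le] at h1
    rw [abs_le] at h2
    have h8 := Real.two_le_pi
    have h9 : F (y * Complex.I) < 2 * Real.pi * 1 := by
      simp only [hF]; linarith [h1.1, h1.2, h2.1, h2.2]
    have h10 : 2 * Real.pi * (-1) < F (y * Complex.I) := by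
      simp only [hF]; linarith [h1.1, h1.2, h2.1, h2.2]
    rw [hk] at h9 h10
    have h11 : (k : ℝ) < 1 := lt_of_mul_lt_mul_left h9 (by positivity)
    have h12 : (-1 : ℝ) < k := lt_of_mul_lt_mul_left h10 (by positivity)
    have h13 : k < 1 := by exact_mod_cast h11
    have h14 : -1 < k := by exact_mod_cast h12
    have : k = 0 := by omega
    rw [hk, this]; simp
  have hodd : ∀ z : ℂ, 0 < z.im → ∀ s : ℤ, (s = 1 ∨ s = -1) → F z ≠ Real.pi * s := by
    intro z hz s hs he
    obtain ⟨k, hk⟩ := hint z hz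
    rw [hk] at he
    have h1 : (2 * k : ℝ) = s := mul_left_cancel₀ hpi.ne' (by linarith)
    have h2 : 2 * k = s := by exact_mod_cast h1
    omega
  have hconn : IsPreconnected {z : ℂ | 0 < z.im} := (convex_halfSpace_im_gt 0).isPreconnected
  have hz1 : F z = 0 := by
    obtain ⟨k, hk⟩ := hint z hz
    rcases lt_trichotomy k 0 with hk0 | hk0 | hk0
    · have hk1 : (k : ℝ) ≤ -1 := by exact_mod_cast (by omega : k ≤ -1)
      obtain ⟨z', hz', he⟩ := hconn.intermediate_value hz hz0 hc
        (show Real.pi * ((-1 : ℤ) : ℝ) ∈ Set.Icc (F z) (F (y * Complex.I)) by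
          rw [hk, h0]; push_cast; constructor <;> nlinarith)
      exact absurd he (hodd z' hz' (-1) (Or.inr rfl))
    · rw [hk, hk0]; simp
    · have hk1 : (1 : ℝ) ≤ k := by exact_mod_cast (by omega : 1 ≤ k)
      obtain ⟨z', hz', he⟩ := hconn.intermediate_value hz0 hz hc
        (show Real.pi * ((1 : ℤ) : ℝ) ∈ Set.Icc (F (y * Complex.I)) (F z) by
          rw [hk, h0]; push_cast; constructor <;> nlinarith)
      exact absurd he (hodd z' hz' 1 (Or.inl rfl))
  simp only [hF] at hz1
  linarith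

open Filter Topology in
lemma tendsto_arg_path (t r : ℝ) :
    Tendsto (fun y : ℝ => Complex.arg ((⟨t + 1 / y, 1 / y ^ 2⟩ : ℂ) - r)) atTop
      (𝓝 (if t < r then Real.pi else 0)) := by
  have he : ∀ᶠ y : ℝ in atTop, Real.pi / 2 - Real.arctan ((t - r) * y ^ 2 + y) =
      Complex.arg ((⟨t + 1 / y, 1 / y ^ 2⟩ : ℂ) - r) := by
    filter_upwards [eventually_gt_atTop 0] with y hy
    rw [arg_sub_eq (by show 0 < 1 / y ^ 2; positivity)]
    have : (t + 1 / y - r) / (1 / y ^ 2) = (t - r) * y ^ 2 + y := by field_simp; ring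
    simp only [this]
  refine Tendsto.congr' he ?_
  split_ifs with htr
  · have h1 : Tendsto (fun y : ℝ => (t - r) * y ^ 2 + y) atTop atBot := by
      refine tendsto_atBot_mono' atTop ?_ tendsto_neg_atTop_atBot
      filter_upwards [eventually_ge_atTop (2 / (r - t)), eventually_gt_atTop 0] with y hy hy0
      rw [div_le_iff₀ (by linarith)] at hy
      nlinarith
    have h2 := ((Real.tendsto_arctan_atBot.mono_right nhdsWithin_le_nhds).comp h1).const_sub
      (Real.pi / 2)
    have h3 : Real.pi / 2 - -(Real.pi / 2) = Real.pi := by ring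
    rw [h3] at h2
    exact h2
  · have h1 : Tendsto (fun y : ℝ => (t - r) * y ^ 2 + y) atTop atTop := by
      refine tendsto_atTop_mono (fun y => ?_) tendsto_id
      have : 0 ≤ (t - r) * y ^ 2 := mul_nonneg (by linarith [not_lt.1 htr]) (sq_nonneg y)
      simp only [id]; linarith
    have h2 := ((Real.tendsto_arctan_atTop.mono_right nhdsWithin_le_nhds).comp h1).const_sub
      (Real.pi / 2)
    rw [sub_self] at h2
    exact h2

lemma sum_ite_count (a : Multiset ℝ) (t : ℝ) :
    (a.map fun r => if t < r then Real.pi else 0).sum = Real.pi * (a.filter (t < ·)).card := by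
  induction a using Multiset.induction_on with
  | empty => simp
  | cons r a ih =>
    rw [Multiset.map_cons, Multiset.sum_cons, ih]
    by_cases h : t < r
    · rw [Multiset.filter_cons_of_pos _ (p := (t < ·)) h, if_pos h, Multiset.card_cons]
      push_cast; ring
    · rw [Multiset.filter_cons_of_neg _ (p := (t < ·)) h, if_neg h, zero_add]

open Filter Topology in
lemma Il.count_mem (h : Il μ ν) (t : ℝ) :
    Real.pi * (μ.filter (t < ·)).card - Real.pi * (ν.filter (t < ·)).card ∈ Set.Icc 0 Real.pi := by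
  have h1 := (tendsto_multiset_sum μ fun r _ => tendsto_arg_path t r).sub
    (tendsto_multiset_sum ν fun r _ => tendsto_arg_path t r)
  rw [sum_ite_count, sum_ite_count] at h1
  refine isClosed_Icc.mem_of_tendsto h1 ?_
  filter_upwards [eventually_gt_atTop 0] with y hy
  have hz : 0 < (⟨t + 1 / y, 1 / y ^ 2⟩ : ℂ).im := by show 0 < 1 / y ^ 2; positivity
  rw [← h.arg_eq hz]
  exact ⟨(arg_pos_of_im (h.pick _ hz)).le, (arg_lt_pi_of_im (h.pick _ hz)).le⟩

lemma Il.count_le (h : Il μ ν) (t : ℝ) : (ν.filter (t < ·)).card ≤ (μ.filter (t < ·)).card := by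
  have h1 := (h.count_mem t).1
  have h2 : ((ν.filter (t < ·)).card : ℝ) ≤ (μ.filter (t < ·)).card :=
    le_of_mul_le_mul_left (by linarith) Real.pi_pos
  exact_mod_cast h2

lemma Il.le_count (h : Il μ ν) (t : ℝ) :
    (μ.filter (t < ·)).card ≤ (ν.filter (t < ·)).card + 1 := by
  have h1 := (h.count_mem t).2
  have h2 : ((μ.filter (t < ·)).card : ℝ) ≤ (ν.filter (t < ·)).card + 1 :=
    le_of_mul_le_mul_left (by linarith) Real.pi_pos
  exact_mod_cast h2

lemma count_eq_zero {a : Multiset ℝ} {t : ℝ} (h : ∀ r ∈ a, r ≤ t) :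
    (a.filter (t < ·)).card = 0 := by
  rw [Multiset.card_eq_zero, Multiset.filter_eq_nil]
  exact fun r hr => not_lt.2 (h r hr)

lemma count_eq_card {a : Multiset ℝ} {t : ℝ} (h : ∀ r ∈ a, t < r) :
    (a.filter (t < ·)).card = a.card := by
  rw [Multiset.filter_eq_self.2 h]

lemma count_pos {a : Multiset ℝ} {t r : ℝ} (hr : r ∈ a) (h : t < r) :
    0 < (a.filter (t < ·)).card :=
  Multiset.card_pos_iff_exists_mem.2 ⟨r, Multiset.mem_filter.2 ⟨hr, h⟩⟩

lemma count_cons_pos (a : Multiset ℝ) {t r : ℝ} (h : t < r) :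
    ((r ::ₘ a).filter (t < ·)).card = (a.filter (t < ·)).card + 1 := by
  rw [Multiset.filter_cons_of_pos _ (p := (t < ·)) h, Multiset.card_cons]

lemma count_cons_neg (a : Multiset ℝ) {t r : ℝ} (h : r ≤ t) :
    ((r ::ₘ a).filter (t < ·)).card = (a.filter (t < ·)).card := by
  rw [Multiset.filter_cons_of_neg _ (p := (t < ·)) (not_lt.2 h)]

/-- Stochastic domination. -/
lemma sum_le_of_count {a b : Multiset ℝ} (hc : a.card = b.card)
    (h : ∀ t, (a.filter (t < ·)).card ≤ (b.filter (t < ·)).card) {s : Set ℝ} (ha : ∀ t ∈ a, t ∈ s)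
    (hb : ∀ t ∈ b, t ∈ s) {D : ℝ → ℝ} (hD : MonotoneOn D s) : (a.map D).sum ≤ (b.map D).sum := by
  induction hn : a.card generalizing a b with
  | zero =>
    rw [Multiset.card_eq_zero.1 hn, Multiset.card_eq_zero.1 (hc.symm.trans hn)]
  | succ n ih =>
    have ha0 : a ≠ 0 := fun e => by simp [e] at hn
    have hb0 : b ≠ 0 := fun e => by rw [hc] at hn; simp [e] at hn
    obtain ⟨x, hx, hxm⟩ := Multiset.exists_max_image (fun r : ℝ => r) ha0
    obtain ⟨y, hy, hym⟩ := Multiset.exists_max_image (fun r : ℝ => r) hb0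
    obtain ⟨a', rfl⟩ := Multiset.exists_cons_of_mem hx
    obtain ⟨b', rfl⟩ := Multiset.exists_cons_of_mem hy
    have hxy : x ≤ y := by
      by_contra hlt
      have h1 := h y
      have h2 := count_pos hx (not_le.1 hlt)
      rw [count_eq_zero hym] at h1
      omega
    rw [Multiset.card_cons] at hn
    rw [Multiset.card_cons, Multiset.card_cons] at hc
    have h1 := ih (a := a') (b := b') (by omega) (fun t => ?_)
      (fun t ht => ha t (Multiset.mem_cons_of_mem ht))
      (fun t ht => hb t (Multiset.mem_cons_of_mem ht)) (by omega)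
    · rw [Multiset.map_cons, Multiset.sum_cons, Multiset.map_cons, Multiset.sum_cons]
      exact add_le_add (hD (ha x hx) (hb y hy) hxy) h1
    · rcases lt_or_ge t x with ht | ht
      · have h2 := h t
        rw [count_cons_pos _ ht, count_cons_pos _ (ht.trans_le hxy)] at h2
        omega
      · rw [count_eq_zero fun r hr => (hxm r (Multiset.mem_cons_of_mem hr)).trans ht]
        exact Nat.zero_le _

/-- The poles lie between the zeros. -/
lemma Il.mem_Icc (h : Il μ ν) {l u : ℝ} (hμ : ∀ t ∈ μ, t ∈ Set.Icc l u) :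
    ∀ t ∈ ν, t ∈ Set.Icc l u := by
  intro t ht
  constructor
  · by_contra hlt
    have h1 := h.le_count t
    obtain ⟨ν', rfl⟩ := Multiset.exists_cons_of_mem ht
    rw [count_eq_card fun r hr => (not_le.1 hlt).trans_le (hμ r hr).1, h.card,
      count_cons_neg _ le_rfl, Multiset.card_cons] at h1
    have h2 := Multiset.card_le_card (Multiset.filter_le (t < ·) ν')
    omega
  · by_contra hlt
    have h1 := h.count_le u
    have h2 := count_pos ht (not_le.1 hlt)
    rw [count_eq_zero fun r hr => (hμ r hr).2] at h1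
    omega

lemma Il.le_of_mem (h : Il μ ν) {l u : ℝ} (hμ : ∀ t ∈ μ, t ∈ Set.Icc l u) : l ≤ u := by
  obtain ⟨t, ht⟩ := Multiset.card_pos_iff_exists_mem.1 (by rw [h.card]; omega : 0 < μ.card)
  exact (hμ t ht).1.trans (hμ t ht).2

lemma Il.lower (h : Il μ ν) {l u : ℝ} (hμ : ∀ t ∈ μ, t ∈ Set.Icc l u) {D : ℝ → ℝ}
    (hD : MonotoneOn D (Set.Icc l u)) : (ν.map D).sum + D l ≤ (μ.map D).sum := by
  have h1 := sum_le_of_count (a := l ::ₘ ν) (b := μ) (by rw [Multiset.card_cons, h.card])
    (fun t => ?_) (fun t ht => ?_) hμ hD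
  · rw [Multiset.map_cons, Multiset.sum_cons] at h1
    linarith
  · rcases lt_or_ge t l with ht | ht
    · rw [count_eq_card (a := μ) fun r hr => ht.trans_le (hμ r hr).1, h.card,
        ← Multiset.card_cons l]
      exact Multiset.card_le_card (Multiset.filter_le _ _)
    · rw [count_cons_neg _ ht]
      exact h.count_le t
  · rcases Multiset.mem_cons.1 ht with rfl | ht
    · exact ⟨le_rfl, h.le_of_mem hμ⟩
    · exact h.mem_Icc hμ t ht

lemma Il.upper (h : Il μ ν) {l u : ℝ} (hμ : ∀ t ∈ μ, t ∈ Set.Icc l u) {D : ℝ → ℝ}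
    (hD : MonotoneOn D (Set.Icc l u)) : (μ.map D).sum ≤ (ν.map D).sum + D u := by
  have h1 := sum_le_of_count (a := μ) (b := u ::ₘ ν) (by rw [Multiset.card_cons, h.card])
    (fun t => ?_) hμ (fun t ht => ?_) hD
  · rw [Multiset.map_cons, Multiset.sum_cons] at h1
    linarith
  · rcases lt_or_ge t u with ht | ht
    · rw [count_cons_pos _ ht]
      exact h.le_count t
    · rw [count_eq_zero fun r hr => (hμ r hr).2.trans ht]
      exact Nat.zero_le _
  · rcases Multiset.mem_cons.1 ht with rfl | ht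
    · exact ⟨h.le_of_mem hμ, le_rfl⟩
    · exact h.mem_Icc hμ t ht

lemma Il.near (h : Il μ ν) (hμ : ∀ t ∈ μ, t ∈ Set.Icc (-1 : ℝ) 1) {Q : Polynomial ℝ} {w : ℂ}
    (hw : 0 < w.im) {tol : ℝ} (hQ : QF Q w tol) :
    |(μ.map Q.eval).sum - (ν.map Q.eval).sum -
      Complex.arg ((μ.map fun t : ℝ => w - t).prod / (ν.map fun t : ℝ => w - t).prod)| ≤ 3 * tol := by
  have ht : 0 ≤ tol := (abs_nonneg _).trans (hQ.near 1 ⟨by norm_num, le_rfl⟩)
  have hD : MonotoneOn (fun t : ℝ => Q.eval t - Complex.arg (w - t) + tol * t)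
      (Set.Icc (-1 : ℝ) 1) := fun s hs t ht' hst => by
    have h1 := hQ.lip s hs t ht'
    rw [abs_of_nonneg (sub_nonneg.2 hst), abs_le] at h1
    simp only
    linarith [h1.1]
  have hs : ∀ a : Multiset ℝ, (a.map fun t : ℝ => Q.eval t - Complex.arg (w - t) + tol * t).sum =
      (a.map Q.eval).sum - (a.map fun t : ℝ => Complex.arg (w - t)).sum +
        tol * (a.map fun t => t).sum := fun a => by
    rw [Multiset.sum_map_add, Multiset.sum_map_sub, Multiset.sum_map_mul_left]
  have h1 := h.lower hμ hD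
  have h2 := h.upper hμ hD
  have h3 := h.lower hμ (D := fun t => t) (fun _ _ _ _ e => e)
  have h4 := h.upper hμ (D := fun t => t) (fun _ _ _ _ e => e)
  have h5 := abs_le.1 (hQ.near 1 ⟨by norm_num, le_rfl⟩)
  have h6 := abs_le.1 (hQ.near (-1) ⟨le_rfl, by norm_num⟩)
  rw [hs, hs] at h1 h2
  have h7 := mul_le_mul_of_nonneg_left h3 ht
  have h8 := mul_le_mul_of_nonneg_left h4 ht
  rw [h.arg_eq hw, abs_le]
  constructor <;> linarith [h5.1, h5.2, h6.1, h6.2]

lemma arg_sub_monotone {w : ℂ} (hw : 0 < w.im) : Monotone fun t : ℝ => Complex.arg (w - t) := by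
  intro s t hst
  simp only [arg_sub_eq hw]
  have : Real.arctan ((w.re - t) / w.im) ≤ Real.arctan ((w.re - s) / w.im) :=
    Real.arctan_le_arctan_iff.2 (div_le_div_of_nonneg_right (by linarith) hw.le)
  linarith

lemma exists_antiderivative (p : Polynomial ℝ) : ∃ q : Polynomial ℝ, q.derivative = p := by
  induction p using Polynomial.induction_on' with
  | add p q hp hq =>
    obtain ⟨p', rfl⟩ := hp
    obtain ⟨q', rfl⟩ := hq
    exact ⟨p' + q', by simp⟩
  | monomial n a =>
    refine ⟨Polynomial.monomial (n + 1) (a / (n + 1)), ?_⟩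
    rw [Polynomial.derivative_monomial_succ, div_mul_cancel₀ _ (by positivity)]

lemma exists_QF {w : ℂ} (hw : 0 < w.im) {tol : ℝ} (ht : 0 < tol) : ∃ Q, QF Q w tol := by
  set F' : ℝ → ℝ := fun t => 1 / (1 + ((w.re - t) / w.im) ^ 2) / w.im with hF'
  have hd : ∀ t : ℝ, HasDerivAt (fun t : ℝ => Complex.arg (w - t)) (F' t) t := fun t => by
    have h1 : HasDerivAt (fun t : ℝ => (w.re - t) / w.im) (-1 / w.im) t :=
      ((hasDerivAt_id t).const_sub w.re).div_const w.im
    have h2 := h1.arctan.const_sub (Real.pi / 2)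
    simp only [arg_sub_eq hw]
    refine h2.congr_deriv ?_
    simp only [hF']; ring
  have hc : Continuous F' := by
    refine Continuous.div_const (Continuous.div continuous_const (by fun_prop) fun t => ?_) _
    positivity
  obtain ⟨p, hp⟩ := exists_polynomial_near_of_continuousOn (-1) 1 F' hc.continuousOn (tol / 2)
    (by positivity)
  obtain ⟨q, rfl⟩ := exists_antiderivative p
  set Q := q + Polynomial.C (Complex.arg (w - ((-1 : ℝ) : ℂ)) - q.eval (-1)) with hQ
  have hQ' : Q.derivative = q.derivative := by simp [hQ]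
  have key : ∀ s ∈ Set.Icc (-1 : ℝ) 1, ∀ t ∈ Set.Icc (-1 : ℝ) 1,
      |(Q.eval t - Complex.arg (w - t)) - (Q.eval s - Complex.arg (w - s))| ≤ tol / 2 * |t - s| := by
    intro s hs t ht'
    exact (convex_Icc (-1 : ℝ) 1).norm_image_sub_le_of_norm_hasDerivWithin_le
      (f := fun t : ℝ => Q.eval t - Complex.arg (w - t))
      (f' := fun t : ℝ => Q.derivative.eval t - F' t)
      (fun x _ => ((Q.hasDerivAt x).sub (hd x)).hasDerivWithinAt)
      (fun x hx => by rw [hQ']; exact (hp x hx).le) hs ht'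
  refine ⟨Q, fun t ht' => ?_, fun s hs t ht' => (key s hs t ht').trans ?_⟩
  · have h1 := key (-1) ⟨le_rfl, by norm_num⟩ t ht'
    have h2 : Q.eval (-1) - Complex.arg (w - ((-1 : ℝ) : ℂ)) = 0 := by
      rw [hQ, Polynomial.eval_add, Polynomial.eval_C]; ring
    rw [h2, sub_zero, abs_of_nonneg (by linarith [ht'.1] : 0 ≤ t - -1)] at h1
    nlinarith [ht'.2]
  · exact mul_le_mul_of_nonneg_right (by linarith) (abs_nonneg _)

/-- Some term has argument at most that of the average. -/
lemma exists_arg_le {κ : Type*} [Fintype κ] [Nonempty κ] {h : κ → ℂ} (hh : ∀ c, 0 < (h c).im) :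
    ∃ c, Complex.arg (h c) ≤ Complex.arg ((∑ c, h c) / Fintype.card κ) := by
  by_contra hn
  push Not at hn
  have hk : (0 : ℝ) < Fintype.card κ := by exact_mod_cast Fintype.card_pos
  have hs : 0 < ∑ c, (h c).im := sum_pos (fun c _ => hh c) univ_nonempty
  have him : ((∑ c, h c) / Fintype.card κ).im = (∑ c, (h c).im) / Fintype.card κ := by
    rw [Complex.div_natCast_im, Complex.im_sum]
  have hre : ((∑ c, h c) / Fintype.card κ).re = (∑ c, (h c).re) / Fintype.card κ := by
    rw [Complex.div_natCast_re, Complex.re_sum]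
  have h1 : ∀ c, (h c).re < (∑ c, (h c).re) / (∑ c, (h c).im) * (h c).im := fun c => by
    have h2 := hn c
    rw [arg_eq_arctan (hh c), arg_eq_arctan (by rw [him]; positivity), him, hre,
      div_div_div_cancel_right₀ hk.ne'] at h2
    rw [← div_lt_iff₀ (hh c)]
    exact Real.arctan_lt_arctan_iff.1 (by linarith)
  have h3 := sum_lt_sum_of_nonempty (univ_nonempty (α := κ)) fun c _ => h1 c
  rw [← mul_sum, div_mul_cancel₀ _ hs.ne'] at h3
  exact lt_irrefl _ h3

lemma arg_le_div {a η : ℝ} (ha : 0 < a) (hη : 0 < η) :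
    Complex.arg (a + η * Complex.I) ≤ η / a := by
  have h1 : ((a : ℂ) + η * Complex.I).im = η := by simp
  have h2 : ((a : ℂ) + η * Complex.I).re = a := by simp
  rw [arg_eq_arctan (by rwa [h1]), h1, h2, ← Real.arctan_inv_of_pos (by positivity), inv_div]
  exact arctan_le_self' (by positivity)

end Vale.Agent.P078
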