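import Vale.Agent.P078.Grd
import Vale.Agent.P078.Core

/-! Local paving of the kernel. -/

namespace Vale.Agent.P078

open Finset
open scoped ComplexConjugate Pointwise

variable {G X : Type*} [Group G] [TopologicalSpace X] [MulAction G X] [DecidableEq G]
  [DecidableEq X] [T2Space X] [ContinuousConstSMul G X] [CompactSpace X]
  [TotallyDisconnectedSpace X]

omit [T2Space X] [ContinuousConstSMul G X] [CompactSpace X] [TotallyDisconnectedSpace X] in
lemma LS.dens_cluster (L : LS G X) {m : ℕ} {κ : Type*} [Fintype κ] [DecidableEq κ]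
    (Q : Polynomial ℝ) {U : Set X} (hs : L.Sep (2 * m + 1) U) (q : X → κ × Bool → ℝ) {x y : X}
    (hx : x ∈ U) (hy : y ∈ L.ball m x) :
    L.dens Q ({y | ∃ x ∈ U, y ∈ L.ball m x}.indicator q) y =
      phi Q (cc (pm L.Y) q) (L.ball m x) y := by
  set W := {y | ∃ x ∈ U, y ∈ L.ball m x} with hW
  have h1 := LS.phi_ball (L := L) (Q := Q) (q := W.indicator q)
    (L.ball m x ∪ L.ball (Q.natDegree + 1) y) y
  rw [union_inter_cancel_right] at h1
  rw [LS.dens, ← h1, phi_local (Λ' := L.ball m x)
    (d := fun u => if u ∈ L.ball m x then 0 else Q.natDegree + 2) cc_empty (if_pos hy) ?_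
    subset_union_left fun u _ hu => by rw [if_neg hu]; omega]
  · refine phi_congr fun S hS => cc_congr (fun v hv => ?_) fun _ _ _ _ _ => rfl
    exact Set.indicator_of_mem (show v ∈ W from ⟨x, hx, hS hv⟩) _
  · intro S _ T _ h
    by_cases hT : ∃ b ∈ T, b ∉ W
    · obtain ⟨b, hb, hbW⟩ := hT
      rw [cc_zero (mem_union_right _ hb) (Set.indicator_of_notMem hbW _),
        cc_zero hb (Set.indicator_of_notMem hbW _), mul_zero]
    · push Not at hT
      have key : ∀ a ∈ S, ∀ b ∈ T, a ∈ L.ball m x ∧ b ∉ L.ball m x := by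
        intro a ha b hb
        have := h a ha b hb
        by_cases h1 : a ∈ L.ball m x <;> by_cases h2 : b ∈ L.ball m x <;>
          simp only [h1, h2, if_true, if_false] at this <;> first | omega | exact ⟨h1, h2⟩
      refine cc_union (disjoint_left.2 fun a ha hb => (key a ha a hb).2 (key a ha a hb).1)
        fun j a ha b hb => ?_
      have h0 : L.Y a b = 0 := by
        by_contra hne
        obtain ⟨x', hx', hb'⟩ := hT b hb
        have h2 := LS.ball_trans (LS.ball_trans hb' (LS.mem_ball_of_ne hne))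
          (LS.ball_symm (key a ha b hb).1)
        have h3 : x = x' := hs x' hx' x hx (by rwa [show 2 * m + 1 = m + 1 + m by omega])
        exact (key a ha b hb).2 (h3 ▸ hb')
      simp [pm, h0]

lemma LS.cluster_one (L : LS G X) {m : ℕ} {κ : Type*} [Fintype κ] [DecidableEq κ]
    {Q : Polynomial ℝ} {w : ℂ} {tol : ℝ} (hw : 0 < w.im) (hQ : QF Q w tol) {c : X → κ}
    (hc : IsLocallyConstant c) {U : Set X} (hU : IsClopen U) (hs : L.Sep (2 * m + 1) U) :
    L.integ (U.indicator fun x => Tot Q (cc (pm L.Y) fun v => col (c v)) (L.ball m x)) ≤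
      L.Phi Q (fun v => col (c v)) + (Complex.arg w + 7 * tol) := by
  set W := {y | ∃ x ∈ U, y ∈ L.ball m x} with hW
  set q : X → κ × Bool → ℝ := fun v => col (c v) with hq
  have hWc : IsClopen W := L.isClopen_nbhd m hU
  have hql : IsLocallyConstant q := hc.comp col
  have hql' : IsLocallyConstant (W.indicator q) := by
    refine (IsLocallyConstant.iff_eventually_eq _).2 fun x => ?_
    filter_upwards [hql.eventually_eq x, LS.ev_mem hWc x] with y h1 h2
    classical
    simp only [Set.indicator_apply, h1, h2]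
  have h00 := hQ.near 0 ⟨by norm_num, by norm_num⟩
  have htol : 0 ≤ tol := (abs_nonneg _).trans h00
  have harg : 0 ≤ Complex.arg w := Complex.arg_nonneg_iff.2 hw.le
  have hQ0 : 0 ≤ Q.eval 0 + tol := by
    have := (abs_le.1 h00).1
    simp only [Complex.ofReal_zero, sub_zero] at this
    linarith
  have h1 : L.Phi Q (W.indicator q) ≤ L.Phi Q q + (Complex.arg w + 6 * tol) := by
    refine LS.sweep hql hql' fun p hp x hx => ?_
    by_cases hxW : x ∈ W
    · rw [Set.indicator_of_mem hxW, ← hx, LS.Del, Function.update_eq_self, sub_self]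
      positivity
    · rw [Set.indicator_of_notMem hxW, LS.Del, sub_le_iff_le_add']
      refine Tot_del L.ctr hw hQ (fun v _ => ?_) (LS.self_mem_ball _ _)
      rcases hp v with h | h
      · rw [h]; exact sub_col _
      · rw [h]
        by_cases hv : v ∈ W
        · rw [Set.indicator_of_mem hv]; exact sub_col _
        · rw [Set.indicator_of_notMem hv]; exact sub_zero'
  have hd : Continuous (L.dens Q (W.indicator q)) := LS.continuous_dens hql'
  have hT : Continuous fun x => Tot Q (cc (pm L.Y) q) (L.ball m x) :=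
    LS.continuous_Tot (L.Γ ^ m) (q := fun _ => q) fun g =>
      hql.comp_continuous (continuous_const_smul g)
  have h2 := LS.transport (L := L) (n := m) hU
    (fun x hx y hy h => hs x hx y hy (LS.ball_mono (by omega) h))
    (ψ := fun y => -1 * W.indicator (L.dens Q (W.indicator q)) y)
    (β := fun x => -1 * U.indicator (fun x => Tot Q (cc (pm L.Y) q) (L.ball m x)) x)
    (continuous_const.mul (hWc.continuous_indicator hd))
    (continuous_const.mul (hU.continuous_indicator hT))
    (fun y hy => by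
      rw [Set.indicator_of_notMem (show y ∉ W from fun ⟨x, hx, h⟩ => hy x hx h), mul_zero])
    (fun x hx => by
      rw [Set.indicator_of_mem hx, Tot, mul_sum]
      refine (sum_congr rfl fun y hy => ?_).le
      rw [Set.indicator_of_mem (show y ∈ W from ⟨x, hx, hy⟩), L.dens_cluster Q hs q hx hy])
    (fun x hx => by rw [Set.indicator_of_notMem hx, mul_zero])
  rw [LS.integ_mul _ (hWc.continuous_indicator hd), LS.integ_mul _ (hU.continuous_indicator hT)]
    at h2
  have h3 : L.integ (W.indicator (L.dens Q (W.indicator q))) ≤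
      L.integ fun y => L.dens Q (W.indicator q) y + tol := by
    refine LS.integ_mono (hWc.continuous_indicator hd) (hd.add continuous_const) fun y => ?_
    by_cases hy : y ∈ W
    · rw [Set.indicator_of_mem hy]; linarith
    · rw [Set.indicator_of_notMem hy, LS.dens, phi_dead cc_empty fun S _ hS =>
        cc_zero hS (Set.indicator_of_notMem hy _)]
      exact hQ0
  rw [LS.integ_add hd continuous_const, LS.integ_const] at h3
  unfold LS.Phi at h1 ⊢
  linarith

/-- The potential of the balls is controlled by the global potential. -/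
theorem LS.cluster (L : LS G X) (m : ℕ) : ∃ N : ℕ, ∀ {κ : Type} [Fintype κ] [DecidableEq κ]
    (Q : Polynomial ℝ) (w : ℂ) (tol : ℝ), 0 < w.im → QF Q w tol → ∀ c : X → κ,
    IsLocallyConstant c →
    L.integ (fun x => Tot Q (cc (pm L.Y) fun v => col (c v)) (L.ball m x)) ≤
      N * (L.Phi Q (fun v => col (c v)) + (Complex.arg w + 7 * tol)) := by
  obtain ⟨N, cls, hcl, hN, hs⟩ := L.exists_sep (2 * m + 1)
  refine ⟨N, fun Q w tol hw hQ c hc => ?_⟩
  have hT : Continuous fun x => Tot Q (cc (pm L.Y) fun v => col (c v)) (L.ball m x) :=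
    LS.continuous_Tot (L.Γ ^ m) (q := fun _ v => col (c v)) fun g =>
      (hc.comp col).comp_continuous (continuous_const_smul g)
  have e : (fun x => Tot Q (cc (pm L.Y) fun v => col (c v)) (L.ball m x)) = fun x =>
      ∑ t ∈ Finset.range N, {x | cls x = t}.indicator
        (fun x => Tot Q (cc (pm L.Y) fun v => col (c v)) (L.ball m x)) x := by
    funext x
    rw [sum_eq_single_of_mem (cls x) (mem_range.2 (hN x)) fun t _ ht =>
      Set.indicator_of_notMem (show x ∉ {x | cls x = t} from fun h => ht (Eq.symm h)) _,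
      Set.indicator_of_mem (show x ∈ {y | cls y = cls x} from rfl)]
  rw [e, LS.integ_sum _ fun t _ => (hcl.isClopen_fiber t).continuous_indicator hT]
  refine (sum_le_card_nsmul _ _ _ fun t _ =>
    L.cluster_one hw hQ hc (hcl.isClopen_fiber t) (hs t)).trans ?_
  rw [card_range, nsmul_eq_mul]

lemma four_tb_le {r : ℕ} (hr : 2 ≤ r) : 4 * tb (r * 2) ≤ 12 / √r := by
  have h := tb_le (k := r * 2) (by omega)
  have hr0 : (0 : ℝ) < √r := Real.sqrt_pos.2 (by exact_mod_cast (by omega : 0 < r))
  have h2 : (4 / 3 : ℝ) ≤ √2 := Real.le_sqrt_of_sq_le (by norm_num)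
  rw [Nat.cast_mul, Real.sqrt_mul (Nat.cast_nonneg r), Nat.cast_ofNat] at h
  have h3 : 4 / (√(r : ℝ) * √2) ≤ 3 / √(r : ℝ) := by
    rw [div_le_div_iff₀ (by positivity) hr0]
    nlinarith
  have : (12 : ℝ) / √r = 4 * (3 / √r) := by ring
  linarith

theorem LS.paving (L : LS G X) {r : ℕ} [NeZero r] (hr : 2 ≤ r) (m : ℕ) {δ : ℝ} (hδ : 0 < δ) :
    ∃ T : Finset G, ∀ (N : ℕ) (a : X → Fin N), IsLocallyConstant a →
      ∃ c : (Fin N → ZMod r) → X → ZMod r, Seeded T a c ∧ ∀ ω, ∃ b : C(X, ℝ), 0 ≤ b ∧ L.τ b ≤ δ ∧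
        ∀ x, b x < 1 → ∀ S ⊆ L.ball m x, ∀ k, (∀ v ∈ S, c ω v = k) → ∀ ξ : X → ℂ,
          ‖∑ a ∈ S, ∑ b ∈ S, conj (ξ a) * L.Y a b * ξ b‖ ≤ 12 / √r * ∑ a ∈ S, ‖ξ a‖ ^ 2 := by
  obtain ⟨M, hM⟩ := L.cluster m
  have hcard : Fintype.card (ZMod r × Bool) = r * 2 := by simp
  set t := tb (r * 2) with ht
  have ht0 : 0 < t := tb_pos (by omega)
  set C : ℝ := ((L.Γ ^ m).card : ℝ) with hC
  have hC0 : 0 ≤ C := Nat.cast_nonneg _
  set tol := δ / (24 * M + C + 1) with htol
  have htol0 : 0 < tol := by positivity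
  set w : ℂ := ((2 * t : ℝ) : ℂ) + ((t * tol : ℝ) : ℂ) * Complex.I with hw
  have hwi : w.im = t * tol := by simp [hw]
  have hwr : w.re = 2 * t := by simp [hw]
  have hw0 : 0 < w.im := by rw [hwi]; positivity
  obtain ⟨Q, hQ⟩ := exists_QF hw0 htol0
  have ha1 : Complex.arg w ≤ tol := by
    refine (arg_le_div (by positivity) (by positivity)).trans ?_
    rw [div_le_iff₀ (by positivity)]
    nlinarith [mul_pos ht0 htol0]
  have ha2 : Complex.arg (w - t) ≤ tol := by
    have : w - t = (t : ℂ) + ((t * tol : ℝ) : ℂ) * Complex.I := by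
      rw [hw]; push_cast; ring
    rw [this]
    refine (arg_le_div ht0 (by positivity)).trans ?_
    rw [mul_div_cancel_left₀ _ ht0.ne']
  have hQ0 : Q.eval 0 ≤ 2 * tol := by
    have := (abs_le.1 (hQ.near 0 ⟨by norm_num, by norm_num⟩)).2
    simp only [Complex.ofReal_zero, sub_zero] at this
    linarith
  have hu : L.Phi Q (fun _ => unif (ZMod r × Bool)) ≤ 9 * tol := by
    have := LS.sweep (L := L) (Q := Q) (q := (0 : X → ZMod r × Bool → ℝ))
      (q' := fun _ => unif (ZMod r × Bool)) (IsLocallyConstant.const _)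
      (IsLocallyConstant.const _) (β := Complex.arg (w - t) + 6 * tol) fun p hp x _ => by
        rw [LS.Del, sub_le_iff_le_add', ht, ← hcard]
        exact Tot_unif L.ctr L.diag (by simpa using hr) hw0 hQ (fun v _ => (hp v).symm)
          (LS.self_mem_ball _ _)
    rw [LS.Phi_zero] at this
    linarith
  obtain ⟨T, hT⟩ := L.greedy Q (r := r) (β := 6 * tol) htol0 fun q hq x hx => by
    obtain ⟨k, hk⟩ := Tot_col (Λ := L.ball (2 * (Q.natDegree + 1)) x) L.ctr hw0 hQ
      (fun v _ => by
        rcases hq v with h | ⟨k, h⟩ <;> rw [h]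
        exacts [sub_unif, sub_col k]) (LS.self_mem_ball _ _) hx
    exact ⟨k, by rw [LS.Del]; linarith⟩
  refine ⟨T, fun N a ha => ?_⟩
  obtain ⟨c, hS, hP⟩ := hT N a ha
  refine ⟨c, hS, fun ω => ?_⟩
  have hTc : Continuous fun x => Tot Q (cc (pm L.Y) fun v => col (c ω v)) (L.ball m x) :=
    LS.continuous_Tot (L.Γ ^ m) (q := fun _ v => col (c ω v)) fun g =>
      ((hS.lc ω).comp col).comp_continuous (continuous_const_smul g)
  have hle : ∀ x, ((L.ball m x).card : ℝ) * tol ≤ C * tol := fun x =>
    mul_le_mul_of_nonneg_right (by rw [hC]; exact_mod_cast LS.card_ball_le m x) htol0.le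
  refine ⟨⟨fun x => Tot Q (cc (pm L.Y) fun v => col (c ω v)) (L.ball m x) + C * tol,
    hTc.add continuous_const⟩, fun x => ?_, ?_, fun x hx S hSx k hk ξ => ?_⟩
  · have := Tot_lower (Λ := L.ball m x) (q := fun v => col (c ω v)) L.ctr hw0 hQ
      fun v _ => sub_col _
    have := hle x
    change 0 ≤ Tot Q (cc (pm L.Y) fun v => col (c ω v)) (L.ball m x) + C * tol
    linarith
  · rw [← LS.integ_coe, ContinuousMap.coe_mk, LS.integ_add hTc continuous_const, LS.integ_const]
    have h1 := hM Q w tol hw0 hQ (c ω) (hS.lc ω)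
    have h2 : L.Phi Q (fun v => col (c ω v)) + (Complex.arg w + 7 * tol) ≤ 24 * tol := by
      linarith [hP ω]
    have h3 := mul_le_mul_of_nonneg_left h2 (Nat.cast_nonneg (α := ℝ) M)
    have h4 : (24 * M + C + 1) * tol = δ := by rw [htol]; field_simp
    nlinarith
  · have hx' : Tot Q (cc (pm L.Y) fun v => col (c ω v)) (L.ball m x) + C * tol < 1 := hx
    refine (Tot_good L.ctr L.diag hw0 (by rw [hwr]; positivity) hQ
      (by linarith [hle x]) hSx hk ξ).trans ?_
    refine mul_le_mul_of_nonneg_right ?_ (sum_nonneg fun _ _ => sq_nonneg _)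
    rw [hwr]
    linarith [four_tb_le hr]

end Vale.Agent.P078
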