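import Vale.Agent.P078.Defs
import Mathlib.Topology.ContinuousMap.Algebra
import Mathlib.Topology.ContinuousMap.Ordered
import Mathlib.Topology.LocallyConstant.Basic
import Mathlib.Topology.Separation.Profinite
import Mathlib.Topology.Separation.DisjointCover
import Mathlib.Topology.Algebra.ConstMulAction
import Mathlib.Algebra.Group.Pointwise.Finset.Basic

/-! Unimodular local systems: balls, integration and mass transport. -/

namespace Vale.Agent.P078

open Finset
open scoped ComplexConjugate Pointwise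

/-- A trace preserving action with a finite range Hermitian kernel on the orbits. -/
structure LS (G X : Type*) [Group G] [TopologicalSpace X] [MulAction G X] where
  τ : C(X, ℝ) →ₗ[ℝ] ℝ
  pos : ∀ f, 0 ≤ f → 0 ≤ τ f
  one : τ 1 = 1
  inv : ∀ (g : G) (f f' : C(X, ℝ)), (∀ x, f' x = f (g • x)) → τ f' = τ f
  fix : ∀ g : G, IsOpen {x : X | g • x = x}
  Γ : Finset G
  one_mem : 1 ∈ Γ
  inv_mem : ∀ g ∈ Γ, g⁻¹ ∈ Γ
  Y : X → X → ℂ
  ctr : Ctr Y
  diag : ∀ x, Y x x = 0
  range : ∀ a b, Y a b ≠ 0 → ∃ g ∈ Γ, a = g • b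
  M : G → G → C(X, ℂ)
  gauge : ∀ x, ∃ u : G → ℂ, (∀ g, ‖u g‖ = 1) ∧
    ∀ g g', Y (g • x) (g' • x) = conj (u g) * M g g' x * u g'

variable {G X : Type*} [Group G] [TopologicalSpace X] [MulAction G X] [DecidableEq G]
  [DecidableEq X]

/-- The orbit of `x` under a finite set. -/
def orb (T : Finset G) (x : X) : Finset X := T.image (· • x)

namespace LS

variable (L : LS G X)

/-- Ball in the orbit graph. -/
def ball (n : ℕ) (x : X) : Finset X := orb (L.Γ ^ n) x

/-- Integral of a function, meaningful when it is continuous. -/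
noncomputable def integ (f : X → ℝ) : ℝ := L.τ (ContinuousMap.mkD f 0)

/-- `U` is `n`-separated. -/
def Sep (n : ℕ) (U : Set X) : Prop := ∀ x ∈ U, ∀ y ∈ U, y ∈ L.ball n x → y = x

variable {L} {n k : ℕ} {x y z : X} {f f' : X → ℝ}

lemma mem_ball : y ∈ L.ball n x ↔ ∃ g ∈ L.Γ ^ n, g • x = y := by
  exact mem_image

lemma self_mem_ball (n : ℕ) (x : X) : x ∈ L.ball n x := by
  exact mem_ball.2 ⟨1, one_mem_pow L.one_mem, one_smul _ _⟩

lemma ball_mono (h : n ≤ k) : L.ball n x ⊆ L.ball k x := by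
  exact image_subset_image (pow_subset_pow_right L.one_mem h)

omit [DecidableEq X] in
lemma inv_mem_pow {g : G} (h : g ∈ L.Γ ^ n) : g⁻¹ ∈ L.Γ ^ n := by
  have : L.Γ⁻¹ = L.Γ := by
    ext a
    rw [mem_inv']
    exact ⟨fun h => by simpa using L.inv_mem _ h, L.inv_mem a⟩
  rw [← this, inv_pow]
  exact inv_mem_inv h

lemma ball_symm (h : y ∈ L.ball n x) : x ∈ L.ball n y := by
  obtain ⟨g, hg, rfl⟩ := mem_ball.1 h
  exact mem_ball.2 ⟨g⁻¹, inv_mem_pow hg, inv_smul_smul _ _⟩

lemma ball_trans (h : y ∈ L.ball n x) (h' : z ∈ L.ball k y) : z ∈ L.ball (n + k) x := by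
  obtain ⟨g, hg, rfl⟩ := mem_ball.1 h
  obtain ⟨g', hg', rfl⟩ := mem_ball.1 h'
  refine mem_ball.2 ⟨g' * g, ?_, mul_smul _ _ _⟩
  rw [add_comm, pow_add]
  exact mul_mem_mul hg' hg

lemma mem_ball_of_ne (h : L.Y y x ≠ 0) : y ∈ L.ball 1 x := by
  obtain ⟨g, hg, rfl⟩ := L.range _ _ h
  exact mem_ball.2 ⟨g, by rwa [pow_one], rfl⟩

lemma card_ball_le (n : ℕ) (x : X) : (L.ball n x).card ≤ (L.Γ ^ n).card := by
  exact card_image_le

omit [DecidableEq G] [DecidableEq X] in
lemma integ_coe (f : C(X, ℝ)) : L.integ f = L.τ f := by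
  rw [integ, ContinuousMap.mkD_eq_self]

omit [DecidableEq G] [DecidableEq X] in
lemma integ_mono (hf : Continuous f) (hf' : Continuous f') (h : ∀ x, f x ≤ f' x) :
    L.integ f ≤ L.integ f' := by
  lift f to C(X, ℝ) using hf
  lift f' to C(X, ℝ) using hf'
  rw [integ_coe, integ_coe, ← sub_nonneg, ← map_sub]
  exact L.pos _ fun x => sub_nonneg.2 (h x)

omit [DecidableEq G] [DecidableEq X] in
lemma integ_add (hf : Continuous f) (hf' : Continuous f') :
    L.integ (fun x => f x + f' x) = L.integ f + L.integ f' := by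
  lift f to C(X, ℝ) using hf
  lift f' to C(X, ℝ) using hf'
  rw [integ_coe, integ_coe, ← map_add, ← integ_coe]
  rfl

omit [DecidableEq G] [DecidableEq X] in
lemma integ_sub (hf : Continuous f) (hf' : Continuous f') :
    L.integ (fun x => f x - f' x) = L.integ f - L.integ f' := by
  lift f to C(X, ℝ) using hf
  lift f' to C(X, ℝ) using hf'
  rw [integ_coe, integ_coe, ← map_sub, ← integ_coe]
  rfl

omit [DecidableEq G] [DecidableEq X] in
lemma integ_mul (c : ℝ) (hf : Continuous f) : L.integ (fun x => c * f x) = c * L.integ f := by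
  lift f to C(X, ℝ) using hf
  rw [integ_coe, ← smul_eq_mul c, ← map_smul, ← integ_coe]
  rfl

omit [DecidableEq G] [DecidableEq X] in
lemma integ_const (c : ℝ) : L.integ (fun _ => c) = c := by
  have h := integ_mul (L := L) c (1 : C(X, ℝ)).continuous
  rw [integ_coe, L.one, mul_one] at h
  simpa using h

omit [DecidableEq G] [DecidableEq X] in
lemma integ_sum {ι : Type*} (s : Finset ι) {f : ι → X → ℝ} (hf : ∀ i ∈ s, Continuous (f i)) :
    L.integ (fun x => ∑ i ∈ s, f i x) = ∑ i ∈ s, L.integ (f i) := by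
  classical
  induction s using Finset.induction_on with
  | empty => simpa using integ_const (L := L) 0
  | insert a s ha ih =>
    have h1 : ∀ i ∈ s, Continuous (f i) := fun i hi => hf i (mem_insert_of_mem hi)
    simp only [sum_insert ha]
    rw [integ_add (hf a (mem_insert_self _ _)) (continuous_finsetSum _ h1), ih h1]

variable [T2Space X] [ContinuousConstSMul G X]

omit [DecidableEq G] [DecidableEq X] in
lemma isClopen_eq (L : LS G X) (g g' : G) : IsClopen {x : X | g • x = g' • x} := by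
  refine ⟨isClosed_eq (continuous_const_smul g) (continuous_const_smul g'), ?_⟩
  have : {x : X | g • x = g' • x} = {x | (g'⁻¹ * g) • x = x} := by
    ext x
    simp only [Set.mem_ofPred_eq, mul_smul, inv_smul_eq_iff]
  rw [this]
  exact L.fix _

omit [DecidableEq X] [T2Space X] in
lemma ev_mem {U : Set X} (hU : IsClopen U) (x₀ : X) : ∀ᶠ x in nhds x₀, (x ∈ U ↔ x₀ ∈ U) := by
  by_cases h : x₀ ∈ U
  · filter_upwards [hU.isOpen.mem_nhds h] with x hx using iff_of_true hx h
  · filter_upwards [hU.compl.isOpen.mem_nhds h] with x hx using iff_of_false hx h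

omit [DecidableEq G] [DecidableEq X] in
lemma ev_eq (L : LS G X) (T : Finset G) (x₀ : X) :
    ∀ᶠ x in nhds x₀, ∀ g ∈ T, ∀ g' ∈ T, (g • x = g' • x ↔ g • x₀ = g' • x₀) :=
  (Filter.eventually_all_finset _).2 fun g _ => (Filter.eventually_all_finset _).2 fun g' _ =>
    ev_mem (L.isClopen_eq g g') x₀

omit [DecidableEq G] in
/-- Near `x₀` a fixed subset of `T` parametrises the orbit. -/
lemma exists_param (L : LS G X) (T : Finset G) (x₀ : X) : ∃ T' ⊆ T, ∀ᶠ x in nhds x₀,
    Set.InjOn (· • x) (T' : Set G) ∧ orb T x = T'.image (· • x) := by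
  obtain ⟨T', hT, hi, he⟩ := exists_subset_injOn_image_eq_of_surjOn (f := (· • x₀)) (T : Set G)
    (orb T x₀) (by rw [orb, coe_image]; exact Set.surjOn_image _ _)
  have hT' : T' ⊆ T := hT
  refine ⟨T', hT', ?_⟩
  filter_upwards [L.ev_eq T x₀] with x hx
  refine ⟨fun a ha b hb h => hi ha hb ((hx a (hT ha) b (hT hb)).1 h),
    (image_subset_image hT').antisymm' fun y hy => ?_⟩
  obtain ⟨g, hg, rfl⟩ := mem_image.1 hy
  have : g • x₀ ∈ T'.image (· • x₀) := he ▸ mem_image_of_mem _ hg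
  obtain ⟨g', hg', e⟩ := mem_image.1 this
  exact mem_image.2 ⟨g', hg', (hx g' (hT hg') g hg).2 e⟩

omit [DecidableEq G] in
lemma continuous_sum_orb (L : LS G X) (T : Finset G) {ψ : X → X → ℝ}
    (h : ∀ g ∈ T, Continuous fun x => ψ x (g • x)) : Continuous fun x => ∑ y ∈ orb T x, ψ x y := by
  refine continuous_iff_continuousAt.2 fun x₀ => ?_
  obtain ⟨T', hT, h'⟩ := L.exists_param T x₀
  refine (continuous_finsetSum T' fun g hg => h g (hT hg)).continuousAt.congr ?_
  filter_upwards [h'] with x hx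
  rw [hx.2, sum_image hx.1]

omit [T2Space X] in
lemma isClopen_nbhd (L : LS G X) (n : ℕ) {U : Set X} (hU : IsClopen U) :
    IsClopen {y | ∃ x ∈ U, y ∈ L.ball n x} := by
  have : {y | ∃ x ∈ U, y ∈ L.ball n x} = ⋃ g ∈ L.Γ ^ n, (fun y => g⁻¹ • y) ⁻¹' U := by
    ext y
    simp only [Set.mem_ofPred_eq, Set.mem_iUnion, Set.mem_preimage, mem_ball, exists_prop]
    constructor
    · rintro ⟨x, hx, g, hg, rfl⟩
      exact ⟨g, hg, by rwa [inv_smul_smul]⟩
    · rintro ⟨g, hg, h⟩
      exact ⟨_, h, g, hg, smul_inv_smul _ _⟩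
  rw [this]
  exact isClopen_biUnion_finset fun g _ => hU.preimage (continuous_const_smul _)

/-- Mass transport. -/
theorem transport {U : Set X} (hU : IsClopen U) (hs : L.Sep (2 * n) U) {ψ β : X → ℝ}
    (hψ : Continuous ψ) (hβ : Continuous β) (h0 : ∀ y, (∀ x ∈ U, y ∉ L.ball n x) → ψ y = 0)
    (h1 : ∀ x ∈ U, ∑ y ∈ L.ball n x, ψ y ≤ β x) (h2 : ∀ x ∉ U, 0 ≤ β x) :
    L.integ ψ ≤ L.integ β := by
  classical
  set T := L.Γ ^ n with hT
  let w : G → X → ℝ := fun g x =>
    if x ∈ U then ((T.filter fun g' => g' • x = g • x).card : ℝ)⁻¹ else 0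
  have hw : ∀ g ∈ T, Continuous (w g) := by
    intro g hg
    refine IsLocallyConstant.continuous ((IsLocallyConstant.iff_eventually_eq _).2 fun x₀ => ?_)
    filter_upwards [L.ev_eq T x₀, ev_mem hU x₀] with x hx hx'
    simp only [w, hx']
    rw [filter_congr fun g' hg' => hx g' hg' g hg]
  have e1 : ∀ x ∈ U, ∑ g ∈ T, w g x * ψ (g • x) = ∑ y ∈ L.ball n x, ψ y := by
    intro x hx
    simp only [w, if_pos hx]
    rw [sum_comp (fun y => ((T.filter fun g' => g' • x = y).card : ℝ)⁻¹ * ψ y) (· • x)]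
    refine sum_congr rfl fun y hy => ?_
    obtain ⟨g, hg, rfl⟩ := mem_image.1 hy
    have : ((T.filter fun g' => g' • x = g • x).card : ℝ) ≠ 0 :=
      Nat.cast_ne_zero.2 (card_ne_zero.2 ⟨g, mem_filter.2 ⟨hg, rfl⟩⟩)
    rw [nsmul_eq_mul, mul_inv_cancel_left₀ this]
  have e2 : ∀ y, ψ y = ∑ g ∈ T, w g (g⁻¹ • y) * ψ y := by
    intro y
    by_cases h : ∀ x ∈ U, y ∉ L.ball n x
    · simp [h0 y h]
    push Not at h
    obtain ⟨x, hx, hy⟩ := h
    have key : ∀ g ∈ T, w g (g⁻¹ • y) =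
        if g • x = y then ((T.filter fun g' => g' • x = y).card : ℝ)⁻¹ else 0 := by
      intro g hg
      by_cases hgy : g • x = y
      · subst hgy
        simp only [w, inv_smul_smul, if_pos hx, if_true]
      · simp only [w]
        rw [if_neg hgy, if_neg]
        intro hU'
        have := hs x hx _ hU' (two_mul n ▸ ball_trans hy
          (mem_ball.2 ⟨g⁻¹, inv_mem_pow hg, rfl⟩))
        exact hgy (by rw [← this, smul_inv_smul])
    obtain ⟨g, hg, hgy⟩ := mem_ball.1 hy
    have : ((T.filter fun g' => g' • x = y).card : ℝ) ≠ 0 :=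
      Nat.cast_ne_zero.2 (card_ne_zero.2 ⟨g, mem_filter.2 ⟨hg, hgy⟩⟩)
    rw [← sum_mul, sum_congr rfl key, ← sum_filter, sum_const, nsmul_eq_mul, mul_inv_cancel₀ this,
      one_mul]
  have c1 : ∀ g ∈ T, Continuous fun y => w g (g⁻¹ • y) * ψ y := fun g hg =>
    ((hw g hg).comp (continuous_const_smul _)).fun_mul hψ
  have c2 : ∀ g ∈ T, Continuous fun x => w g x * ψ (g • x) := fun g hg =>
    (hw g hg).fun_mul (hψ.comp (continuous_const_smul _))
  calc L.integ ψ = L.integ fun y => ∑ g ∈ T, w g (g⁻¹ • y) * ψ y := congrArg _ (funext e2)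
    _ = ∑ g ∈ T, L.integ fun y => w g (g⁻¹ • y) * ψ y := integ_sum T c1
    _ = ∑ g ∈ T, L.integ fun x => w g x * ψ (g • x) := by
      refine sum_congr rfl fun g hg => (L.inv g _ _ fun x => ?_).symm
      rw [ContinuousMap.mkD_apply_of_continuous (c1 g hg),
        ContinuousMap.mkD_apply_of_continuous (c2 g hg), inv_smul_smul]
    _ = L.integ fun x => ∑ g ∈ T, w g x * ψ (g • x) := (integ_sum T c2).symm
    _ ≤ L.integ β := by
      refine integ_mono (continuous_finsetSum _ c2) hβ fun x => ?_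
      by_cases hx : x ∈ U
      · rw [e1 x hx]
        exact h1 x hx
      · simpa [w, hx] using h2 x hx

variable [CompactSpace X] [TotallyDisconnectedSpace X]

omit [DecidableEq X] in
lemma exists_cls {N : X → Set X} (hN : ∀ x, N x ∈ nhds x) : ∃ (n : ℕ) (cls : X → ℕ) (rep : X → X),
    IsLocallyConstant cls ∧ (∀ x, cls x < n) ∧ (∀ x y, cls x = cls y → rep x = rep y) ∧
      ∀ x, x ∈ N (rep x) := by
  have hU : TopologicalSpace.IsOpenCover fun x : X =>
      (⟨interior (N x), isOpen_interior⟩ : TopologicalSpace.Opens X) :=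
    .of_sets _ (Set.eq_univ_of_forall fun x =>
      Set.mem_iUnion.2 ⟨x, mem_interior_iff_mem_nhds.2 (hN x)⟩)
  obtain ⟨n, W, h1, h2, h3⟩ := hU.exists_finite_nonempty_disjoint_clopen_cover
  choose r hr using fun j => (h1 j).2
  choose c hc using fun x => Set.mem_iUnion.1 (h2 (Set.mem_univ x))
  refine ⟨n, fun x => c x, fun x => r (c x), ?_, fun x => (c x).2,
    fun x y h => congrArg r (Fin.ext h), fun x => interior_subset (hr _ (hc x))⟩
  refine (IsLocallyConstant.iff_eventually_eq _).2 fun x => ?_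
  filter_upwards [(W (c x)).isOpen.mem_nhds (hc x)] with y hy
  by_contra h
  have hd := h3 (fun e => h (congrArg Fin.val e) : c y ≠ c x)
  have : y ∈ ((W (c y) ⊓ W (c x) : TopologicalSpace.Clopens X) : Set X) := ⟨hc y, hy⟩
  rw [disjoint_iff.1 hd] at this
  exact this

theorem exists_sep (L : LS G X) (n : ℕ) : ∃ (N : ℕ) (cls : X → ℕ), IsLocallyConstant cls ∧
    (∀ x, cls x < N) ∧ ∀ t, L.Sep n {x | cls x = t} := by
  have h : ∀ x₀ : X, ∃ N ∈ nhds x₀, L.Sep n N := by
    intro x₀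
    have h1 : ∀ g : G, ∃ N ∈ nhds x₀, ∀ x ∈ N, g • x ∈ N → g • x = x := by
      intro g
      by_cases hg : g • x₀ = x₀
      · exact ⟨_, (L.fix g).mem_nhds hg, fun x hx _ => hx⟩
      · obtain ⟨A, B, hA, hB, ha, hb, hd⟩ := t2_separation hg
        refine ⟨B ∩ (g • ·) ⁻¹' A, Filter.inter_mem (hB.mem_nhds hb)
          ((hA.preimage (continuous_const_smul g)).mem_nhds ha), fun x hx hx' => ?_⟩
        exact (Set.disjoint_left.1 hd hx.2 hx'.1).elim
    choose N hN hN' using h1
    refine ⟨⋂ g ∈ L.Γ ^ n, N g, (Filter.biInter_finset_mem _).2 fun g _ => hN g, ?_⟩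
    intro x hx y hy hxy
    obtain ⟨g, hg, rfl⟩ := mem_ball.1 hxy
    exact hN' g x (Set.mem_iInter₂.1 hx g hg) (Set.mem_iInter₂.1 hy g hg)
  choose N hN hs using h
  obtain ⟨m, cls, rep, h1, h2, h3, h4⟩ := exists_cls hN
  refine ⟨m, cls, h1, h2, fun t x hx y hy => hs (rep x) x (h4 x) y ?_⟩
  rw [h3 x y (hx.trans hy.symm)]
  exact h4 y

end LS

/-- Locally constant choice of representatives. -/
theorem exists_rep {X ι β : Type*} [TopologicalSpace X] [CompactSpace X] [T2Space X]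
    [TotallyDisconnectedSpace X] [Finite ι] {f : ι → X → ℝ} (hf : ∀ i, Continuous (f i))
    {h : X → β} (hh : IsLocallyConstant h) {ε : ℝ} (hε : 0 < ε) : ∃ rep : X → X,
      IsLocallyConstant rep ∧ ∀ x, h (rep x) = h x ∧ ∀ i, |f i (rep x) - f i x| < ε := by
  have hN : ∀ x₀, {x | h x₀ = h x ∧ ∀ i, |f i x₀ - f i x| < ε} ∈ nhds x₀ := by
    intro x₀
    refine Filter.Eventually.and ((hh.eventually_eq x₀).mono fun x hx => hx.symm)
      (Filter.eventually_all.2 fun i => ?_)
    refine (isOpen_lt (continuous_const.sub (hf i)).abs continuous_const).mem_nhds ?_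
    simpa using hε
  obtain ⟨m, cls, rep, h1, -, h3, h4⟩ := LS.exists_cls hN
  refine ⟨rep, (IsLocallyConstant.iff_eventually_eq _).2 fun x => ?_, h4⟩
  exact (h1.eventually_eq x).mono fun y hy => h3 _ _ hy

end Vale.Agent.P078
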