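import Vale.Agent.P078.ES
import Vale.Agent.P078.Ker

/-! Paving in the tracial setting. -/

namespace Vale.Agent.P078.Ctx

open Vale.Agent.P085 Finset Filter
open scoped Topology

variable {M X : Type*} [CStarAlgebra M] [TopologicalSpace X] [CompactSpace X] [T2Space X]
  (C : Ctx M X)

/-- Splitting into a normaliser part, an orthogonal part and a small error. -/
lemma exists_split {x : M} (hx : star x = x) (h1 : ‖x‖ ≤ 1) {η : ℝ} (hη : 0 < η) :
    ∃ y w e : M, x - C.ι (C.E x) = (6 : ℂ) • y + (4 : ℂ) • w + e ∧ y ∈ C.N0 ∧ star y = y ∧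
      ‖y‖ ≤ 1 ∧ C.E y = 0 ∧ star w = w ∧ ‖w‖ ≤ 1 ∧ (∀ n ∈ C.N0, C.T.τ (n * w) = 0) ∧
      star e = e ∧ C.T.n2 e ≤ η := by
  obtain ⟨F, hF⟩ := exists_exp C.fw (cl_closed (T := C.T) (N := C.N0))
  have hsE : ∀ z : M, star z = z → star (z - C.ι (C.E z)) = z - C.ι (C.E z) := fun z hz => by
    rw [star_sub, ← map_star, ← C.E_star, hz]
  have hnE : ∀ z : M, star z = z → ‖z - C.ι (C.E z)‖ ≤ 2 * ‖z‖ := fun z hz => by
    have := norm_sub_le z (C.ι (C.E z))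
    rw [C.norm_ι] at this
    linarith [C.norm_E_le hz]
  set x0 := x - C.ι (C.E x) with hx0
  have s0 : star x0 = x0 := hsE x hx
  have n0 : ‖x0‖ ≤ 2 := (hnE x hx).trans (by linarith)
  have s1 : star (F x0) = F x0 := by rw [← hF.map_star C.fw, s0]
  have n1 : ‖F x0‖ ≤ 2 := (hF.norm_le C.fw cl_closed s0).trans n0
  obtain ⟨y1, hy1, s2, n2, d2⟩ := exists_bdd_approx (hF.mem x0) s1
    (lt_min (half_pos hη) one_pos)
  have e0 : C.ι (C.E (F x0)) = 0 := C.fw.faithful _ (sq_eq_zero_iff.mp (by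
    have : C.E x0 = 0 := by rw [hx0, map_sub, C.E_ι, sub_self]
    rw [C.T.n2_sq, ← map_star, C.tr, hF.tr _ (le_cl (C.ι_mem_N0 _)), ← C.tr, this]
    simp))
  have d3 : C.T.n2 (C.ι (C.E y1)) ≤ η / 2 := by
    have := C.n2_E_le (F x0 - y1)
    rw [map_sub, map_sub, e0, zero_sub, C.T.n2_neg] at this
    exact this.trans (d2.le.trans (min_le_left _ _))
  refine ⟨(6⁻¹ : ℂ) • (y1 - C.ι (C.E y1)), (4⁻¹ : ℂ) • (x0 - F x0), F x0 - y1 + C.ι (C.E y1),
    by module, C.N0.smul_mem (sub_mem hy1 (C.ι_mem_N0 _)) _, ?_, ?_, ?_, ?_, ?_, fun n hn => ?_,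
    ?_, ?_⟩
  · rw [star_smul, hsE y1 s2]
    simp
  · have := hnE y1 s2
    have := min_le_right (η / 2) 1
    rw [norm_smul, norm_inv, Complex.norm_ofNat]
    linarith
  · simp [C.E_ι]
  · rw [star_smul, star_sub, s0, s1]
    simp
  · have := norm_sub_le x0 (F x0)
    rw [norm_smul, norm_inv, Complex.norm_ofNat]
    linarith
  · rw [mul_smul_comm, map_smul, mul_sub, map_sub, hF.tr _ (le_cl hn), sub_self, smul_zero]
  · rw [star_add, star_sub, s1, s2, ← map_star, ← C.E_star, s2]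
  · have := C.T.n2_add_le (F x0 - y1) (C.ι (C.E y1))
    linarith [min_le_left (η / 2) 1]

lemma paving_one {ε : ℝ} (hε : 0 < ε) (hε1 : ε < 1) {r : ℕ} [NeZero r] (hr : 10 ^ 6 / ε ^ 2 ≤ r)
    {x : M} (hx : star x = x) (h1 : ‖x‖ ≤ 1) {δ : ℝ} (hδ : 0 < δ) : ∃ (c : X → ZMod r) (q : M),
      IsLocallyConstant c ∧ IsStarProjection q ∧ (C.T.τ (1 - q)).re < δ ∧
      ‖q * (C.pinch c x - C.ι (C.E x)) * q‖ ≤ ε := by
  classical
  have hr1 : (10 : ℝ) ^ 6 ≤ r := le_trans (by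
    rw [le_div_iff₀ (by positivity)]
    nlinarith [mul_pos hε hε]) hr
  have hr4 : 4 ≤ r := by
    have : (4 : ℝ) ≤ r := by linarith
    exact_mod_cast this
  have hs : 1000 / ε ≤ √r := Real.le_sqrt_of_sq_le (by rw [div_pow]; norm_num at hr ⊢; exact hr)
  have hs0 : 0 < √(r : ℝ) := lt_of_lt_of_le (by positivity) hs
  rw [div_le_iff₀ hε] at hs
  obtain ⟨n, hn, hn0⟩ : ∃ n : ℕ, (r + 1) * (1 / 2 : ℝ) ^ (2 * n) < δ / 4 ∧ n ≠ 0 := by
    have : Tendsto (fun n : ℕ => ((r : ℝ) + 1) * ((1 / 2 : ℝ) ^ 2) ^ n) atTop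
        (𝓝 (((r : ℝ) + 1) * 0)) :=
      (tendsto_pow_atTop_nhds_zero_of_lt_one (by norm_num) (by norm_num)).const_mul _
    obtain ⟨n, hn⟩ := ((this.eventually (gt_mem_nhds (show ((r : ℝ) + 1) * (0 : ℝ) < δ / 4 by
      simpa using hδ))).and (eventually_ne_atTop 0)).exists
    exact ⟨n, by simpa only [pow_mul] using hn.1, hn.2⟩
  have hd : 0 < δ / 4 / (36 / ε) ^ (2 * n) := by positivity
  obtain ⟨y, w, e, h0, hy, sy, ny, Ey, sw, nw, ow, se, ne⟩ := C.exists_split hx h1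
    (η := ε / 6 * √(δ / 4)) (by positivity)
  obtain ⟨T, hT⟩ := C.y_part hy sy ny Ey (r := r) (by omega) n hd
  obtain ⟨κ, hκ, hw⟩ := C.w_part hr4 T hn0 hd
  obtain ⟨N, a, ha, hA⟩ := C.exists_fine ow T hκ
  obtain ⟨c, hc, h2⟩ := hT N a ha
  obtain ⟨ω, h3⟩ := hw w sw nw N a ha hA c hc
  have hl := hc.lc ω
  obtain ⟨q, hq, h4, h5⟩ := exists_cut C.fw (ι := Fin 3)
    (a := ![(6 : ℂ) • C.pinch (c ω) y, (4 : ℂ) • C.pinch (c ω) w, C.pinch (c ω) e])
    (fun k => by fin_cases k <;> simp [C.pinch_star, sy, sw, se]) (m := ![n, n, 1])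
    (fun k => by fin_cases k <;> simp <;> omega) (s := ε / 6) (by positivity)
  refine ⟨c ω, q, hl, hq, h5.trans_lt ?_, ?_⟩
  · have k1 : ∀ (b : ℕ) (z : M), (C.T.τ (((b : ℂ) • z) ^ (2 * n))).re / (ε / 6) ^ (2 * n) =
        (6 * b / ε) ^ (2 * n) * (C.T.τ (z ^ (2 * n))).re := fun b z => by
      rw [smul_pow, map_smul, smul_eq_mul, ← Nat.cast_pow, ← Complex.ofReal_natCast,
        Complex.re_ofReal_mul, div_pow, div_pow, mul_pow]
      push_cast
      field_simp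
    have k2 := k1 6 (C.pinch (c ω) y)
    have k3 := k1 4 (C.pinch (c ω) w)
    have k4 : (C.T.τ (C.pinch (c ω) e ^ (2 * 1))).re / (ε / 6) ^ (2 * 1) ≤ δ / 4 := by
      have := C.T.n2_sq (C.pinch (c ω) e)
      rw [C.pinch_star, se] at this
      rw [mul_one, sq, ← this, div_le_iff₀ (by positivity)]
      refine (pow_le_pow_left₀ (C.T.n2_nonneg _) ((C.n2_pinch_le hl e).trans ne) 2).trans_eq ?_
      rw [mul_pow, Real.sq_sqrt (by positivity), mul_comm]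
    have k5 : (36 / ε) ^ (2 * n) * (12 / √r) ^ (2 * n) ≤ (1 / 2 : ℝ) ^ (2 * n) := by
      rw [← mul_pow]
      refine pow_le_pow_left₀ (by positivity) ?_ _
      rw [div_mul_div_comm, div_le_iff₀ (by positivity)]
      nlinarith
    have k6 : (24 / ε) ^ (2 * n) * (2 / √r) ^ (2 * n) ≤ (1 / 2 : ℝ) ^ (2 * n) := by
      rw [← mul_pow]
      refine pow_le_pow_left₀ (by positivity) ?_ _
      rw [div_mul_div_comm, div_le_iff₀ (by positivity)]
      nlinarith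
    have k7 : (36 / ε) ^ (2 * n) * (δ / 4 / (36 / ε) ^ (2 * n)) = δ / 4 := by field_simp
    have k8 : (24 / ε) ^ (2 * n) ≤ (36 / ε) ^ (2 * n) := by gcongr; norm_num
    have k9 := mul_le_mul_of_nonneg_left (h2 ω) (show 0 ≤ (36 / ε) ^ (2 * n) by positivity)
    have k10 := mul_le_mul_of_nonneg_left h3 (show 0 ≤ (24 / ε) ^ (2 * n) by positivity)
    have k11 := mul_le_mul_of_nonneg_right k8 hd.le
    have k12 := mul_le_mul_of_nonneg_left k6 (Nat.cast_nonneg (α := ℝ) r)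
    simp only [Fin.sum_univ_three, Matrix.cons_val]
    norm_num only [Nat.cast_ofNat] at k2 k3
    rw [k2, k3]
    nlinarith
  · rw [← C.pinch_ι hl (C.E x), sub_eq_add_neg, ← neg_one_smul ℂ, ← C.pinch_smul, ← C.pinch_add,
      neg_one_smul, ← sub_eq_add_neg, h0, C.pinch_add, C.pinch_add, C.pinch_smul, C.pinch_smul,
      mul_add, mul_add, add_mul, add_mul]
    have k1 := h4 0
    have k2 := h4 1
    have k3 := h4 2
    simp only [Matrix.cons_val] at k1 k2 k3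
    exact norm_add₃_le.trans (by linarith)

theorem paving {ε : ℝ} (hε : 0 < ε) (hε1 : ε < 1) {r : ℕ} [NeZero r] (hr : 10 ^ 6 / ε ^ 2 ≤ r)
    {x : M} (hx : star x = x) {δ : ℝ} (hδ : 0 < δ) : ∃ (c : X → ZMod r) (q : M),
      IsLocallyConstant c ∧ IsStarProjection q ∧ (C.T.τ (1 - q)).re < δ ∧
      ‖q * (C.pinch c x - C.ι (C.E x)) * q‖ ≤ ε * ‖x‖ := by
  obtain ⟨c, q, hc, hq, h1, h2⟩ := C.paving_one hε hε1 hr (x := ((‖x‖⁻¹ : ℝ) : ℂ) • x)
    (by rw [star_smul, hx]; simp) (by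
      rw [norm_smul, Complex.norm_real, norm_inv, norm_norm]
      exact inv_mul_le_one_of_le₀ le_rfl (norm_nonneg _)) hδ
  refine ⟨c, q, hc, hq, h1, ?_⟩
  rcases eq_or_ne x 0 with rfl | h0
  · simp [pinch]
  · rw [C.pinch_smul, map_smul, map_smul, ← smul_sub, mul_smul_comm, smul_mul_assoc, norm_smul,
      Complex.norm_real, norm_inv, norm_norm, inv_mul_le_iff₀ (norm_pos_iff.mpr h0)] at h2
    linarith

end Vale.Agent.P078.Ctx
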