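import Vale.Agent.P078.PP
import Mathlib.Topology.Instances.Matrix
import Mathlib.LinearAlgebra.Matrix.Charpoly.Coeff

/-! Minors and the coefficients `cc`. -/

namespace Vale.Agent.P078

open Finset
open scoped ComplexConjugate

variable {V J : Type*} [DecidableEq V] [Fintype J] [DecidableEq J]

section mnr

variable {A A' : V → V → ℂ} {S T Λ : Finset V}

lemma mnr_empty (A : V → V → ℂ) : mnr A ∅ = 1 := by
  simp [mnr]

lemma mnr_singleton (A : V → V → ℂ) (v : V) : mnr A {v} = -A v v := by
  rw [mnr, Matrix.det_unique]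
  simp

lemma mnr_congr (h : ∀ a ∈ S, ∀ b ∈ S, A a b = A' a b) : mnr A S = mnr A' S := by
  unfold mnr
  congr 1
  ext a b
  simp [h a a.2 b b.2]

lemma mnr_union (hd : Disjoint S T) (h : ∀ a ∈ S, ∀ b ∈ T, A a b = 0) :
    mnr A (S ∪ T) = mnr A S * mnr A T := by
  unfold mnr
  rw [← Matrix.det_submatrix_equiv_self (Equiv.Finset.union S T hd),
    ← Matrix.det_fromBlocks_zero₁₂ _ (Matrix.of fun (a : T) (b : S) => -A a b)]
  congr 1
  ext (a | a) (b | b) <;> simp
  exact h a a.2 b b.2

lemma mnr_image {V' : Type*} [DecidableEq V'] {e : V' → V} {S' : Finset V'} (he : Set.InjOn e S') :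
    mnr A (S'.image e) = mnr (fun a b => A (e a) (e b)) S' := by
  unfold mnr
  let φ : S' ≃ S'.image e := Equiv.ofBijective (fun x => ⟨e x, mem_image_of_mem e x.2⟩)
    ⟨fun x y h => Subtype.ext (he x.2 y.2 (congrArg Subtype.val h)), fun y => by
      obtain ⟨x, hx, hxy⟩ := mem_image.1 y.2
      exact ⟨⟨x, hx⟩, Subtype.ext hxy⟩⟩
  rw [← Matrix.det_submatrix_equiv_self φ]
  rfl

lemma mnr_gauge {u : V → ℂ} (hu : ∀ a, ‖u a‖ = 1) :
    mnr (fun a b => conj (u a) * A a b * u b) S = mnr A S := by
  unfold mnr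
  have : (Matrix.of fun a b : S => -(conj (u a) * A a b * u b)) =
      Matrix.diagonal (fun a : S => conj (u a)) * (Matrix.of fun a b : S => -A a b) *
        Matrix.diagonal fun a : S => u a := by
    ext a b
    simp
  rw [this, Matrix.det_mul, Matrix.det_mul, Matrix.det_diagonal, Matrix.det_diagonal,
    mul_right_comm, ← prod_mul_distrib, prod_eq_one, one_mul]
  intro a _
  rw [Complex.conj_mul', hu]
  simp

lemma mnr_conj (h : ∀ a b, A b a = conj (A a b)) (S : Finset V) : conj (mnr A S) = mnr A S := by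
  unfold mnr
  rw [RingHom.map_det, ← Matrix.det_transpose]
  congr 1
  ext a b
  simp [← h b a]

lemma mnr_continuous {X : Type*} [TopologicalSpace X] {A : X → V → V → ℂ}
    (h : ∀ a b, Continuous fun x => A x a b) (S : Finset V) : Continuous fun x => mnr (A x) S :=
  Continuous.matrix_det (continuous_matrix fun a b => (h a b).neg)

lemma det_expand_aux {n : Type*} [Fintype n] [DecidableEq n] (M : Matrix n n ℂ) (a b : n → ℂ) :
    Matrix.det (Matrix.of fun x y => (if x = y then b x else 0) + a x * M x y) =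
      ∑ s : Finset n, (∏ v ∈ s, a v) * (∏ v ∈ univ \ s, b v) *
        (M.submatrix (Subtype.val : s → n) (Subtype.val : s → n)).det := by
  let D := (Matrix.detRowAlternating : (n → ℂ) [⋀^n]→ₗ[ℂ] ℂ)
  have h1 : Matrix.det (Matrix.of fun x y => (if x = y then b x else 0) + a x * M x y) =
      D ((fun x => a x • M x) + fun x => b x • (1 : Matrix n n ℂ) x) := by
    change D _ = D _
    congr 1
    ext x y
    simp [Matrix.one_apply, add_comm]
  rw [h1, D.map_add_univ]
  refine sum_congr rfl fun s _ => ?_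
  have h2 : s.piecewise (fun x => a x • M x) (fun x => b x • (1 : Matrix n n ℂ) x) =
      fun i => (if i ∈ s then a i else b i) • s.piecewise M (1 : Matrix n n ℂ) i := by
    funext i
    simp only [piecewise]
    split_ifs <;> rfl
  rw [h2, D.map_smul_univ, ← Matrix.det_piecewise_one_eq_submatrix_det, prod_ite,
    filter_mem_eq_inter, univ_inter, filter_notMem_eq_sdiff]
  rfl

lemma det_expand (A : V → V → ℂ) (Λ : Finset V) (a b : V → ℂ) :
    ∑ S ∈ Λ.powerset, (∏ v ∈ S, a v) * (∏ v ∈ Λ \ S, b v) * mnr A S =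
      Matrix.det (Matrix.of fun x y : Λ => (if x = y then b x else 0) - a x * A x y) := by
  have h := det_expand_aux (Matrix.of fun x y : Λ => -A x y) (fun x => a x) fun x => b x
  simp only [Matrix.of_apply, mul_neg, ← sub_eq_add_neg] at h
  rw [h]
  symm
  refine sum_nbij' (fun s => s.image Subtype.val) (fun S => S.subtype (· ∈ Λ)) ?_ ?_ ?_ ?_ ?_
  · intro s _
    simp only [mem_powerset]
    intro x hx
    obtain ⟨y, -, rfl⟩ := mem_image.1 hx
    exact y.2
  · simp
  · intro s _
    ext x
    simp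
  · intro S hS
    ext x
    simp only [mem_image, mem_subtype, Subtype.exists, exists_and_right, exists_eq_right]
    exact ⟨fun h => h.2, fun h => ⟨mem_powerset.1 hS h, h⟩⟩
  · intro s _
    rw [mnr_image Subtype.val_injective.injOn, prod_image Subtype.val_injective.injOn]
    have : Λ \ s.image Subtype.val = (univ \ s).image Subtype.val := by
      rw [image_sdiff _ _ Subtype.val_injective]
      simp
    rw [this, prod_image Subtype.val_injective.injOn]
    rfl

end mnr

variable {A A' : J → V → V → ℂ} {q q' : V → J → ℝ} {S T Λ : Finset V} {v : V} {Z Z' : V → ℂ}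

lemma PZ_congr (hq : ∀ v ∈ Λ, q v = q' v) (hZ : ∀ v ∈ Λ, Z v = Z' v) :
    PZ A q Λ Z = PZ A q' Λ Z' := by
  exact PP_congr (fun v hv => by rw [hq v hv, hZ v hv]) fun _ _ _ => rfl

lemma PZ_empty : PZ A q ∅ Z = 1 := by
  simp [PZ, PP_empty, mm, mnr_empty]

lemma PZ_upd (p : J → ℝ) (z : ℂ) :
    PZ A (Function.update q v p) Λ (Function.update Z v z) =
      PP (mm A) Λ (Function.update (fun v => mix (fun j => (q v j : ℂ)) (Z v)) v
        (mix (fun j => (p j : ℂ)) z)) := by
  unfold PZ
  congr 1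
  funext x
  by_cases h : x = v
  · subst h
    simp
  · simp [h]

lemma PZ_level (hv : v ∈ Λ) :
    PZ A q Λ Z = Z v * PZ A q (Λ.erase v) Z + PZ A q Λ (Function.update Z v 0) := by
  have h1 := PZ_upd (A := A) (q := q) (Λ := Λ) (v := v) (Z := Z) (q v) (Z v)
  have h2 := PZ_upd (A := A) (q := q) (Λ := Λ) (v := v) (Z := Z) (q v) 0
  rw [Function.update_eq_self, Function.update_eq_self, PP_mix hv] at h1
  rw [Function.update_eq_self, PP_mix hv] at h2
  rw [h1, h2, zero_mul, zero_add]
  rfl

lemma PZ_expand_aux (T : Finset V) : ∀ Λ, T ⊆ Λ →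
    PZ A q Λ (fun v => if v ∈ T then Z v else 0) =
      ∑ U ∈ T.powerset, cc A q (Λ \ U) * ∏ v ∈ U, Z v := by
  induction T using Finset.induction_on with
  | empty => intro Λ _; simp [cc]
  | insert v T hv ih =>
    intro Λ h
    have hvΛ : v ∈ Λ := h (mem_insert_self _ _)
    have hT : T ⊆ Λ := (subset_insert _ _).trans h
    rw [PZ_level hvΛ, sum_powerset_insert hv, add_comm, ← ih Λ hT]
    congr 1
    · refine PZ_congr (fun _ _ => rfl) fun x _ => ?_
      by_cases hx : x = v
      · simp [hx, hv]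
      · simp [hx]
    · rw [if_pos (mem_insert_self _ _), PZ_congr (Z' := fun v => if v ∈ T then Z v else 0)
        (fun _ _ => rfl) fun x hx => by simp [ne_of_mem_erase hx],
        ih _ (subset_erase.2 ⟨hT, hv⟩), mul_sum]
      refine sum_congr rfl fun U hU => ?_
      rw [prod_insert fun h => hv (mem_powerset.1 hU h), sdiff_insert, erase_sdiff_comm]
      ring

lemma PZ_expand : PZ A q Λ Z = ∑ S ∈ Λ.powerset, cc A q S * ∏ v ∈ Λ \ S, Z v := by
  rw [PZ_congr (Z' := fun v => if v ∈ Λ then Z v else 0) (fun _ _ => rfl)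
    fun x hx => by simp [hx], PZ_expand_aux Λ Λ subset_rfl]
  refine sum_nbij' (fun U => Λ \ U) (fun U => Λ \ U) (by simp) (by simp) ?_ ?_ ?_
  · intro U hU
    exact Finset.sdiff_sdiff_eq_self (mem_powerset.1 hU)
  · intro U hU
    exact Finset.sdiff_sdiff_eq_self (mem_powerset.1 hU)
  · intro U hU
    rw [Finset.sdiff_sdiff_eq_self (mem_powerset.1 hU)]

lemma mix_single_zero (j : J) :
    mix (fun i => ((Pi.single j (1 : ℝ) : J → ℝ) i : ℂ)) 0 = dl {j} := by
  funext I
  rw [mix_apply, sum_eq_single j (fun i _ h => by simp [h]) (by simp)]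
  simp

/-- `PZ` is affine in the level and in the state of a vertex. -/
lemma PZ_update (hv : v ∈ Λ) (p : J → ℝ) (z : ℂ) :
    PZ A (Function.update q v p) Λ (Function.update Z v z) = z * PZ A q (Λ.erase v) Z +
      ∑ j, (p j : ℂ) * PZ A (Function.update q v (Pi.single j 1)) Λ (Function.update Z v 0) := by
  simp only [PZ_upd, mix_single_zero]
  rw [PP_mix hv]
  rfl

lemma PZ_conj (hA : ∀ j a b, A j b a = conj (A j a b)) :
    conj (PZ A q Λ Z) = PZ A q Λ fun v => conj (Z v) := by
  unfold PZ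
  rw [PP_map]
  refine PP_congr (fun v _ => funext fun I => ?_) fun j S _ => mnr_conj (hA j) S
  rw [map_mix]
  simp

lemma PZ_continuous : Continuous fun Z => PZ A q Λ Z := by
  simp only [PZ_expand]
  fun_prop

lemma cc_empty : cc A q ∅ = 1 := by
  exact PZ_empty

lemma cc_congr (hq : ∀ v ∈ S, q v = q' v) (hA : ∀ j, ∀ a ∈ S, ∀ b ∈ S, A j a b = A' j a b) :
    cc A q S = cc A' q' S := by
  exact PP_congr (fun v hv => by rw [hq v hv]) fun j U hU =>
    mnr_congr fun a ha b hb => hA j a (hU ha) b (hU hb)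

lemma cc_zero (hv : v ∈ S) (hq : q v = 0) : cc A q S = 0 := by
  have h := PZ_update (A := A) (q := q) (Z := fun _ => 0) hv 0 0
  rw [← hq, Function.update_eq_self, hq] at h
  simpa [cc] using h

lemma cc_union (hd : Disjoint S T) (h : ∀ j, ∀ a ∈ S, ∀ b ∈ T, A j a b = 0) :
    cc A q (S ∪ T) = cc A q S * cc A q T := by
  exact PP_union hd fun j a ha b hb =>
    mnr_union (hd.mono ha hb) fun x hx y hy => h j x (ha hx) y (hb hy)

lemma cc_image {V' : Type*} [DecidableEq V'] {e : V' → V} {S' : Finset V'} (he : Set.InjOn e S') :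
    cc A q (S'.image e) = cc (fun j a b => A j (e a) (e b)) (fun a => q (e a)) S' := by
  unfold cc PZ
  rw [PP_image he]
  exact PP_congr (fun _ _ => rfl) fun j U hU => mnr_image (he.mono hU)

lemma cc_gauge {u : V → ℂ} (hu : ∀ a, ‖u a‖ = 1) :
    cc (fun j a b => conj (u a) * A j a b * u b) q S = cc A q S := by
  exact PP_congr (fun _ _ => rfl) fun j U _ => mnr_gauge hu

lemma cc_perm (σ : Equiv.Perm J) :
    cc (fun j => A (σ j)) (fun v j => q v (σ j)) S = cc A q S := by
  unfold cc PZ
  rw [← PP_perm (m := mm A) σ]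
  exact PP_congr (fun v _ => funext fun I => (mix_perm σ (fun j => (q v j : ℂ)) 0 I).symm) fun _ _ _ => rfl

lemma cc_continuous {X : Type*} [TopologicalSpace X] {A : X → J → V → V → ℂ}
    (h : ∀ j a b, Continuous fun x => A x j a b) : Continuous fun x => cc (A x) q S := by
  unfold cc PZ PP
  refine continuous_finsetSum _ fun t _ => continuous_const.fun_mul ?_
  exact continuous_finsetProd _ fun j _ => mnr_continuous (h j) _

end Vale.Agent.P078
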