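import Vale.Agent.P078.Mnr
import Mathlib.Analysis.Convex.Basic
import Mathlib.Analysis.Convex.Combination
import Mathlib.Analysis.Complex.Convex
import Mathlib.Analysis.Complex.Polynomial.Basic
import Mathlib.LinearAlgebra.Matrix.ToLinearEquiv
import Mathlib.Analysis.Normed.Module.Convex

/-! Nonvanishing of `PP` on regions with convex complement. -/

namespace Vale.Agent.P078

open Finset
open scoped ComplexConjugate

variable {V J : Type*} [DecidableEq V] [Fintype J] [DecidableEq J]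

/-- Admissible vertex states with levels in `R`. -/
def St (R : Set ℂ) (u : Finset J → ℂ) : Prop :=
  (∃ a b : J → ℂ, u = pr a b ∧ ∀ j, (a j = 1 ∧ b j ∈ R) ∨ (a j = 0 ∧ b j = 1)) ∨
    ∃ (q : J → ℝ) (z : ℂ), Sub q ∧ z ∈ R ∧ u = mix (fun j => (q j : ℂ)) z

/-- Admissible regions. -/
structure Reg (V : Type*) [DecidableEq V] (R : Set ℂ) : Prop where
  convex : Convex ℝ Rᶜ
  zero : (0 : ℂ) ∉ R
  base : ∀ (A : V → V → ℂ) (Λ : Finset V) (Z : V → ℂ), Ctr A → (∀ v ∈ Λ, Z v ∈ R) →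
    Matrix.det (Matrix.of fun x y : Λ => (if x = y then Z x else 0) - A x y) ≠ 0

lemma nv_kernel {A : V → V → ℂ} {Λ : Finset V} {Z : V → ℂ}
    (h : Matrix.det (Matrix.of fun x y : Λ => (if x = y then Z x else 0) - A x y) = 0) :
    ∃ ξ : V → ℂ, (∃ a ∈ Λ, ξ a ≠ 0) ∧ ∀ a ∈ Λ, Z a * ξ a = ∑ b ∈ Λ, A a b * ξ b := by
  obtain ⟨x, hx, h0⟩ := Matrix.exists_mulVec_eq_zero_iff.2 h
  obtain ⟨a, ha⟩ := Function.ne_iff.1 hx
  refine ⟨fun v => if hv : v ∈ Λ then x ⟨v, hv⟩ else 0, ⟨a, a.2, by simpa using ha⟩, ?_⟩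
  intro c hc
  have := congrFun h0 ⟨c, hc⟩
  simp only [Matrix.mulVec, dotProduct, Matrix.of_apply, sub_mul, sum_sub_distrib, ite_mul,
    zero_mul, sum_ite_eq, mem_univ, if_true, Pi.zero_apply, sub_eq_zero] at this
  rw [← sum_coe_sort Λ]
  simpa [hc] using this

omit [DecidableEq V] in
lemma nv_form_conj {A : V → V → ℂ} (h : Ctr A) (Λ : Finset V) (ξ η : V → ℂ) :
    conj (∑ a ∈ Λ, ∑ b ∈ Λ, conj (ξ a) * A a b * η b) =
      ∑ a ∈ Λ, ∑ b ∈ Λ, conj (η a) * A a b * ξ b := by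
  rw [sum_comm, map_sum]
  refine sum_congr rfl fun a _ => ?_
  rw [map_sum]
  refine sum_congr rfl fun b _ => ?_
  rw [h.herm b a]
  simp only [map_mul, Complex.conj_conj]
  ring

omit [DecidableEq V] in
lemma nv_im {A : V → V → ℂ} (h : Ctr A) {Λ : Finset V} {Z ξ : V → ℂ}
    (hξ : ∀ a ∈ Λ, Z a * ξ a = ∑ b ∈ Λ, A a b * ξ b) :
    ∑ a ∈ Λ, (Z a).im * ‖ξ a‖ ^ 2 = 0 := by
  have h1 := Complex.conj_eq_iff_im.1 (nv_form_conj h Λ ξ ξ)
  rw [← h1, Complex.im_sum]
  refine sum_congr rfl fun a ha => ?_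
  simp only [mul_assoc]
  rw [← mul_sum, ← hξ a ha, mul_left_comm, Complex.conj_mul', ← Complex.ofReal_pow,
    Complex.mul_im, Complex.ofReal_im, Complex.ofReal_re, mul_zero, zero_add]

omit [DecidableEq V] in
/-- Operator form of the contraction property. -/
lemma Ctr.sum_sq_le {A : V → V → ℂ} (h : Ctr A) (Λ : Finset V) (ξ : V → ℂ) :
    ∑ a ∈ Λ, ‖∑ b ∈ Λ, A a b * ξ b‖ ^ 2 ≤ ∑ a ∈ Λ, ‖ξ a‖ ^ 2 := by
  set η : V → ℂ := fun a => ∑ b ∈ Λ, A a b * ξ b with hη
  set N : ℝ := ∑ a ∈ Λ, ‖η a‖ ^ 2 with hN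
  have h1 : ∑ a ∈ Λ, ∑ b ∈ Λ, conj (η a) * A a b * ξ b = N := by
    rw [hN, Complex.ofReal_sum]
    refine sum_congr rfl fun a _ => ?_
    simp only [mul_assoc]
    rw [← mul_sum, Complex.ofReal_pow, ← Complex.conj_mul']
  have h2 : ∑ a ∈ Λ, ∑ b ∈ Λ, conj (ξ a) * A a b * η b = N := by
    rw [← nv_form_conj h, h1, Complex.conj_ofReal]
  have h3 : (∑ a ∈ Λ, ∑ b ∈ Λ, conj ((ξ + η) a) * A a b * (ξ + η) b) -
      ∑ a ∈ Λ, ∑ b ∈ Λ, conj ((ξ - η) a) * A a b * (ξ - η) b = ((4 * N : ℝ) : ℂ) := by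
    have : ((4 * N : ℝ) : ℂ) = 2 * ((N : ℂ) + N) := by push_cast; ring
    rw [this]
    nth_rewrite 1 [← h1, ← h2]
    simp only [← sum_sub_distrib, ← sum_add_distrib, mul_sum]
    refine sum_congr rfl fun a _ => sum_congr rfl fun b _ => ?_
    simp only [Pi.add_apply, Pi.sub_apply, map_add, map_sub]
    ring
  have h4 : 4 * N ≤ (∑ a ∈ Λ, ‖(ξ + η) a‖ ^ 2) + ∑ a ∈ Λ, ‖(ξ - η) a‖ ^ 2 := by
    refine le_trans ?_ (add_le_add (h.bdd Λ (ξ + η)) (h.bdd Λ (ξ - η)))
    refine le_trans ?_ (norm_sub_le _ _)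
    rw [h3, Complex.norm_real]
    exact le_abs_self _
  have h5 : (∑ a ∈ Λ, ‖(ξ + η) a‖ ^ 2) + ∑ a ∈ Λ, ‖(ξ - η) a‖ ^ 2 =
      2 * (∑ a ∈ Λ, ‖ξ a‖ ^ 2) + 2 * N := by
    rw [hN, mul_sum, mul_sum, ← sum_add_distrib, ← sum_add_distrib]
    refine sum_congr rfl fun a _ => ?_
    have := parallelogram_law_with_norm ℂ (ξ a) (η a)
    simp only [Pi.add_apply, Pi.sub_apply]
    nlinarith
  linarith

lemma reg_upper : Reg V {z | 0 < z.im} := by
  refine ⟨?_, by simp, fun A Λ Z hA hZ h => ?_⟩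
  · have : {z : ℂ | 0 < z.im}ᶜ = {z | z.im ≤ 0} := by ext; simp
    rw [this]
    exact convex_halfSpace_im_le 0
  · obtain ⟨ξ, ⟨a, ha, h0⟩, hξ⟩ := nv_kernel h
    refine (sum_pos' (fun b hb => ?_) ⟨a, ha, ?_⟩).ne' (nv_im hA hξ)
    · exact mul_nonneg (le_of_lt (hZ b hb)) (by positivity)
    · exact mul_pos (hZ a ha) (by positivity)

lemma reg_lower : Reg V {z | z.im < 0} := by
  refine ⟨?_, by simp, fun A Λ Z hA hZ h => ?_⟩
  · have : {z : ℂ | z.im < 0}ᶜ = {z | 0 ≤ z.im} := by ext; simp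
    rw [this]
    exact convex_halfSpace_im_ge 0
  · obtain ⟨ξ, ⟨a, ha, h0⟩, hξ⟩ := nv_kernel h
    refine (sum_neg' (fun b hb => ?_) ⟨a, ha, ?_⟩).ne (nv_im hA hξ)
    · exact mul_nonpos_of_nonpos_of_nonneg (le_of_lt (hZ b hb)) (by positivity)
    · exact mul_neg_of_neg_of_pos (hZ a ha) (by positivity)

lemma reg_ext : Reg V {z | 1 < ‖z‖} := by
  refine ⟨?_, by simp, fun A Λ Z hA hZ h => ?_⟩
  · have : {z : ℂ | 1 < ‖z‖}ᶜ = Metric.closedBall 0 1 := by ext; simp
    rw [this]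
    exact convex_closedBall 0 1
  · obtain ⟨ξ, ⟨a, ha, h0⟩, hξ⟩ := nv_kernel h
    refine (hA.sum_sq_le Λ ξ).not_gt (sum_lt_sum (fun b hb => ?_) ⟨a, ha, ?_⟩)
    · have h1 : 1 < ‖Z b‖ := hZ b hb
      rw [← hξ b hb, norm_mul, mul_pow]
      exact le_mul_of_one_le_left (by positivity) (one_le_pow₀ h1.le)
    · have h1 : 1 < ‖Z a‖ := hZ a ha
      rw [← hξ a ha, norm_mul, mul_pow]
      exact lt_mul_of_one_lt_left (by positivity) (one_lt_pow₀ h1 two_ne_zero)

lemma Ctr.comp {A : V → V → ℂ} (h : Ctr A) {V' : Type*} {e : V' → V} (he : Function.Injective e) :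
    Ctr fun a b => A (e a) (e b) := by
  refine ⟨fun a b => h.herm _ _, fun Λ ξ => ?_⟩
  have := h.bdd (Λ.image e) (Function.extend e ξ 0)
  simpa only [sum_image he.injOn, he.extend_apply] using this

omit [DecidableEq V] in
lemma Ctr.neg {A : V → V → ℂ} (h : Ctr A) : Ctr fun a b => -A a b := by
  refine ⟨fun a b => by rw [h.herm a b, map_neg], fun Λ ξ => ?_⟩
  simpa only [mul_neg, neg_mul, sum_neg_distrib, norm_neg] using h.bdd Λ ξ

omit [DecidableEq V] in
lemma Ctr.pm {κ : Type*} {Y : V → V → ℂ} (h : Ctr Y) (j : κ × Bool) : Ctr (pm Y j) := by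
  obtain ⟨k, _ | _⟩ := j
  · exact h.neg
  · exact h

lemma nv_base {R : Set ℂ} (hR : Reg V R) {A : V → V → ℂ} (hA : Ctr A) {Λ : Finset V}
    {a b : V → ℂ} (h : ∀ v ∈ Λ, (a v = 1 ∧ b v ∈ R) ∨ (a v = 0 ∧ b v = 1)) :
    ∑ S ∈ Λ.powerset, (∏ v ∈ S, a v) * (∏ v ∈ Λ \ S, b v) * mnr A S ≠ 0 := by
  classical
  set T := Λ.filter fun v => a v = 1 with hT
  have hTΛ : T ⊆ Λ := filter_subset _ _
  have hoff : ∀ v ∈ Λ, v ∉ T → a v = 0 ∧ b v = 1 := fun v hv hn =>
    (h v hv).resolve_left fun h' => hn (mem_filter.2 ⟨hv, h'.1⟩)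
  have hb := hR.base A T b hA fun v hv => by
    rcases h v (hTΛ hv) with h' | h'
    · exact h'.2
    · exact absurd ((mem_filter.1 hv).2.symm.trans h'.1) one_ne_zero
  have he := det_expand A T (fun _ => 1) b
  simp only [one_mul] at he
  rw [← he] at hb
  rw [← sum_subset (powerset_mono.2 hTΛ)]
  · refine fun h0 => hb (Eq.trans (sum_congr rfl fun S hS => ?_) h0)
    have hS' := mem_powerset.1 hS
    rw [prod_congr rfl fun v hv => (mem_filter.1 (hS' hv)).2,
      prod_subset (sdiff_subset_sdiff hTΛ subset_rfl) fun v hv hn => ?_]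
    exact (hoff v (mem_sdiff.1 hv).1 fun h' => hn (mem_sdiff.2 ⟨h', (mem_sdiff.1 hv).2⟩)).2
  · intro S hS hn
    obtain ⟨v, hv, hvT⟩ := not_subset.1 fun h' => hn (mem_powerset.2 h')
    rw [prod_eq_zero hv (hoff v (mem_powerset.1 hS hv) hvT).1, zero_mul, zero_mul]

omit [DecidableEq J] in
lemma nv_convex {C : Set ℂ} (hC : Convex ℝ C) (h0 : (0 : ℂ) ∈ C) {q : J → ℝ} (hq : Sub q)
    {s : J → ℂ} (hs : ∀ j, s j ∈ C) : ∑ j, (q j : ℂ) * s j ∈ C := by
  have := hC.sum_mem (t := univ) (w := fun o : Option J => o.elim (1 - ∑ j, q j) q)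
    (z := fun o => o.elim 0 s) (by rintro (_ | j) -; exacts [sub_nonneg.2 hq.sum_le, hq.nonneg j])
    (by simp [Fintype.sum_option]) (by rintro (_ | j) -; exacts [h0, hs j])
  simpa [Fintype.sum_option] using this

lemma nv_aux {R : Set ℂ} (hR : Reg V R) {A : J → V → V → ℂ} (hA : ∀ j, Ctr (A j))
    (T : Finset V) : ∀ (Λ : Finset V) (w : V → Finset J → ℂ), (∀ v ∈ Λ, St R (w v)) →
      (∀ v ∈ Λ, v ∉ T → ∃ a b : J → ℂ, w v = pr a b ∧
        ∀ j, (a j = 1 ∧ b j ∈ R) ∨ (a j = 0 ∧ b j = 1)) → PP (mm A) Λ w ≠ 0 := by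
  induction T using Finset.induction_on with
  | empty =>
    intro Λ w _ h
    simp only [notMem_empty, not_false_eq_true, forall_const] at h
    choose! a b hw hab using h
    rw [PP_congr hw fun _ _ _ => rfl, PP_pr]
    exact prod_ne_zero_iff.2 fun j _ => nv_base hR (hA j) fun v hv => hab v hv j
  | insert v T hvT ih =>
    intro Λ w hw h
    by_cases hv : v ∈ Λ
    swap
    · refine ih Λ w hw fun x hx hn => h x hx fun h' => ?_
      rcases mem_insert.1 h' with rfl | h'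
      exacts [hv hx, hn h']
    rcases hw v hv with hp | ⟨q, z, hq, hz, hwv⟩
    · refine ih Λ w hw fun x hx hn => ?_
      by_cases hxv : x = v
      · exact hxv ▸ hp
      · exact h x hx (by simp [hxv, hn])
    have h0 : PP (mm A) (Λ.erase v) w ≠ 0 :=
      ih _ w (fun x hx => hw x (mem_of_mem_erase hx)) fun x hx hn =>
        h x (mem_of_mem_erase hx) (by simp [ne_of_mem_erase hx, hn])
    have h1 : ∀ j, -PP (mm A) Λ (Function.update w v (dl {j})) / PP (mm A) (Λ.erase v) w ∈ Rᶜ := by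
      intro j hj
      set ζ := -PP (mm A) Λ (Function.update w v (dl {j})) / PP (mm A) (Λ.erase v) w with hζ
      have hp : ∃ a b : J → ℂ, mix (Pi.single j 1) ζ = pr a b ∧
          ∀ j, (a j = 1 ∧ b j ∈ R) ∨ (a j = 0 ∧ b j = 1) := by
        refine ⟨_, _, mix_single j ζ, fun i => ?_⟩
        by_cases hi : i = j
        · subst hi
          left
          simpa using hj
        · right
          simp [hi]
      refine ih Λ (Function.update w v (mix (Pi.single j 1) ζ)) (fun x hx => ?_)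
        (fun x hx hn => ?_) ?_
      · by_cases hxv : x = v
        · subst hxv
          rw [Function.update_self]
          exact Or.inl hp
        · rw [Function.update_of_ne hxv]
          exact hw x hx
      · by_cases hxv : x = v
        · subst hxv
          rw [Function.update_self]
          exact hp
        · rw [Function.update_of_ne hxv]
          exact h x hx (by simp [hxv, hn])
      · rw [PP_mix hv, sum_eq_single j (fun i _ hi => by simp [hi]) (by simp), hζ,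
          div_mul_cancel₀ _ h0]
        simp
    intro hP
    rw [← Function.update_eq_self v w, hwv, PP_mix hv] at hP
    refine nv_convex hR.convex hR.zero hq h1 (Eq.subst (motive := (· ∈ R)) ?_ hz)
    simp only [← mul_div_assoc, mul_neg, ← sum_div, sum_neg_distrib]
    rw [eq_div_iff h0, eq_neg_iff_add_eq_zero, hP]

theorem PP_ne_zero {R : Set ℂ} (hR : Reg V R) {A : J → V → V → ℂ} (hA : ∀ j, Ctr (A j))
    {Λ : Finset V} {w : V → Finset J → ℂ} (hw : ∀ v ∈ Λ, St R (w v)) : PP (mm A) Λ w ≠ 0 := by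
  exact nv_aux hR hA Λ Λ w hw fun v hv hn => absurd hv hn

lemma PZ_ne_zero {R : Set ℂ} (hR : Reg V R) {A : J → V → V → ℂ} (hA : ∀ j, Ctr (A j))
    {Λ : Finset V} {q : V → J → ℝ} (hq : ∀ v ∈ Λ, Sub (q v)) {Z : V → ℂ} (hZ : ∀ v ∈ Λ, Z v ∈ R) :
    PZ A q Λ Z ≠ 0 := by
  exact PP_ne_zero hR hA fun v hv => Or.inr ⟨q v, Z v, hq v hv, hZ v hv, rfl⟩

/-- If `a + t b` has no zero `t` in the upper half plane, then `Im (a / b) ≥ 0`. -/
lemma im_of_ne_zero {a b : ℂ} (h : ∀ t : ℂ, 0 < t.im → a + t * b ≠ 0) : 0 ≤ (a * conj b).im := by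
  by_cases hb : b = 0
  · simp [hb]
  have h1 : ¬ 0 < (-a / b).im := fun h' => h _ h' (by rw [div_mul_cancel₀ _ hb, add_neg_cancel])
  have h2 : a * conj b = a / b * ((‖b‖ ^ 2 : ℝ) : ℂ) := by
    rw [Complex.ofReal_pow, ← Complex.mul_conj', ← mul_assoc, div_mul_cancel₀ _ hb]
  rw [neg_div, Complex.neg_im] at h1
  rw [h2, Complex.mul_im, Complex.ofReal_im, Complex.ofReal_re, mul_zero, zero_add]
  exact mul_nonneg (by linarith) (by positivity)

/-- The univariate polynomial has all its roots in `[-1, 1]`. -/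
theorem exists_roots {A : J → V → V → ℂ} (hA : ∀ j, Ctr (A j)) {Λ : Finset V} {q : V → J → ℝ}
    (hq : ∀ v ∈ Λ, Sub (q v)) : ∃ μ : Multiset ℝ, μ.card = Λ.card ∧
      (∀ t ∈ μ, t ∈ Set.Icc (-1 : ℝ) 1) ∧
      ∀ z : ℂ, PZ A q Λ (fun _ => z) = (μ.map fun t : ℝ => z - t).prod := by
  set p : Polynomial ℂ :=
    ∑ S ∈ Λ.powerset, Polynomial.C (cc A q S) * Polynomial.X ^ (Λ \ S).card with hp
  have hev : ∀ z, p.eval z = PZ A q Λ fun _ => z := by
    intro z
    simp [hp, PZ_expand (A := A) (q := q) (Λ := Λ), Polynomial.eval_finsetSum]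
  have hdeg : p.natDegree ≤ Λ.card := by
    refine Polynomial.natDegree_sum_le_of_forall_le _ _ fun S _ => ?_
    exact (Polynomial.natDegree_C_mul_X_pow_le _ _).trans (card_le_card sdiff_subset)
  have hco : p.coeff Λ.card = 1 := by
    rw [hp, Polynomial.finsetSum_coeff, sum_eq_single ∅]
    · simp [cc_empty]
    · intro S hS hne
      rw [Polynomial.coeff_C_mul_X_pow, if_neg]
      exact (card_lt_card (sdiff_ssubset (mem_powerset.1 hS) (nonempty_iff_ne_empty.2 hne))).ne'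
    · simp
  have hm : p.Monic := Polynomial.monic_of_natDegree_le_of_coeff_eq_one _ hdeg hco
  have hn : p.natDegree = Λ.card :=
    Polynomial.natDegree_eq_of_le_of_coeff_ne_zero hdeg (by rw [hco]; exact one_ne_zero)
  have hc : p.roots.card = p.natDegree := IsAlgClosed.card_roots_eq_natDegree
  have hr : ∀ r ∈ p.roots, r.im = 0 ∧ ‖r‖ ≤ 1 := by
    intro r hr
    have h0 : PZ A q Λ (fun _ => r) = 0 := by
      rw [← hev]
      exact (Polynomial.mem_roots hm.ne_zero).1 hr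
    refine ⟨le_antisymm (not_lt.1 fun h => ?_) (not_lt.1 fun h => ?_), not_lt.1 fun h => ?_⟩
    · exact PZ_ne_zero reg_upper hA hq (fun _ _ => h) h0
    · exact PZ_ne_zero reg_lower hA hq (fun _ _ => h) h0
    · exact PZ_ne_zero reg_ext hA hq (fun _ _ => h) h0
  refine ⟨p.roots.map Complex.re, by rw [Multiset.card_map, hc, hn], fun t ht => ?_, fun z => ?_⟩
  · obtain ⟨r, h, rfl⟩ := Multiset.mem_map.1 ht
    exact abs_le.1 ((Complex.abs_re_le_norm r).trans (hr r h).2)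
  · rw [← hev, Multiset.map_map]
    nth_rewrite 1 [← Polynomial.prod_multiset_X_sub_C_of_monic_of_roots_card_eq hm hc]
    rw [Polynomial.eval_multiset_prod, Multiset.map_map]
    congr 1
    refine Multiset.map_congr rfl fun r h => ?_
    have : (r.re : ℂ) = r := Complex.ext (by simp) (by simp [(hr r h).1])
    simp [this]

/-- Pick property of the quotient. -/
theorem pick_quot {A : J → V → V → ℂ} (hA : ∀ j, Ctr (A j)) {Λ : Finset V} {q : V → J → ℝ}
    (hq : ∀ v ∈ Λ, Sub (q v)) {v : V} (hv : v ∈ Λ) {z : ℂ} (hz : 0 < z.im) :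
    0 < (PZ A q Λ (fun _ => z) / PZ A q (Λ.erase v) fun _ => z).im := by
  have h0 : PZ A q (Λ.erase v) (fun _ => z) ≠ 0 :=
    PZ_ne_zero reg_upper hA (fun x hx => hq x (mem_of_mem_erase hx)) fun _ _ => hz
  have h1 := im_of_ne_zero (a := PZ A q Λ (Function.update (fun _ => z) v 0))
    (b := PZ A q (Λ.erase v) fun _ => z) fun t ht => by
      have h2 : PZ A q Λ (Function.update (fun _ => z) v t) ≠ 0 :=
        PZ_ne_zero reg_upper hA hq fun x _ => by
          by_cases hx : x = v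
          · simpa [hx] using ht
          · simpa [hx] using hz
      rw [PZ_level hv, Function.update_self, Function.update_idem,
        PZ_congr (Z' := fun _ => z) (fun _ _ => rfl)
          fun x hx => Function.update_of_ne (ne_of_mem_erase hx) _ _, add_comm] at h2
      exact h2
  rw [PZ_level hv, add_div, mul_div_cancel_right₀ _ h0, Complex.add_im, div_eq_mul_inv,
    Complex.inv_def, ← mul_assoc, Complex.mul_im, Complex.ofReal_im, Complex.ofReal_re, mul_zero,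
    zero_add]
  exact add_pos_of_pos_of_nonneg hz (mul_nonneg h1 (inv_nonneg.2 (Complex.normSq_nonneg _)))

end Vale.Agent.P078
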