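import Vale.Agent.P078.Defs

/-! Algebra of `PP`. -/

namespace Vale.Agent.P078

open Finset
open scoped ComplexConjugate

variable {V J R : Type*} [DecidableEq V] [Fintype J] [DecidableEq J] [CommRing R]
variable {m m' : J → Finset V → R} {Λ : Finset V} {w w' : V → Finset J → R} {v : V}

lemma PP_congr (hw : ∀ v ∈ Λ, w v = w' v) (hm : ∀ j, ∀ S ⊆ Λ, m j S = m' j S) :
    PP m Λ w = PP m' Λ w' := by
  unfold PP
  refine sum_congr rfl fun t ht => ?_
  rw [prod_congr rfl fun v hv => congrFun (hw v hv) _,
    prod_congr rfl fun j _ => hm j _ (mem_powerset.1 (Fintype.mem_piFinset.1 ht j))]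

lemma PP_empty (w : V → Finset J → R) : PP m ∅ w = ∏ j, m j ∅ := by
  unfold PP
  simp [Fintype.piFinset_singleton]

lemma PP_upd (hv : v ∈ Λ) (u : Finset J → R) :
    PP m Λ (Function.update w v u) = ∑ t ∈ Fintype.piFinset (fun _ : J => Λ.powerset),
      u (univ.filter fun j => v ∈ t j) *
        ((∏ x ∈ Λ.erase v, w x (univ.filter fun j => x ∈ t j)) * ∏ j, m j (t j)) := by
  unfold PP
  refine sum_congr rfl fun t _ => ?_
  rw [← mul_prod_erase Λ _ hv, Function.update_self, mul_assoc,
    prod_congr rfl fun x hx => by rw [Function.update_of_ne (ne_of_mem_erase hx)]]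

omit [Fintype J] in
lemma dl_apply (I K : Finset J) : (dl I : Finset J → R) K = if K = I then 1 else 0 := by
  simp [dl, Pi.single_apply]

lemma mix_apply (q : J → R) (z : R) (I : Finset J) :
    mix q z I = z * dl ∅ I + ∑ j, q j * dl {j} I := by
  simp [mix, Finset.sum_apply]

lemma PP_update (hv : v ∈ Λ) (u : Finset J → R) :
    PP m Λ (Function.update w v u) = ∑ I, u I * PP m Λ (Function.update w v (dl I)) := by
  simp only [PP_upd hv, mul_sum]
  rw [sum_comm]
  refine sum_congr rfl fun t _ => ?_
  simp [dl_apply]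

lemma PP_erase (hv : v ∈ Λ) : PP m Λ (Function.update w v (dl ∅)) = PP m (Λ.erase v) w := by
  rw [PP_upd hv]
  unfold PP
  symm
  have hs : Fintype.piFinset (fun _ : J => (Λ.erase v).powerset) ⊆
      Fintype.piFinset (fun _ : J => Λ.powerset) :=
    Fintype.piFinset_subset _ _ fun _ => powerset_mono.2 (erase_subset _ _)
  rw [← sum_subset hs]
  · refine sum_congr rfl fun t ht => ?_
    have : (univ.filter fun j => v ∈ t j) = ∅ := by
      refine filter_eq_empty_iff.2 fun j _ h => ?_
      exact notMem_erase v Λ (mem_powerset.1 (Fintype.mem_piFinset.1 ht j) h)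
    rw [this, dl_apply, if_pos rfl, one_mul]
  · intro t ht hn
    rw [dl_apply, if_neg, zero_mul]
    intro h
    refine hn (Fintype.mem_piFinset.2 fun j => mem_powerset.2 fun x hx => ?_)
    refine mem_erase.2 ⟨?_, mem_powerset.1 (Fintype.mem_piFinset.1 ht j) hx⟩
    rintro rfl
    exact filter_eq_empty_iff.1 h (mem_univ j) hx

lemma PP_mix (hv : v ∈ Λ) (q : J → R) (z : R) : PP m Λ (Function.update w v (mix q z)) =
    z * PP m (Λ.erase v) w + ∑ j, q j * PP m Λ (Function.update w v (dl {j})) := by
  rw [← PP_erase hv]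
  simp only [PP_upd hv, mix_apply, add_mul, sum_add_distrib, mul_sum, sum_mul, mul_assoc]
  rw [sum_comm]

lemma PP_pr (a b : V → J → R) : PP m Λ (fun v => pr (a v) (b v)) =
    ∏ j, ∑ S ∈ Λ.powerset, (∏ v ∈ S, a v j) * (∏ v ∈ Λ \ S, b v j) * m j S := by
  rw [prod_univ_sum]
  unfold PP
  refine sum_congr rfl fun t ht => ?_
  simp only [pr, mem_filter, mem_univ, true_and]
  rw [prod_comm, ← prod_mul_distrib]
  refine prod_congr rfl fun j _ => ?_
  have hs := mem_powerset.1 (Fintype.mem_piFinset.1 ht j)
  rw [prod_ite, filter_mem_eq_inter, inter_eq_right.2 hs, filter_notMem_eq_sdiff]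

lemma PP_map {R' : Type*} [CommRing R'] (f : R →+* R') :
    f (PP m Λ w) = PP (fun j S => f (m j S)) Λ fun v I => f (w v I) := by
  simp [PP]

lemma PP_union {S T : Finset V} (hd : Disjoint S T)
    (hm : ∀ j, ∀ a ⊆ S, ∀ b ⊆ T, m j (a ∪ b) = m j a * m j b) :
    PP m (S ∪ T) w = PP m S w * PP m T w := by
  unfold PP
  rw [sum_mul_sum, ← sum_product']
  symm
  refine sum_nbij' (fun p j => p.1 j ∪ p.2 j) (fun t => (fun j => t j ∩ S, fun j => t j ∩ T))
    ?_ ?_ ?_ ?_ ?_
  · intro p hp
    simp only [mem_product, Fintype.mem_piFinset, mem_powerset] at hp ⊢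
    exact fun j => union_subset_union (hp.1 j) (hp.2 j)
  · intro t _
    simp
  · intro p hp
    simp only [mem_product, Fintype.mem_piFinset, mem_powerset] at hp
    refine Prod.ext (funext fun j => ?_) (funext fun j => ?_)
    · simp only [union_inter_distrib_right, inter_eq_left.2 (hp.1 j)]
      rw [disjoint_iff_inter_eq_empty.1 (hd.symm.mono_left (hp.2 j)), union_empty]
    · simp only [union_inter_distrib_right, inter_eq_left.2 (hp.2 j)]
      rw [disjoint_iff_inter_eq_empty.1 (hd.mono_left (hp.1 j)), empty_union]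
  · intro t ht
    simp only [Fintype.mem_piFinset, mem_powerset] at ht
    funext j
    simp only [← inter_union_distrib_left, inter_eq_left.2 (ht j)]
  · intro p hp
    simp only [mem_product, Fintype.mem_piFinset, mem_powerset] at hp
    rw [prod_union hd, prod_congr rfl fun j _ => hm j _ (hp.1 j) _ (hp.2 j), prod_mul_distrib]
    have h1 : ∀ x ∈ S, (univ.filter fun j => x ∈ p.1 j ∪ p.2 j) = univ.filter fun j => x ∈ p.1 j := by
      intro x hx
      refine filter_congr fun j _ => ?_
      have : x ∉ p.2 j := fun h => disjoint_left.1 hd hx (hp.2 j h)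
      simp [this]
    have h2 : ∀ x ∈ T, (univ.filter fun j => x ∈ p.1 j ∪ p.2 j) = univ.filter fun j => x ∈ p.2 j := by
      intro x hx
      refine filter_congr fun j _ => ?_
      have : x ∉ p.1 j := fun h => disjoint_left.1 hd (hp.1 j h) hx
      simp [this]
    rw [prod_congr rfl fun x hx => congrArg (w x) (h1 x hx),
      prod_congr rfl fun x hx => congrArg (w x) (h2 x hx)]
    ring

lemma PP_image {V' : Type*} [DecidableEq V'] {e : V' → V} {Λ' : Finset V'}
    (he : Set.InjOn e Λ') :
    PP m (Λ'.image e) w = PP (fun j S => m j (S.image e)) Λ' fun v => w (e v) := by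
  unfold PP
  symm
  have key : ∀ {a : Finset V'}, a ⊆ Λ' → ∀ x ∈ Λ', (e x ∈ a.image e ↔ x ∈ a) := by
    intro a ha x hx
    refine ⟨fun h => ?_, mem_image_of_mem e⟩
    obtain ⟨y, hy, hxy⟩ := mem_image.1 h
    rwa [← he (ha hy) hx hxy]
  refine sum_nbij' (fun t j => (t j).image e) (fun t j => Λ'.filter fun x => e x ∈ t j)
    ?_ ?_ ?_ ?_ ?_
  · intro t ht
    simp only [Fintype.mem_piFinset, mem_powerset] at ht ⊢
    exact fun j => image_subset_image (ht j)
  · intro t _
    simp
  · intro t ht
    simp only [Fintype.mem_piFinset, mem_powerset] at ht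
    funext j
    ext x
    simp only [mem_filter]
    exact ⟨fun h => (key (ht j) x h.1).1 h.2, fun h => ⟨ht j h, mem_image_of_mem e h⟩⟩
  · intro t ht
    simp only [Fintype.mem_piFinset, mem_powerset] at ht
    funext j
    ext y
    simp only [mem_image, mem_filter]
    constructor
    · rintro ⟨x, ⟨-, h⟩, rfl⟩
      exact h
    · intro h
      obtain ⟨x, hx, rfl⟩ := mem_image.1 (ht j h)
      exact ⟨x, ⟨hx, h⟩, rfl⟩
  · intro t ht
    simp only [Fintype.mem_piFinset, mem_powerset] at ht
    rw [prod_image he]
    congr 1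
    refine prod_congr rfl fun x hx => ?_
    rw [filter_congr fun j _ => key (ht j) x hx]

lemma PP_perm (σ : Equiv.Perm J) :
    PP (fun j => m (σ j)) Λ (fun v I => w v (I.image σ)) = PP m Λ w := by
  unfold PP
  refine sum_nbij' (fun t => t ∘ σ.symm) (fun t => t ∘ σ) ?_ ?_ ?_ ?_ ?_
  · intro t ht
    simp only [Fintype.mem_piFinset, Function.comp_apply] at ht ⊢
    exact fun j => ht _
  · intro t ht
    simp only [Fintype.mem_piFinset, Function.comp_apply] at ht ⊢
    exact fun j => ht _
  · intro t _
    funext j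
    simp
  · intro t _
    funext j
    simp
  · intro t _
    rw [← Equiv.prod_comp σ fun j => m j ((t ∘ σ.symm) j)]
    simp only [Function.comp_apply, Equiv.symm_apply_apply]
    congr 1
    refine prod_congr rfl fun x _ => congrArg _ ?_
    ext j
    simp only [mem_image, mem_filter, mem_univ, true_and]
    constructor
    · rintro ⟨i, h, rfl⟩
      simpa using h
    · intro h
      exact ⟨σ.symm j, h, by simp⟩

lemma map_mix {R' : Type*} [CommRing R'] (f : R →+* R') (q : J → R) (z : R) (I : Finset J) :
    f (mix q z I) = mix (fun j => f (q j)) (f z) I := by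
  simp [mix_apply, dl_apply, apply_ite f]

lemma map_pr {R' : Type*} [CommRing R'] (f : R →+* R') (a b : J → R) (I : Finset J) :
    f (pr a b I) = pr (fun j => f (a j)) (fun j => f (b j)) I := by
  simp [pr, apply_ite f]

lemma mix_perm (σ : Equiv.Perm J) (q : J → R) (z : R) (I : Finset J) :
    mix q z (I.image σ) = mix (fun j => q (σ j)) z I := by
  rw [mix_apply, mix_apply, ← Equiv.sum_comp σ]
  have h : ∀ j, I.image σ = {σ j} ↔ I = {j} := by
    intro j
    rw [← image_singleton, (image_injective σ.injective).eq_iff]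
  simp only [dl_apply, image_eq_empty, h]

lemma dl_empty_eq : (dl ∅ : Finset J → R) = pr (fun _ => 0) fun _ => 1 := by
  funext I
  rw [dl_apply, pr]
  split_ifs with h
  · simp [h]
  · obtain ⟨j, hj⟩ := nonempty_iff_ne_empty.2 h
    symm
    exact prod_eq_zero (mem_univ j) (by simp [hj])

lemma mix_single (i : J) (z : R) : mix (Pi.single i 1) z =
    pr (Pi.single i 1) (Function.update (fun _ => 1) i z) := by
  funext I
  rw [mix_apply, sum_eq_single i (fun j _ h => by simp [h]) (by simp), pr,
    ← mul_prod_erase _ _ (mem_univ i)]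
  simp only [dl_apply, Pi.single_eq_same, Function.update_self, one_mul]
  by_cases h : I ⊆ {i}
  · have hp : ∏ j ∈ univ.erase i, (if j ∈ I then (Pi.single i 1 : J → R) j
        else Function.update (fun _ => (1 : R)) i z j) = 1 := by
      refine prod_eq_one fun j hj => ?_
      have hj' := ne_of_mem_erase hj
      rw [if_neg fun hI => hj' (mem_singleton.1 (h hI)), Function.update_of_ne hj']
    rw [hp]
    rcases subset_singleton_iff.1 h with rfl | rfl
    · simp [(singleton_ne_empty i).symm]
    · simp
  · obtain ⟨j, hj, hji⟩ := not_subset.1 h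
    rw [mem_singleton] at hji
    rw [prod_eq_zero (mem_erase.2 ⟨hji, mem_univ j⟩) (by rw [if_pos hj, Pi.single_eq_of_ne hji]),
      if_neg (by rintro rfl; simp at hj), if_neg (by rintro rfl; simp at h)]
    simp

lemma full_apply (s : R) (I : Finset J) : full s I = s ^ (Fintype.card J - I.card) := by
  simp only [full, pr]
  rw [prod_ite, prod_const_one, one_mul, prod_const, filter_notMem_eq_sdiff, card_univ_sdiff]

/-- Adding `t` to the level of slot `i`. -/
lemma full_add (i : J) (s t : R) :
    pr (fun _ => 1) (Function.update (fun _ => s) i (s + t)) = full s + t • fullBut i s := by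
  funext I
  simp only [Pi.add_apply, Pi.smul_apply, smul_eq_mul, full, fullBut, pr]
  rw [← mul_prod_erase _ _ (mem_univ i), ← mul_prod_erase _ _ (mem_univ i),
    ← mul_prod_erase _ _ (mem_univ i)]
  have h1 : ∏ j ∈ univ.erase i, (if j ∈ I then (1 : R)
      else Function.update (fun _ => s) i (s + t) j) =
      ∏ j ∈ univ.erase i, (if j ∈ I then (1 : R) else s) :=
    prod_congr rfl fun j hj => by rw [Function.update_of_ne (ne_of_mem_erase hj)]
  have h2 : ∏ j ∈ univ.erase i, (if j ∈ I then Function.update (fun _ => (1 : R)) i 0 j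
      else Function.update (fun _ => s) i 1 j) =
      ∏ j ∈ univ.erase i, (if j ∈ I then (1 : R) else s) :=
    prod_congr rfl fun j hj => by
      rw [Function.update_of_ne (ne_of_mem_erase hj), Function.update_of_ne (ne_of_mem_erase hj)]
  rw [h1, h2]
  simp only [Function.update_self]
  split_ifs <;> ring

lemma sum_fullBut (s : R) (I : Finset J) :
    ∑ i, fullBut i s I = (Fintype.card J - I.card : ℕ) * s ^ (Fintype.card J - I.card - 1) := by
  have h : ∀ i, fullBut i s I = if i ∈ I then 0 else s ^ (Fintype.card J - I.card - 1) := by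
    intro i
    simp only [fullBut, pr]
    rw [← mul_prod_erase _ _ (mem_univ i)]
    have h2 : ∏ j ∈ univ.erase i, (if j ∈ I then Function.update (fun _ => (1 : R)) i 0 j
        else Function.update (fun _ => s) i 1 j) =
        ∏ j ∈ univ.erase i, (if j ∈ I then (1 : R) else s) :=
      prod_congr rfl fun j hj => by
        rw [Function.update_of_ne (ne_of_mem_erase hj), Function.update_of_ne (ne_of_mem_erase hj)]
    rw [h2]
    simp only [Function.update_self]
    split_ifs with hi
    · simp
    · rw [one_mul, prod_ite, prod_const_one, one_mul, prod_const, filter_notMem_eq_sdiff,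
        erase_sdiff_comm, card_erase_of_mem (by simp [hi]), card_univ_sdiff]
  simp only [h]
  rw [sum_ite, sum_const_zero, zero_add, sum_const, filter_notMem_eq_sdiff, card_univ_sdiff,
    nsmul_eq_mul]

end Vale.Agent.P078
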