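import Vale.Agent.P078.LS
import Vale.Agent.P078.Mnr
import Vale.Agent.P078.Loc

/-! The global potential and its change in one round. -/

namespace Vale.Agent.P078.LS

open Finset
open scoped ComplexConjugate Pointwise

variable {G X κ : Type*} [Group G] [TopologicalSpace X] [MulAction G X] [DecidableEq G]
  [DecidableEq X] [Fintype κ] [DecidableEq κ] (L : LS G X) (Q : Polynomial ℝ)

/-- Local density of the potential. -/
noncomputable def dens (q : X → κ × Bool → ℝ) (x : X) : ℝ :=
  phi Q (cc (pm L.Y) q) (L.ball (Q.natDegree + 1) x) x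

/-- The potential. -/
noncomputable def Phi (q : X → κ × Bool → ℝ) : ℝ := L.integ (L.dens Q q)

/-- Change of the potential when the state of `x` is set to `p`. -/
noncomputable def Del (q : X → κ × Bool → ℝ) (p : κ × Bool → ℝ) (x : X) : ℝ :=
  Tot Q (cc (pm L.Y) (Function.update q x p)) (L.ball (2 * (Q.natDegree + 1)) x) -
    Tot Q (cc (pm L.Y) q) (L.ball (2 * (Q.natDegree + 1)) x)

variable {L Q} {q q' : X → κ × Bool → ℝ}

lemma phi_ball (Λ : Finset X) (y : X) :
    phi Q (cc (pm L.Y) q) Λ y = phi Q (cc (pm L.Y) q) (Λ ∩ L.ball (Q.natDegree + 1) y) y := by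
  classical
  have ex : ∀ z, ∃ k, z ∈ L.ball k y ∨ k = Q.natDegree + 3 := fun z => ⟨_, Or.inr rfl⟩
  refine phi_local (d := fun z => Nat.find (ex z)) cc_empty
    ((Nat.find_eq_zero _).2 (Or.inl (self_mem_ball _ _))) (fun S _ T _ h => ?_) inter_subset_left
    fun u hu hn => ?_
  · refine cc_union (disjoint_left.2 fun a ha hb => ?_) fun j a ha b hb => ?_
    · have := h a ha a hb
      omega
    · have h1 := h a ha b hb
      have h2 : Nat.find (ex b) ≤ Q.natDegree + 3 := Nat.find_min' _ (Or.inr rfl)
      have h3 : L.Y a b = 0 := by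
        by_contra hY
        have h4 := (Nat.find_spec (ex a)).resolve_right (by omega)
        have h5 : Nat.find (ex b) ≤ Nat.find (ex a) + 1 :=
          Nat.find_min' _ (Or.inl (ball_trans h4 (ball_symm (mem_ball_of_ne hY))))
        omega
      simp [pm, h3]
  · refine (Nat.lt_find_iff _ _).2 fun k hk h => hn (mem_inter.2 ⟨hu, ?_⟩)
    exact ball_mono hk (h.resolve_right (by omega))

lemma Del_congr {x : X} (h : ∀ y ∈ L.ball (2 * (Q.natDegree + 1)) x, q y = q' y)
    (p : κ × Bool → ℝ) : L.Del Q q p x = L.Del Q q' p x := by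
  unfold Del
  refine congrArg₂ (· - ·) ?_ ?_
  · refine Tot_congr fun S hS => cc_congr (fun v hv => ?_) fun _ _ _ _ _ => rfl
    by_cases hx : v = x
    · simp [hx]
    · simp [hx, h v (hS hv)]
  · exact Tot_congr fun S hS => cc_congr (fun v hv => h v (hS hv)) fun _ _ _ _ _ => rfl

lemma Del_perm (σ : Equiv.Perm κ) (p : κ × Bool → ℝ) (x : X) :
    L.Del Q (fun v j => q v (σ j.1, j.2)) (fun j => p (σ j.1, j.2)) x = L.Del Q q p x := by
  have h : ∀ q : X → κ × Bool → ℝ,
      cc (pm L.Y) (fun v (j : κ × Bool) => q v (σ j.1, j.2)) = cc (pm L.Y) q := fun q =>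
    funext fun S => cc_perm (A := pm L.Y) (q := q) (σ.prodCongr (Equiv.refl Bool))
  have h2 : Function.update (fun v (j : κ × Bool) => q v (σ j.1, j.2)) x
      (fun j => p (σ j.1, j.2)) = fun v j => Function.update q x p v (σ j.1, j.2) := by
    funext v
    by_cases hx : v = x
    · subst hx
      simp
    · simp [hx]
  unfold Del
  rw [h2, h, h]

variable [T2Space X] [ContinuousConstSMul G X]

lemma continuous_phi (T : Finset G) {g : G} (hg : g ∈ T) {q : X → X → κ × Bool → ℝ}
    (hq : ∀ g : G, IsLocallyConstant fun x => q x (g • x)) :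
    Continuous fun x => phi Q (cc (pm L.Y) (q x)) (orb T x) (g • x) := by
  refine continuous_iff_continuousAt.2 fun x₀ => ?_
  obtain ⟨T', hT, h'⟩ := L.exists_param T x₀
  have h1 : g • x₀ ∈ T'.image (· • x₀) := h'.self_of_nhds.2 ▸ mem_image_of_mem _ hg
  obtain ⟨g', hg', e⟩ := mem_image.1 h1
  have hc : Continuous fun x => phi Q
      (cc (pm fun a b => L.M a b x) fun a => q x₀ (a • x₀)) T' g' := by
    refine phi_continuous (fun _ => cc_empty) fun S => cc_continuous fun j a b => ?_
    unfold pm
    split_ifs
    exacts [(L.M a b).continuous, (L.M a b).continuous.neg]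
  refine hc.continuousAt.congr ?_
  filter_upwards [h', L.ev_eq T x₀,
    (Filter.eventually_all_finset T').2 fun a _ => (hq a).eventually_eq x₀] with x hx h2 h3
  rw [hx.2, ← (h2 g' (hT hg') g hg).2 e, phi_image hx.1 hg']
  refine phi_congr fun S hS => ?_
  obtain ⟨u, hu, hY⟩ := L.gauge x
  rw [cc_image (hx.1.mono hS), ← cc_gauge hu]
  refine cc_congr (fun a ha => (h3 a (hS ha)).symm) fun j a _ b _ => ?_
  unfold pm
  rw [hY]
  split_ifs <;> ring

lemma continuous_Tot (T : Finset G) {q : X → X → κ × Bool → ℝ}
    (hq : ∀ g : G, IsLocallyConstant fun x => q x (g • x)) :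
    Continuous fun x => Tot Q (cc (pm L.Y) (q x)) (orb T x) := by
  exact L.continuous_sum_orb T (ψ := fun x y => phi Q (cc (pm L.Y) (q x)) (orb T x) y)
    fun g hg => continuous_phi T hg hq

lemma continuous_dens (hq : IsLocallyConstant q) : Continuous (L.dens Q q) := by
  have := continuous_phi (L := L) (Q := Q) (L.Γ ^ (Q.natDegree + 1)) (one_mem_pow L.one_mem)
    (q := fun _ => q) fun g => hq.comp_continuous (continuous_const_smul g)
  simp only [one_smul] at this
  exact this

lemma continuous_Del (hq : IsLocallyConstant q) (p : κ × Bool → ℝ) :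
    Continuous (L.Del Q q p) := by
  refine (continuous_Tot _ (q := fun x => Function.update q x p) fun g => ?_).sub
    (continuous_Tot _ (q := fun _ => q) fun g => hq.comp_continuous (continuous_const_smul g))
  refine (IsLocallyConstant.iff_eventually_eq _).2 fun x₀ => ?_
  filter_upwards [ev_mem (L.isClopen_eq g 1) x₀,
    (hq.comp_continuous (continuous_const_smul g)).eventually_eq x₀] with x h1 h2
  simp only [one_smul, Function.comp_apply] at h1 h2
  simp only [Function.update_apply, h1, h2]

omit [T2Space X] [ContinuousConstSMul G X] in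
lemma Phi_zero : L.Phi Q (0 : X → κ × Bool → ℝ) = Q.eval 0 := by
  have : L.dens Q (0 : X → κ × Bool → ℝ) = fun _ => Q.eval 0 := funext fun x =>
    phi_dead cc_empty fun S _ hv => cc_zero (q := (0 : X → κ × Bool → ℝ)) hv rfl
  rw [Phi, this, integ_const]

theorem round (hq : IsLocallyConstant q) (hq' : IsLocallyConstant q') {U : Set X}
    (hU : IsClopen U) (hs : L.Sep (2 * (Q.natDegree + 1)) U) (h0 : ∀ x ∉ U, q' x = q x)
    {β : X → ℝ} (hβ : Continuous β) (h1 : ∀ x ∈ U, L.Del Q q (q' x) x ≤ β x)
    (h2 : ∀ x ∉ U, 0 ≤ β x) : L.Phi Q q' ≤ L.Phi Q q + L.integ β := by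
  rw [← sub_le_iff_le_add', Phi, Phi, ← integ_sub (continuous_dens hq') (continuous_dens hq)]
  refine transport hU hs ((continuous_dens hq').sub (continuous_dens hq)) hβ (fun y hy => ?_)
    (fun x hx => le_trans (le_of_eq ?_) (h1 x hx)) h2
  · refine sub_eq_zero.2 (phi_congr fun S hS => cc_congr (fun z hz => h0 z fun hU' => ?_)
      fun _ _ _ _ _ => rfl)
    exact hy z hU' (ball_symm (hS hz))
  · unfold Del Tot
    rw [← sum_sub_distrib,
      ← sum_subset (ball_mono (by omega : Q.natDegree + 1 ≤ 2 * (Q.natDegree + 1)))]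
    · refine sum_congr rfl fun y hy => ?_
      have hb : L.ball (Q.natDegree + 1) y ⊆ L.ball (2 * (Q.natDegree + 1)) x := fun z hz =>
        two_mul (Q.natDegree + 1) ▸ ball_trans hy hz
      rw [phi_ball _ y, phi_ball (L.ball (2 * _) x) y, inter_eq_right.2 hb]
      refine congrArg₂ (· - ·) ?_ rfl
      refine phi_congr fun S hS => cc_congr (fun z hz => ?_) fun _ _ _ _ _ => rfl
      by_cases hzx : z = x
      · simp [hzx]
      · rw [Function.update_of_ne hzx]
        exact h0 z fun hU' => hzx (hs x hx z hU' (hb (hS hz)))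
    · intro y _ hy
      rw [phi_ball _ y, phi_ball (q := q) _ y, sub_eq_zero]
      refine phi_congr fun S hS => cc_congr (fun z hz => Function.update_of_ne ?_ _ _)
        fun _ _ _ _ _ => rfl
      rintro rfl
      exact hy (ball_symm (mem_inter.1 (hS hz)).2)

variable [CompactSpace X] [TotallyDisconnectedSpace X]

theorem sweep (hq : IsLocallyConstant q) (hq' : IsLocallyConstant q') {β : ℝ}
    (h : ∀ p : X → κ × Bool → ℝ, (∀ y, p y = q y ∨ p y = q' y) → ∀ x, p x = q x →
      L.Del Q p (q' x) x ≤ β) : L.Phi Q q' ≤ L.Phi Q q + β := by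
  obtain ⟨N, cls, hc, hN, hs⟩ := L.exists_sep (2 * (Q.natDegree + 1))
  let p : ℕ → X → κ × Bool → ℝ := fun t x => if cls x < t then q' x else q x
  have hp : ∀ t, IsLocallyConstant (p t) := fun t =>
    (IsLocallyConstant.iff_eventually_eq _).2 fun x => by
      filter_upwards [hc.eventually_eq x, hq.eventually_eq x, hq'.eventually_eq x] with y a b c
      simp only [p, a, b, c]
  have c1 : ∀ t, Continuous fun x => if cls x < t then β else 0 := fun t =>
    (hc.comp fun k => if k < t then β else 0).continuous
  have c2 : ∀ t, Continuous fun x => if cls x = t then β else 0 := fun t =>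
    (hc.comp fun k => if k = t then β else 0).continuous
  have key : ∀ t, L.Phi Q (p t) ≤ L.Phi Q q + L.integ fun x => if cls x < t then β else 0 := by
    intro t
    induction t with
    | zero => simp [p, integ_const]
    | succ t ih =>
      have h1 := round (hp t) (hp (t + 1)) (hc.isClopen_fiber t) (hs t) (fun x hx => ?_) (c2 t)
        (fun x hx => ?_) fun x hx => (if_neg hx).ge
      · have h2 : (fun x => if cls x < t + 1 then β else 0) = fun x =>
            (if cls x < t then β else 0) + if cls x = t then β else 0 := by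
          funext x
          split_ifs <;> first | omega | simp
        rw [h2, integ_add (c1 t) (c2 t)]
        linarith
      · have hx' : cls x ≠ t := hx
        have : cls x < t + 1 ↔ cls x < t := by omega
        simp only [p, this]
      · have hx' : cls x = t := hx
        have e : p (t + 1) x = q' x := if_pos (by omega)
        rw [if_pos hx', e]
        refine h (p t) (fun y => ?_) x (if_neg (by omega))
        simp only [p]
        split_ifs <;> simp
  have := key N
  simpa [p, hN, integ_const] using this

end Vale.Agent.P078.LS
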