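import Vale.Agent.P078.Main
import Vale.Agent.P085.VN

/-! Strong operator paving in tracial von Neumann algebras. -/

namespace Vale.Agent.P078

open Vale.Agent.P085 Filter
open scoped ComplexOrder Topology InnerProductSpace ComplexStarModule

theorem paving_abs {M : Type*} [CStarAlgebra M] {T : Tr M} (h : FW T) (A : StarSubalgebra ℂ M)
    (hA : ∀ m, m ∈ A ↔ ∀ a ∈ A, m * a = a * m) {ε : ℝ} (hε : 0 < ε) (hε1 : ε < 1) {r : ℕ}
    (hr : 10 ^ 6 / ε ^ 2 ≤ r) {x : M} (hx : star x = x) {δ : ℝ} (hδ : 0 < δ) :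
    ∃ (p : Fin r → M) (a q : M), (∀ i, p i ∈ A ∧ IsStarProjection (p i)) ∧
      (∀ i j, i ≠ j → p i * p j = 0) ∧ ∑ i, p i = 1 ∧ a ∈ A ∧ star a = a ∧ ‖a‖ ≤ ‖x‖ ∧
      IsStarProjection q ∧ (T.τ (1 - q)).re < δ ∧
      ‖q * (∑ i, p i * x * p i - a) * q‖ ≤ ε * ‖x‖ := by
  have hc : IsClosed (A : Set M) := by
    have : (A : Set M) = Set.centralizer (A : Set M) :=
      Set.ext fun m => (hA m).trans (forall₂_congr fun _ _ => eq_comm)
    rw [this]
    exact Set.isClosed_centralizer _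
  let : CommCStarAlgebra A :=
    { StarSubalgebra.cstarAlgebra A with
      mul_comm := fun a b => Subtype.ext ((hA _).mp a.2 _ b.2) }
  let ι : C(WeakDual.characterSpace ℂ A, ℂ) →⋆ₐ[ℂ] M :=
    A.subtype.comp (gelfandStarTransform A).symm
  have hι : ∀ f, ι f ∈ A := fun f => ((gelfandStarTransform A).symm f).2
  have hs : ∀ a ∈ A, ∃ f, ι f = a := fun a ha =>
    ⟨gelfandStarTransform A ⟨a, ha⟩, by simp [ι]⟩
  obtain ⟨C, rfl, hC⟩ := exists_ctx h ι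
    (Subtype.val_injective.comp (gelfandStarTransform A).symm.injective)
    fun m hm => hs m ((hA m).mpr fun a ha => by obtain ⟨f, rfl⟩ := hs a ha; exact hm f)
  have hr0 : r ≠ 0 := by
    rintro rfl
    have : (0 : ℝ) < 10 ^ 6 / ε ^ 2 := by positivity
    simp only [Nat.cast_zero] at hr
    linarith
  have : NeZero r := ⟨hr0⟩
  obtain ⟨c, q, hc, hq, h1, h2⟩ := C.paving hε hε1 hr hx hδ
  let e := (ZMod.finEquiv r).toEquiv
  have hcl : ∀ k, IsClopen (c ⁻¹' {k}) := fun k => hc.isClopen_fiber k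
  have hι' : ∀ f, C.ι f ∈ A := hC ▸ hι
  refine ⟨fun i => C.pj (c ⁻¹' {e i}), C.ι (C.E x), q, fun i => ⟨hι' _, C.pj_proj _⟩,
    fun i j hij => ?_, ?_, hι' _, ?_, ?_, hq, h1, ?_⟩
  · rw [C.pj_mul (hcl _) (hcl _), ← C.pj_empty]
    congr 1
    refine Set.eq_empty_of_forall_notMem fun y hy => hij (e.injective ?_)
    exact hy.1.symm.trans hy.2
  · rw [e.sum_comp fun k => C.pj (c ⁻¹' {k}), C.sum_pj hc]
    simp [C.pj_univ]
  · rw [← map_star, ← C.E_star, hx]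
  · rw [C.norm_ι]
    exact C.norm_E_le hx
  · rw [e.sum_comp fun k => C.pj (c ⁻¹' {k}) * x * C.pj (c ⁻¹' {k})]
    exact h2

variable {H : Type*} [NormedAddCommGroup H] [InnerProductSpace ℂ H] [CompleteSpace H]

attribute [local instance] vn_closed

lemma small_of_trace {M : VonNeumannAlgebra H} {T : Tr M.toStarSubalgebra} (hn : Nrm T)
    (hf : ∀ a, T.n2 a = 0 → a = 0) (ξ : H) {δ : ℝ} (hδ : 0 < δ) : ∃ δ' > 0,
      ∀ e : M.toStarSubalgebra, IsStarProjection e → (T.τ e).re < δ' → ‖e.1 ξ‖ < δ := by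
  by_contra! h
  choose e he h1 h2 using fun n : ℕ => h (1 / ((n : ℝ) + 1)) Nat.one_div_pos_of_nat
  obtain ⟨y, hy, hy'⟩ := hn.exists_lim (hyperfilter ℕ) fun n => (he n).norm_le
  have h3 : Tendsto (fun n => T.n2 (e n - 0)) atTop (𝓝 0) := by
    have : Tendsto (fun n => T.n2 (e n) ^ 2) atTop (𝓝 0) :=
      squeeze_zero (fun n => sq_nonneg _) (fun n => by
        rw [T.n2_sq, (he n).isSelfAdjoint.star_eq, (he n).isIdempotentElem.eq]
        exact (h1 n).le) tendsto_one_div_add_atTop_nhds_zero_nat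
    simpa [Real.sqrt_sq (T.n2_nonneg _)] using this.sqrt
  have h4 : y = 0 := hf _ (sq_eq_zero_iff.mp (by
    rw [T.n2_sq, tendsto_nhds_unique (hy' (star y))
      ((T.tendsto_τ h3 (star y)).mono_left Nat.hyperfilter_le_atTop)]
    simp))
  have h5 := (Complex.continuous_re.tendsto _).comp (hy ξ ξ)
  have h6 := ge_of_tendsto' h5 (b := δ ^ 2) fun n => by
    have hp : IsStarProjection (e n).1 :=
      ⟨congr($((he n).isIdempotentElem.eq).1), congr($((he n).isSelfAdjoint.star_eq).1)⟩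
    have : ⟪ξ, (e n).1 ξ⟫_ℂ = ⟪(e n).1 ξ, (e n).1 ξ⟫_ℂ := by
      rw [← ContinuousLinearMap.adjoint_inner_right, ← ContinuousLinearMap.star_eq_adjoint,
        hp.isSelfAdjoint.star_eq, ← mul_apply_eq_comp, hp.isIdempotentElem.eq]
    simp only [Function.comp, this, inner_self_eq_norm_sq_to_K]
    norm_cast
    exact pow_le_pow_left₀ hδ.le (h2 n) 2
  simp only [h4, ZeroMemClass.coe_zero, zero_apply, inner_zero_right,
    Complex.zero_re] at h6
  nlinarith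

lemma mem_of_comm {M : VonNeumannAlgebra H} {A : StarSubalgebra ℂ (H →L[ℂ] H)}
    (sub : ∀ a ∈ A, a ∈ M) (abelian : ∀ a ∈ A, ∀ b ∈ A, a * b = b * a)
    (maximal : ∀ B : StarSubalgebra ℂ (H →L[ℂ] H), A ≤ B → (∀ b ∈ B, b ∈ M) →
      (∀ a ∈ B, ∀ b ∈ B, a * b = b * a) → B = A) {m : H →L[ℂ] H} (hm : m ∈ M)
    (h : ∀ a ∈ A, m * a = a * m) : m ∈ A := by
  have key : ∀ y ∈ M, star y = y → (∀ a ∈ A, y * a = a * y) → y ∈ A := fun y hy hs h => by
    have h1 : ∀ a ∈ insert y (A : Set (H →L[ℂ] H)), ∀ b ∈ insert y (A : Set (H →L[ℂ] H)),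
        a * b = b * a := by
      rintro a (rfl | ha) b (rfl | hb)
      exacts [rfl, h _ hb, (h _ ha).symm, abelian _ ha _ hb]
    have h2 : ∀ a ∈ insert y (A : Set (H →L[ℂ] H)), star a ∈ insert y (A : Set (H →L[ℂ] H)) := by
      rintro a (rfl | ha)
      exacts [.inl hs, .inr (star_mem ha)]
    have := StarAlgebra.isMulCommutative_adjoin ℂ h1 fun a ha b hb => h1 a ha _ (h2 b hb)
    rw [← maximal (StarAlgebra.adjoin ℂ (insert y (A : Set (H →L[ℂ] H))))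
      (fun a ha => StarAlgebra.subset_adjoin _ _ (.inr ha))
      (fun b hb => StarAlgebra.adjoin_le (S := M.toStarSubalgebra)
        (by rintro a (rfl | ha); exacts [hy, sub a ha]) hb)
      fun a ha b hb => congr($(this.is_comm.comm ⟨a, ha⟩ ⟨b, hb⟩).1)]
    exact StarAlgebra.subset_adjoin _ _ (.inl rfl)
  have h' : ∀ a ∈ A, star m * a = a * star m := fun a ha => by
    simpa using congr(star $(h _ (star_mem ha))).symm
  have hm' : star m ∈ M.toStarSubalgebra := star_mem (show m ∈ M.toStarSubalgebra from hm)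
  have hm0 : m ∈ M.toStarSubalgebra := hm
  have h1 := key (m + star m) (add_mem hm0 hm') (by simp [add_comm]) fun a ha => by
    rw [add_mul, mul_add, h a ha, h' a ha]
  have h2 := key (Complex.I • (m - star m)) (M.toStarSubalgebra.smul_mem (sub_mem hm0 hm') _)
    (by simp [sub_eq_neg_add, add_comm]) fun a ha => by
      rw [smul_mul_assoc, mul_smul_comm, sub_mul, mul_sub, h a ha, h' a ha]
  have h3 : m = (2⁻¹ : ℂ) • ((m + star m) - Complex.I • Complex.I • (m - star m)) := by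
    rw [smul_smul, Complex.I_mul_I]
    module
  rw [h3]
  exact SMulMemClass.smul_mem _ (sub_mem h1 (SMulMemClass.smul_mem _ h2))

theorem so_paving {H : Type*} [NormedAddCommGroup H] [InnerProductSpace ℂ H] [CompleteSpace H]
    (M : VonNeumannAlgebra H) (τ : M.toStarSubalgebra →ₗ[ℂ] ℂ) (unital : τ 1 = 1)
    (positive : ∀ x, 0 ≤ τ (star x * x)) (tracial : ∀ x y, τ (x * y) = τ (y * x))
    (faithful : ∀ x, τ (star x * x) = 0 → x = 0)
    (normal : @ContinuousOn _ _ (TopologicalSpace.induced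
      (fun x : M.toStarSubalgebra => ContinuousLinearMapWOT.ofCLM x.1) inferInstance) _ τ
      {x | ‖x.1‖ ≤ 1})
    (A : StarSubalgebra ℂ (H →L[ℂ] H)) (sub : ∀ a ∈ A, a ∈ M)
    (abelian : ∀ a ∈ A, ∀ b ∈ A, a * b = b * a)
    (maximal : ∀ B : StarSubalgebra ℂ (H →L[ℂ] H), A ≤ B → (∀ b ∈ B, b ∈ M) →
      (∀ a ∈ B, ∀ b ∈ B, a * b = b * a) → B = A)
    (ε : ℝ) (hε : 0 < ε) (hε1 : ε < 1) :
    ∃ r : ℕ, 1 ≤ r ∧ (r : ℝ) ≤ 2000000 / ε ^ 2 ∧ ∀ x ∈ M, IsSelfAdjoint x →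
      ∀ (F : Finset H) (δ : ℝ), 0 < δ → ∃ (p : Fin r → H →L[ℂ] H) (a q : H →L[ℂ] H),
        (∀ i, p i ∈ A ∧ IsStarProjection (p i)) ∧ (∀ i j, i ≠ j → p i * p j = 0) ∧
        ∑ i, p i = 1 ∧ a ∈ A ∧ IsSelfAdjoint a ∧ ‖a‖ ≤ ‖x‖ ∧ q ∈ M ∧ IsStarProjection q ∧
        (∀ ξ ∈ F, ‖(1 - q) ξ‖ < δ) ∧ ‖q * (∑ i, p i * x * p i - a) * q‖ ≤ ε * ‖x‖ := by
  let T : Tr M.toStarSubalgebra := ⟨τ, tracial, positive, unital⟩
  have hn : Nrm T := nrm_of normal
  have hf : ∀ a, T.n2 a = 0 → a = 0 := fun a ha => faithful a (by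
    have := T.n2_sq' a
    rw [ha] at this
    simpa using this)
  have h1 : (1 : ℝ) ≤ 10 ^ 6 / ε ^ 2 := by
    rw [le_div_iff₀ (by positivity)]
    nlinarith
  refine ⟨⌈10 ^ 6 / ε ^ 2⌉₊, Nat.one_le_ceil_iff.mpr (by positivity), ?_, fun x hx hs F δ hδ => ?_⟩
  · have := Nat.ceil_lt_add_one (show (0 : ℝ) ≤ 10 ^ 6 / ε ^ 2 by positivity)
    have h2 : (2000000 : ℝ) / ε ^ 2 = 10 ^ 6 / ε ^ 2 + 10 ^ 6 / ε ^ 2 := by ring
    linarith
  choose d hd hd' using fun ξ => small_of_trace hn hf ξ hδ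
  obtain ⟨δ', h0, hδ'⟩ : ∃ δ' > 0, ∀ ξ ∈ F, δ' ≤ d ξ := by
    rcases F.eq_empty_or_nonempty with rfl | hF
    · exact ⟨1, one_pos, by simp⟩
    · obtain ⟨ξ, -, h⟩ := F.exists_min_image d hF
      exact ⟨d ξ, hd ξ, h⟩
  obtain ⟨p, a, q, hp, hp', hp'', ha, ha', ha'', hq, h2, h3⟩ := paving_abs
    ⟨hf, hn.complete, vn_rp⟩ (A.comap M.toStarSubalgebra.subtype) (fun m =>
      ⟨fun hm a ha => Subtype.ext (abelian _ hm _ ha), fun h => mem_of_comm sub abelian maximal m.2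
        fun a ha => congr($(h ⟨a, sub a ha⟩ ha).1)⟩) hε hε1 (Nat.le_ceil _)
    (x := ⟨x, hx⟩) (Subtype.ext hs) h0
  have hpr : ∀ e : M.toStarSubalgebra, IsStarProjection e → IsStarProjection e.1 := fun e he =>
    ⟨congr($(he.isIdempotentElem.eq).1), congr($(he.isSelfAdjoint.star_eq).1)⟩
  refine ⟨fun i => (p i).1, a.1, q.1, fun i => ⟨(hp i).1, hpr _ (hp i).2⟩,
    fun i j hij => congr($(hp' i j hij).1), by simpa using congr($(hp'').1), ha, congr($(ha').1),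
    ha'', q.2, hpr _ hq, fun ξ hξ => hd' ξ _ hq.one_sub (h2.trans_le (hδ' ξ hξ)), ?_⟩
  have h4 : (q * (∑ i, p i * ⟨x, hx⟩ * p i - a) * q).1 =
      q.1 * (∑ i, (p i).1 * x * (p i).1 - a.1) * q.1 := by simp
  rw [← h4]
  exact h3

end Vale.Agent.P078
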